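import Vale.Agent.P021.Entry

/-! The analytic upper bound for the interpolation determinant. -/

namespace Vale.Agent.P021

open Finset Filter Topology

theorem coeff_avg (P : Polynomial ℂ) {D s : ℕ} (hD : P.natDegree < D) (hs : s < D) {r ω : ℂ}
    (hr : r ≠ 0) (hω : IsPrimitiveRoot ω D) :
    P.coeff s = (D : ℂ)⁻¹ * ∑ l ∈ range D, (r * ω ^ l)⁻¹ ^ s * P.eval (r * ω ^ l) := by
  have hD0 : D ≠ 0 := by omega
  have hω0 : ω ≠ 0 := hω.ne_zero hD0
  have hD1 : (D : ℂ) ≠ 0 := by exact_mod_cast hD0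
  simp only [Polynomial.eval_eq_sum_range' hD, mul_sum (range D) _ (_ ^ s)]
  rw [sum_comm, sum_eq_single s]
  · rw [sum_congr rfl (g := fun _ => P.coeff s) fun l _ => by rw [inv_pow]; field_simp]
    rw [sum_const, card_range, nsmul_eq_mul]
    field_simp
  · intro k hk hks
    have h1 : ∑ l ∈ range D, (ω ^ k / ω ^ s) ^ l = 0 := by
      have h2 : ω ^ k / ω ^ s ≠ 1 := fun h =>
        hks (hω.pow_inj (mem_range.mp hk) hs (by rwa [div_eq_one_iff_eq (pow_ne_zero _ hω0)] at h))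
      rw [geom_sum_eq h2, div_pow, ← pow_mul, ← pow_mul, mul_comm k, mul_comm s, pow_mul, pow_mul,
        hω.pow_eq_one]
      simp
    rw [sum_congr rfl (g := fun l => (P.coeff k * r ^ k / r ^ s) * (ω ^ k / ω ^ s) ^ l)
      fun l _ => by
        simp only [div_pow, mul_pow, inv_pow, ← pow_mul, mul_comm k, mul_comm s]
        field_simp]
    rw [← mul_sum, h1, mul_zero]
  · intro h; exact absurd (mem_range.mpr hs) h

theorem binom (α β A : ℕ) (hA : α ≤ A) (z η : ℂ) :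
    (α.choose β : ℂ) * (z + η) ^ (α - β) =
      ∑ a : Fin (A + 1), ((a : ℕ).choose β * η ^ ((a : ℕ) - β)) *
        (α.choose a * z ^ (α - a)) := by
  rw [Fin.sum_univ_eq_sum_range (fun a => ((a.choose β : ℂ) * η ^ (a - β)) *
    (α.choose a * z ^ (α - a))), ← sum_subset (range_mono (Nat.succ_le_succ hA))
      (fun a _ ha => by simp [Nat.choose_eq_zero_of_lt (show α < a by simpa using ha)])]
  rcases lt_or_ge α β with h | h
  · rw [Nat.choose_eq_zero_of_lt h, sum_eq_zero fun a ha => by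
      simp [Nat.choose_eq_zero_of_lt (show a < β by simp at ha; omega)]]
    simp
  · obtain ⟨d, rfl⟩ := Nat.exists_eq_add_of_le h
    rw [Nat.succ_eq_add_one, add_assoc, sum_range_add, sum_eq_zero fun a ha => by
      simp [Nat.choose_eq_zero_of_lt (mem_range.mp ha)], zero_add, Nat.add_sub_cancel_left,
      add_comm z, add_pow, mul_sum]
    refine sum_congr rfl fun k _ => ?_
    have h1 : (((β + d).choose (β + k) * (β + k).choose β : ℕ) : ℂ) =
        ((β + d).choose β * d.choose k : ℕ) := by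
      rw [Nat.choose_mul (Nat.le_add_right β k)]; simp
    push_cast at h1
    rw [Nat.add_sub_cancel_left, Nat.add_sub_add_left]
    linear_combination (-(η ^ k * z ^ (d - k))) * h1

/-- Taylor coefficients of `exp (h z) z ^ n`. -/
noncomputable def ec (h n k : ℕ) : ℝ := if n ≤ k then (h : ℝ) ^ (k - n) / (k - n).factorial else 0

theorem ec_hasSum (h n : ℕ) (z : ℂ) :
    HasSum (fun k => (ec h n k : ℂ) * z ^ k) (Complex.exp (h * z) * z ^ n) := by
  rw [← hasSum_nat_add_iff' n, sum_eq_zero fun k hk => by simp [ec, mem_range.mp hk], sub_zero]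
  have := (NormedSpace.expSeries_div_hasSum_exp (h * z : ℂ)).mul_right (z ^ n)
  rw [← Complex.exp_eq_exp_ℂ] at this
  have h1 : (fun k => (ec h n (k + n) : ℂ) * z ^ (k + n)) =
      fun k => (h * z) ^ k / (k.factorial : ℂ) * z ^ n := by
    funext k
    simp [ec, mul_pow, pow_add]
    ring
  rwa [h1]

theorem ec_le (h n k : ℕ) {R : ℝ} (hR : 0 ≤ R) :
    |ec h n k| * R ^ k ≤ Real.exp (h * R) * R ^ n := by
  unfold ec
  split_ifs with hk
  · obtain ⟨d, rfl⟩ := Nat.exists_eq_add_of_le hk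
    rw [Nat.add_sub_cancel_left, abs_of_nonneg (by positivity)]
    calc _ = (h * R) ^ d / d.factorial * R ^ n := by ring
      _ ≤ _ := by gcongr; exact Real.pow_div_factorial_le_exp _ (by positivity) d
  · simp; positivity

theorem choose_eta_le (a β : ℕ) {η : ℂ} {ε E E' : ℝ} (hε : 0 < ε) (h1 : ‖η‖ ≤ ε)
    (h2 : 2 * ε ≤ Real.exp (-E')) (h3 : ε⁻¹ ≤ Real.exp E) :
    ‖(a.choose β : ℂ) * η ^ (a - β)‖ ≤ Real.exp (E * β) * Real.exp (-(E' * a)) := by
  rcases lt_or_ge a β with h | h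
  · simp [Nat.choose_eq_zero_of_lt h]; positivity
  · obtain ⟨d, rfl⟩ := Nat.exists_eq_add_of_le h
    rw [norm_mul, norm_pow, Complex.norm_natCast, Nat.add_sub_cancel_left, ← neg_mul,
      mul_comm E, mul_comm (-E'), Real.exp_nat_mul, Real.exp_nat_mul]
    have h4 : (((β + d).choose β : ℕ) : ℝ) ≤ 2 ^ (β + d) := by
      exact_mod_cast Nat.choose_le_two_pow _ _
    calc _ ≤ 2 ^ (β + d) * ε ^ d := by gcongr
      _ = ε⁻¹ ^ β * (2 * ε) ^ (β + d) := by
        rw [mul_pow, pow_add ε, inv_pow]; field_simp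
      _ ≤ _ := by gcongr

variable {m : ℕ}

theorem eval_Phi (T : Fin m → ℕ) (x : Fin m → ℂ) (h : ℕ) (α β : Fin m → ℕ) (A : ℕ)
    (hA : ∀ i, α i ≤ A) (t z : ℂ) (hz : Complex.exp z = 1 + t) :
    (Phi T x h α β).eval t = ∑ a : Fin m → Fin (A + 1),
      (∏ i, (((a i : ℕ).choose (β i) : ℂ) *
        (x i + (logP (T i)).eval t - z) ^ ((a i : ℕ) - β i))) *
      ((∏ i, ((α i).choose (a i) : ℂ)) * (Complex.exp (h * z) * z ^ (∑ i, (α i - a i)))) := by
  simp only [Phi, Polynomial.eval_mul, Polynomial.eval_pow, Polynomial.eval_prod,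
    Polynomial.eval_add, Polynomial.eval_C, Polynomial.eval_one, Polynomial.eval_X]
  rw [prod_congr rfl (g := fun i => ∑ a : Fin (A + 1), ((a : ℕ).choose (β i) *
    (x i + (logP (T i)).eval t - z) ^ ((a : ℕ) - β i)) * ((α i).choose a * z ^ (α i - a)))
    fun i _ => by rw [← binom _ _ A (hA i), add_sub_cancel], Fintype.prod_sum, mul_sum,
    Complex.exp_nat_mul, hz]
  refine sum_congr rfl fun a _ => ?_
  rw [prod_mul_distrib, prod_mul_distrib (g := fun i => z ^ _), prod_pow_eq_pow_sum]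
  ring

theorem analytic {ι : Type*} [Fintype ι] [DecidableEq ι] (T : Fin m → ℕ) (x : ι → Fin m → ℂ)
    (s h : ι → ℕ) (α β : ι → Fin m → ℕ) (A : ℕ) (hA : ∀ c i, α c i ≤ A)
    (L0 R Λ : ℝ) (hR : 1 ≤ R) (ε E E' : Fin m → ℝ) (hε : ∀ i, 0 < ε i)
    (h2 : ∀ i, 2 * ε i ≤ Real.exp (-E' i)) (h3 : ∀ i, (ε i)⁻¹ ≤ Real.exp (E i))
    (hz : ∀ ρ t, ‖t‖ = Real.exp (-L0) → ∃ z, Complex.exp z = 1 + t ∧ ‖z‖ ≤ R * Real.exp (-1) ∧
      ∀ i, ‖x ρ i + (logP (T i)).eval t - z‖ ≤ ε i) :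
    ‖(Matrix.of fun ρ c => (Phi T (x ρ) (h c) (α c) (β ρ)).coeff (s ρ)).det‖ ≤
      ((Fintype.card ι : ℝ) ^ Fintype.card ι) ^ 2 *
      (∏ ρ, Real.exp (L0 * s ρ + ∑ i, E i * β ρ i - Λ)) *
      (∏ c, Real.exp (h c * R) * (2 * R) ^ (∑ i, α c i)) *
      ∏ a : Fin m → Fin (A + 1), Real.exp (Psi (Λ - ∑ i, E' i * (a i : ℕ))) := by
  obtain ⟨D, hD1, hD2⟩ : ∃ D, (∀ ρ c, (Phi T (x ρ) (h c) (α c) (β ρ)).natDegree < D) ∧
      ∀ ρ, s ρ < D := by
    obtain ⟨D1, h1⟩ := (Set.finite_range fun y : ι × ι =>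
      (Phi T (x y.1) (h y.2) (α y.2) (β y.1)).natDegree).bddAbove
    obtain ⟨D2, h2⟩ := (Set.finite_range s).bddAbove
    refine ⟨D1 + D2 + 1, fun ρ c => ?_, fun ρ => ?_⟩
    · have := h1 ⟨(ρ, c), rfl⟩; simp only at this; omega
    · have := h2 ⟨ρ, rfl⟩; omega
  rcases isEmpty_or_nonempty ι with hι | ⟨⟨ρ0⟩⟩
  · simp only [Matrix.det_isEmpty, norm_one, Fintype.card_eq_zero, pow_zero, one_pow,
      univ_eq_empty, prod_empty, one_mul]
    refine one_le_prod fun a _ => Real.one_le_exp ?_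
    unfold Psi; split_ifs <;> positivity
  have hD0 : D ≠ 0 := by have := hD2 ρ0; omega
  have hω := Complex.isPrimitiveRoot_exp D hD0
  set ω := Complex.exp (2 * Real.pi * Complex.I / D)
  let t : ℕ → ℂ := fun l => (Real.exp (-L0) : ℂ) * ω ^ l
  have ht : ∀ l, ‖t l‖ = Real.exp (-L0) := fun l => by
    simp only [t, norm_mul, norm_pow, hω.norm'_eq_one hD0, Complex.norm_real, one_pow, mul_one]
    exact Real.norm_of_nonneg (Real.exp_pos _).le
  choose z hz1 hz2 hz3 using fun ρ l => hz ρ (t l) (ht l)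
  have hR0 : (R : ℂ) ≠ 0 := by exact_mod_cast (by linarith : R ≠ 0)
  let P1 : ι → ℕ → (Fin m → Fin (A + 1)) → ℂ := fun ρ l a => ∏ i, (((a i : ℕ).choose (β ρ i) : ℂ) *
    (x ρ i + (logP (T i)).eval (t l) - z ρ l) ^ ((a i : ℕ) - β ρ i))
  let P2 : ι → (Fin m → Fin (A + 1)) → ℂ := fun c a => ∏ i, ((α c i).choose (a i) : ℂ)
  let AA : ι → (Fin m → Fin (A + 1)) → ℕ → ℂ := fun ρ a k =>
    (D : ℂ)⁻¹ * ∑ l ∈ range D, (t l)⁻¹ ^ s ρ * (P1 ρ l a * (z ρ l / R) ^ k)
  let BB : (Fin m → Fin (A + 1)) → ℕ → ι → ℂ := fun a k c =>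
    P2 c a * (ec (h c) (∑ i, (α c i - a i)) k * R ^ k)
  have hlim : Tendsto (fun n => (Matrix.of fun ρ c =>
      ∑ k : (Fin m → Fin (A + 1)) × Fin n, AA ρ k.1 k.2 * BB k.1 k.2 c).det) atTop
      (𝓝 (Matrix.of fun ρ c => (Phi T (x ρ) (h c) (α c) (β ρ)).coeff (s ρ)).det) := by
    refine ((continuous_id.matrix_det).tendsto _).comp
      (tendsto_pi_nhds.mpr fun ρ => tendsto_pi_nhds.mpr fun c => ?_)
    simp only [Matrix.of_apply]
    rw [coeff_avg _ (hD1 ρ c) (hD2 ρ) (r := (Real.exp (-L0) : ℂ))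
      (by exact_mod_cast (Real.exp_pos _).ne') hω]
    have e1 : ∀ n, ∑ k : (Fin m → Fin (A + 1)) × Fin n, AA ρ k.1 k.2 * BB k.1 k.2 c =
        (D : ℂ)⁻¹ * ∑ l ∈ range D, (t l)⁻¹ ^ s ρ * ∑ a, P1 ρ l a * (P2 c a *
          ∑ k ∈ range n, (ec (h c) (∑ i, (α c i - a i)) k : ℂ) * z ρ l ^ k) := by
      intro n
      rw [Fintype.sum_prod_type]
      simp only [AA, BB, mul_sum, sum_mul]
      rw [sum_comm (s := range D)]
      refine sum_congr rfl fun a _ => ?_
      rw [sum_comm]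
      refine sum_congr rfl fun l _ => ?_
      rw [← Fin.sum_univ_eq_sum_range (fun k => (D : ℂ)⁻¹ * ((t l)⁻¹ ^ s ρ * (P1 ρ l a *
        (P2 c a * ((ec (h c) (∑ i, (α c i - a i)) k : ℂ) * z ρ l ^ k)))))]
      refine sum_congr rfl fun k _ => ?_
      rw [div_pow]
      field_simp
    simp only [e1]
    refine Tendsto.const_mul _ (tendsto_finsetSum _ fun l _ => Tendsto.const_mul _ ?_)
    rw [eval_Phi T (x ρ) (h c) (α c) (β ρ) A (hA c) _ (z ρ l) (hz1 ρ l)]
    exact tendsto_finsetSum _ fun a _ => Tendsto.const_mul _ (Tendsto.const_mul _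
      (ec_hasSum _ _ _).tendsto_sum_nat)
  refine le_of_tendsto' hlim.norm fun n => ?_
  refine (det_bound (κ := (Fin m → Fin (A + 1)) × Fin n) (fun ρ k => AA ρ k.1 k.2)
    (fun k c => BB k.1 k.2 c) (fun ρ => Real.exp (L0 * s ρ + ∑ i, E i * β ρ i - Λ))
    (fun c => Real.exp (h c * R) * (2 * R) ^ (∑ i, α c i))
    (fun k => Real.exp (Λ - ∑ i, E' i * (k.1 i : ℕ) - (k.2 : ℕ))) (fun _ => by positivity)
    (fun _ => by positivity) (fun _ => by positivity) ?_ ?_).trans ?_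
  · rintro ρ ⟨a, k⟩
    simp only [AA]
    rw [norm_mul, norm_inv, Complex.norm_natCast,
      inv_mul_le_iff₀ (by exact_mod_cast Nat.pos_of_ne_zero hD0)]
    refine (norm_sum_le _ _).trans ((sum_le_card_nsmul _ _ _ fun l _ => ?_).trans
      (by rw [card_range, nsmul_eq_mul]))
    have e1 : ‖P1 ρ l a‖ ≤ ∏ i, Real.exp (E i * β ρ i) * Real.exp (-(E' i * (a i : ℕ))) := by
      simp only [P1]
      rw [norm_prod]
      exact prod_le_prod (fun _ _ => norm_nonneg _) fun i _ =>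
        choose_eta_le _ _ (hε i) (hz3 ρ l i) (h2 i) (h3 i)
    have e2 : ‖z ρ l / R‖ ≤ Real.exp (-1) := by
      rw [norm_div, Complex.norm_real, Real.norm_of_nonneg (by linarith),
        div_le_iff₀' (by linarith)]
      exact hz2 ρ l
    rw [norm_mul, norm_mul, norm_pow, norm_pow, norm_inv, ht, ← Real.exp_neg, neg_neg]
    calc _ ≤ Real.exp L0 ^ s ρ * ((∏ i, Real.exp (E i * β ρ i) *
          Real.exp (-(E' i * (a i : ℕ)))) * Real.exp (-1) ^ (k : ℕ)) := by gcongr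
      _ = _ := by
        simp only [← Real.exp_nat_mul, ← Real.exp_add, ← Real.exp_sum, sum_add_distrib,
          sum_neg_distrib]
        congr 1; ring
  · rintro ⟨a, k⟩ c
    simp only [BB, P2]
    rw [norm_mul, norm_mul, norm_prod, norm_pow, Complex.norm_real, Complex.norm_real,
      Real.norm_of_nonneg (by linarith : 0 ≤ R), Real.norm_eq_abs]
    have e1 : ∏ i, ‖((α c i).choose (a i) : ℂ)‖ ≤ 2 ^ ∑ i, α c i := by
      rw [← prod_pow_eq_pow_sum]
      refine prod_le_prod (fun _ _ => norm_nonneg _) fun i _ => ?_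
      rw [Complex.norm_natCast]
      exact_mod_cast Nat.choose_le_two_pow _ _
    have e2 : R ^ (∑ i, (α c i - a i)) ≤ R ^ ∑ i, α c i :=
      pow_le_pow_right₀ hR (sum_le_sum fun i _ => Nat.sub_le _ _)
    calc _ ≤ 2 ^ (∑ i, α c i) * (Real.exp (h c * R) * R ^ ∑ i, α c i) := by
          refine mul_le_mul e1 ((ec_le _ _ _ (by linarith)).trans ?_) (by positivity)
            (by positivity)
          gcongr
      _ = _ := by rw [mul_pow]; ring
  · refine mul_le_mul_of_nonneg_left ?_ (by positivity)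
    rw [Fintype.prod_prod_type]
    refine prod_le_prod (fun _ _ => by positivity) fun a _ => ?_
    simp only
    rw [Fin.prod_univ_eq_prod_range (fun k => 1 + Real.exp (Λ - ∑ i, E' i * (a i : ℕ) - k))]
    exact prod_exp_le _ _

end Vale.Agent.P021
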