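import Vale.Agent.P021.Core

/-! Counting estimates and the passage to large degree. -/

namespace Vale.Agent.P021

open Finset Filter Topology

variable {m : ℕ}

theorem psi_sum_le {w : Fin m → ℝ} (hw : ∀ i, 0 < w i) {ν X Y : ℝ} (hν : 0 < ν) (hY : ν * X ≤ Y)
    (A : ℕ) : ∑ a : Fin m → Fin (A + 1), Psi (ν * X - ∑ i, ν * w i * (a i : ℕ)) ≤
      #(lat w X) * (Y + 2) ^ 2 + 2 * ((A : ℝ) + 1) ^ m := by
  let S := univ.filter fun a : Fin m → Fin (A + 1) => ∑ i, w i * (a i : ℕ) ≤ X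
  have h1 : #S ≤ #(lat w X) := by
    refine card_le_card_of_injOn (fun a => Finsupp.equivFunOnFinite.symm fun i => (a i : ℕ))
      (fun a ha => ?_) fun a _ b _ h => ?_
    · rw [mem_coe, mem_lat hw]
      simpa [wt] using (mem_filter.mp ha).2
    · funext i
      exact Fin.ext (congrFun (Finsupp.equivFunOnFinite.symm.injective h) i)
  calc _ ≤ ∑ a : Fin m → Fin (A + 1), ((if a ∈ S then (Y + 2) ^ 2 else 0) + 2) := by
        refine sum_le_sum fun a _ => ?_
        simp only [mul_assoc, ← mul_sum, ← mul_sub]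
        have h2 : 0 ≤ ∑ i, w i * (a i : ℕ) :=
          sum_nonneg fun i _ => mul_nonneg (hw i).le (Nat.cast_nonneg _)
        unfold Psi
        split_ifs with h3 h4 h4
        · nlinarith [Real.exp_le_one_iff.mpr h3, sq_nonneg (Y + 2)]
        · linarith [Real.exp_le_one_iff.mpr h3]
        · have h5 : ν * (X - ∑ i, w i * (a i : ℕ)) ≤ Y := by nlinarith
          nlinarith
        · exfalso
          simp only [S, mem_filter, mem_univ, true_and, not_le] at h4
          exact h3 (by nlinarith)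
    _ = #S * (Y + 2) ^ 2 + 2 * ((A : ℝ) + 1) ^ m := by
        rw [sum_add_distrib, sum_ite_mem, univ_inter]
        simp [mul_comm]
    _ ≤ _ := by gcongr

theorem rows_lower {v : Fin (m + 1) → ℝ} (hv : ∀ a, 0 < v a) {H y : ℝ} (hH : 0 ≤ H) (hy : 0 ≤ y) :
    y * (#(lat v H) - (H / v 0 + 1) * #(lat (fun i : Fin m => v i.succ) y)) ≤
      ∑ μ ∈ lat v H, ∑ i : Fin m, v i.succ * μ i.succ := by
  let S := (lat v H).filter fun μ => wt (fun i : Fin m => v i.succ) μ.tail ≤ y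
  have h1 : #S ≤ #(range (⌊H / v 0⌋₊ + 1) ×ˢ lat (fun i : Fin m => v i.succ) y) := by
    refine card_le_card_of_injOn (fun μ => (μ 0, μ.tail)) (fun μ hμ => ?_) fun μ _ μ' _ h => ?_
    · obtain ⟨h1, h2⟩ := mem_filter.mp hμ
      rw [mem_coe, mem_product, mem_lat fun i => hv _, mem_range, Nat.lt_succ_iff]
      refine ⟨Nat.le_floor ?_, h2⟩
      rw [le_div_iff₀ (hv 0)]
      linarith [le_wt (fun a => (hv a).le) μ 0, (mem_lat hv).mp h1]
    · simp only [Prod.mk.injEq] at h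
      rw [← μ.cons_tail, ← μ'.cons_tail, h.1, h.2]
  have h2 : (#S : ℝ) ≤ (H / v 0 + 1) * #(lat (fun i : Fin m => v i.succ) y) := by
    rw [card_product, card_range] at h1
    have h3 : (#S : ℝ) ≤ (⌊H / v 0⌋₊ + 1) * #(lat (fun i : Fin m => v i.succ) y) := by
      exact_mod_cast h1
    refine h3.trans ?_
    gcongr
    exact Nat.floor_le (div_nonneg hH (hv 0).le)
  calc _ ≤ y * (#(lat v H) - #S) := by gcongr
    _ = ∑ μ ∈ lat v H, (y - if wt (fun i : Fin m => v i.succ) μ.tail ≤ y then y else 0) := by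
        rw [sum_sub_distrib, ← sum_filter]
        simp [S, mul_sub, mul_comm]
    _ ≤ _ := by
        refine sum_le_sum fun μ _ => ?_
        have h3 : wt (fun i : Fin m => v i.succ) μ.tail = ∑ i : Fin m, v i.succ * μ i.succ := rfl
        have h4 := wt_nonneg (w := fun i : Fin m => v i.succ) (fun i => (hv _).le) μ.tail
        split_ifs with h <;> linarith

theorem tendsto_div (c : ℝ) : Tendsto (fun H : ℝ => c / H) atTop (𝓝 0) :=
  tendsto_const_nhds.div_atTop tendsto_id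

theorem ev_bad {v : Fin (m + 1) → ℝ} (hv : ∀ a, 0 < v a) {γ : ℝ} (hγ1 : γ ≤ 1)
    (h : (m + 1) * (1 - γ) ^ m < γ) : ∀ᶠ H : ℝ in atTop,
    (H / v 0 + 1) * #(lat (fun i : Fin m => v i.succ) ((1 - γ) * H)) ≤ γ * #(lat v H) := by
  have h1 : Tendsto (fun H : ℝ => (m + 1) * (1 + v 0 / H) *
      (1 - γ + (∑ i : Fin m, v i.succ) / H) ^ m) atTop (𝓝 ((m + 1) * (1 + 0) * (1 - γ + 0) ^ m)) :=
    (((tendsto_div _).const_add _).const_mul _).mul (((tendsto_div _).const_add _).pow m)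
  rw [add_zero, add_zero, mul_one] at h1
  filter_upwards [h1.eventually (gt_mem_nhds h), eventually_gt_atTop 0] with H h2 hH
  have h3 := lat_lower _ v hv H hH.le
  have h4 := lat_upper _ (fun i : Fin m => v i.succ) (fun i => hv _) ((1 - γ) * H)
    (mul_nonneg (by linarith) hH.le)
  have h5 : ((1 - γ) * H + ∑ i : Fin m, v i.succ) ^ m =
      (1 - γ + (∑ i : Fin m, v i.succ) / H) ^ m * H ^ m := by
    rw [← mul_pow]; congr 1; field_simp
  have h0 := hv 0
  have hV : 0 < ∏ i : Fin m, v i.succ := prod_pos fun a _ => hv _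
  have hf : (0 : ℝ) < m.factorial := by exact_mod_cast m.factorial_pos
  have hγ : 0 ≤ γ := le_trans (mul_nonneg (by positivity) (pow_nonneg (by linarith) _)) h.le
  rw [Fin.prod_univ_succ, Nat.factorial_succ] at h3
  push_cast at h3
  refine le_of_mul_le_mul_left (a := (m + 1) * m.factorial * (v 0 * ∏ i : Fin m, v i.succ)) ?_
    (by positivity)
  calc _ = (m + 1) * (1 + v 0 / H) * H * (m.factorial * (∏ i : Fin m, v i.succ) *
        #(lat (fun i : Fin m => v i.succ) ((1 - γ) * H))) := by field_simp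
    _ ≤ (m + 1) * (1 + v 0 / H) * H * ((1 - γ + (∑ i : Fin m, v i.succ) / H) ^ m * H ^ m) := by
        rw [← h5]; gcongr
    _ = ((m + 1) * (1 + v 0 / H) * (1 - γ + (∑ i : Fin m, v i.succ) / H) ^ m) * H ^ (m + 1) := by
        ring
    _ ≤ γ * ((m + 1) * m.factorial * (v 0 * ∏ i : Fin m, v i.succ) * #(lat v H)) := by gcongr
    _ = _ := by ring

theorem ev_low {v : Fin (m + 1) → ℝ} (hv : ∀ a, 0 < v a) {w : Fin m → ℝ} (hw : ∀ a, 0 < w a)
    {γ a ν K : ℝ} (ha : 0 ≤ a) (hγ : 0 ≤ γ * K)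
    (h : (m + 1) * v 0 * (∏ i : Fin m, v i.succ) * a ^ m * ν ^ 2 < γ * K * ∏ i, w i) :
    ∀ᶠ H : ℝ in atTop, #(lat w (a * H)) * (ν * H + 2) ^ 2 ≤ γ * K * #(lat v H) * H := by
  have h1 : Tendsto (fun H : ℝ => (m + 1) * v 0 * (∏ i : Fin m, v i.succ) *
      (a + (∑ i, w i) / H) ^ m * (ν + 2 / H) ^ 2) atTop
      (𝓝 ((m + 1) * v 0 * (∏ i : Fin m, v i.succ) * (a + 0) ^ m * (ν + 0) ^ 2)) :=
    ((((tendsto_div _).const_add _).pow m).const_mul _).mul (((tendsto_div _).const_add _).pow 2)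
  rw [add_zero, add_zero] at h1
  filter_upwards [h1.eventually (gt_mem_nhds h), eventually_gt_atTop 0] with H h2 hH
  have h3 := lat_lower _ v hv H hH.le
  have h4 := lat_upper _ w hw (a * H) (by positivity)
  have h5 : (a * H + ∑ i, w i) ^ m = (a + (∑ i, w i) / H) ^ m * H ^ m := by
    rw [← mul_pow]; congr 1; field_simp
  have h0 := hv 0
  have hV : 0 < ∏ i : Fin m, v i.succ := prod_pos fun a _ => hv _
  have hW : 0 < ∏ i, w i := prod_pos fun a _ => hw _
  have hf : (0 : ℝ) < m.factorial := by exact_mod_cast m.factorial_pos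
  rw [Fin.prod_univ_succ, Nat.factorial_succ] at h3
  push_cast at h3
  refine le_of_mul_le_mul_left
    (a := (m + 1) * m.factorial * (v 0 * ∏ i : Fin m, v i.succ) * ∏ i, w i) ?_ (by positivity)
  calc _ = (m + 1) * v 0 * (∏ i : Fin m, v i.succ) * (ν + 2 / H) ^ 2 * H ^ 2 *
        (m.factorial * (∏ i, w i) * #(lat w (a * H))) := by field_simp
    _ ≤ (m + 1) * v 0 * (∏ i : Fin m, v i.succ) * (ν + 2 / H) ^ 2 * H ^ 2 *
        ((a + (∑ i, w i) / H) ^ m * H ^ m) := by rw [← h5]; gcongr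
    _ = ((m + 1) * v 0 * (∏ i : Fin m, v i.succ) * (a + (∑ i, w i) / H) ^ m * (ν + 2 / H) ^ 2) *
        H * H ^ (m + 1) := by ring
    _ ≤ (γ * K * ∏ i, w i) * H *
        ((m + 1) * m.factorial * (v 0 * ∏ i : Fin m, v i.succ) * #(lat v H)) := by gcongr
    _ = _ := by ring

theorem ev_box {v : Fin (m + 1) → ℝ} (hv : ∀ a, 0 < v a) {c : ℝ} (hc : 0 < c) (b : ℝ) :
    ∀ᶠ H : ℝ in atTop, 2 * (H + b) ^ m ≤ c * #(lat v H) * H := by
  have h1 : Tendsto (fun H : ℝ => ((m + 1).factorial * ∏ a, v a) * 2 * (1 + b / H) ^ m *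
      (1 / H) ^ 2) atTop (𝓝 (((m + 1).factorial * ∏ a, v a) * 2 * (1 + 0) ^ m * 0 ^ 2)) :=
    ((((tendsto_div _).const_add _).pow m).const_mul _).mul ((tendsto_div _).pow 2)
  rw [zero_pow two_ne_zero, mul_zero] at h1
  filter_upwards [h1.eventually (gt_mem_nhds hc), eventually_gt_atTop 0] with H h2 hH
  have h3 := lat_lower _ v hv H hH.le
  have h5 : (H + b) ^ m = (1 + b / H) ^ m * H ^ m := by
    rw [← mul_pow]; congr 1; field_simp
  have hV : 0 < ∏ a, v a := prod_pos fun a _ => hv _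
  have hf : (0 : ℝ) < (m + 1).factorial := by exact_mod_cast (m + 1).factorial_pos
  refine le_of_mul_le_mul_left (a := (m + 1).factorial * ∏ a, v a) ?_ (by positivity)
  calc _ = (((m + 1).factorial * ∏ a, v a) * 2 * (1 + b / H) ^ m * (1 / H) ^ 2) * H *
        H ^ (m + 1) := by rw [h5]; field_simp; ring
    _ ≤ c * H * ((m + 1).factorial * (∏ a, v a) * #(lat v H)) := by gcongr
    _ = _ := by ring

theorem ev_log {n : ℕ} {v : Fin n → ℝ} (hv : ∀ a, 0 < v a) {c : ℝ} (hc : 0 < c) (K : ℕ) :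
    ∀ᶠ H : ℝ in atTop, Real.log (K * #(lat v H) : ℕ) ≤ c * H := by
  have hV : 0 < ∏ a, v a := prod_pos fun a _ => hv _
  have hf : (0 : ℝ) < n.factorial := by exact_mod_cast n.factorial_pos
  have h1 := (isLittleO_pow_exp_pos_mul_atTop n hc).bound
    (c := n.factorial * (∏ a, v a) / ((K + 1) * 2 ^ n)) (by positivity)
  filter_upwards [h1, eventually_gt_atTop 0, eventually_ge_atTop (∑ a, v a)] with H h2 hH hS
  rcases Nat.eq_zero_or_pos (K * #(lat v H)) with h | h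
  · rw [h]; simp; positivity
  rw [Real.log_le_iff_le_exp (by exact_mod_cast h)]
  rw [Real.norm_of_nonneg (by positivity), Real.norm_of_nonneg (by positivity),
    div_mul_eq_mul_div, le_div_iff₀ (by positivity)] at h2
  have h4 := lat_upper _ v hv H hH.le
  have h0 : 0 ≤ ∑ a, v a := sum_nonneg fun a _ => (hv a).le
  refine le_of_mul_le_mul_left (a := n.factorial * ∏ a, v a) (le_trans ?_ h2) (by positivity)
  push_cast
  calc _ = K * (n.factorial * (∏ a, v a) * #(lat v H)) := by ring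
    _ ≤ (K + 1) * (2 * H) ^ n := by
        refine mul_le_mul (by linarith) (h4.trans ?_) (by positivity) (by positivity)
        gcongr; linarith
    _ = _ := by ring

theorem final_ineq {ν θ γ a H H' N1 K B S l P L Bx : ℝ} (hγ0 : 0 < γ) (hγ1 : γ ≤ 1 / 2)
    (hθ : 0 < θ) (hθ1 : θ ≤ 1) (ha1 : a ≤ 1) (hH : 0 < H) (hN : 0 < N1) (hK : 0 < K)
    (hgap : 12 * γ ≤ ν * a - ν * θ - 1 + θ) (hH' : H' ≤ (1 + γ) * H)
    (h1 : (1 - γ) * H * (N1 - B) ≤ S) (h2 : B ≤ γ * N1) (h3 : l ≤ γ / 2 * H)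
    (h4 : P ≤ L + Bx) (h5 : L ≤ γ * K * N1 * H) (h6 : Bx ≤ γ * K * N1 * H)
    (h : K * (θ * S) ≤ 2 * (K * N1 * l) +
      K * N1 * (ν * θ * H - (ν - γ) * (a * H) + (1 + 2 * γ) * H') + P) : False := by
  have e1 : (1 - γ) * H * ((1 - γ) * N1) ≤ S := le_trans (by
    have : 0 ≤ (1 - γ) * H := mul_nonneg (by linarith) hH.le
    gcongr; linarith) h1
  have hX : 0 < K * N1 * H := by positivity
  have e2 : K * N1 * H * (θ * (1 - γ) ^ 2) ≤ K * (θ * S) := by
    calc _ = K * (θ * ((1 - γ) * H * ((1 - γ) * N1))) := by ring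
      _ ≤ _ := by gcongr
  have e3 : 2 * (K * N1 * l) ≤ K * N1 * H * γ := by
    calc _ ≤ 2 * (K * N1 * (γ / 2 * H)) := by gcongr
      _ = _ := by ring
  have e4 : K * N1 * (ν * θ * H - (ν - γ) * (a * H) + (1 + 2 * γ) * H') ≤
      K * N1 * H * (ν * θ - (ν - γ) * a + (1 + 2 * γ) * (1 + γ)) := by
    calc _ ≤ K * N1 * (ν * θ * H - (ν - γ) * (a * H) + (1 + 2 * γ) * ((1 + γ) * H)) := by gcongr
      _ = _ := by ring
  have e5 : K * N1 * H * (θ * (1 - γ) ^ 2) ≤ K * N1 * H *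
      (3 * γ + (ν * θ - (ν - γ) * a + (1 + 2 * γ) * (1 + γ))) := by linarith
  have e6 := le_of_mul_le_mul_left e5 hX
  nlinarith [mul_le_mul_of_nonneg_left ha1 hγ0.le, mul_le_mul_of_nonneg_left hθ1 hγ0.le,
    mul_pos hθ (mul_pos hγ0 hγ0), mul_le_mul_of_nonneg_left hγ1 hγ0.le]

end Vale.Agent.P021
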