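import Vale.Agent.P021.Anal

/-! The inequality obtained from one interpolation determinant. -/

namespace Vale.Agent.P021

open Finset MvPolynomial

variable {m : ℕ}

theorem exists_det {K : ℕ} {w v : Fin (m + 1) → ℝ} (hw : ∀ a, 0 < w a) (hv : ∀ a, 0 < v a)
    (T : Fin m → ℕ) (x : Fin K → Fin m → ℂ) {H H' : ℝ}
    (hs : ∀ y : Fin K → MvPolynomial (Fin (m + 1)) ℂ, ∃ P ∈ VH w H',
      ∀ j, psi T (x j) P - y j ∈ NI (fun a => (hv a).le) (H + 1)) :
    ∃ f : Fin K × lat v H → Fin (m + 1) →₀ ℕ, (∀ c, wt w (f c) ≤ H') ∧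
      (Matrix.of fun c (ρ : Fin K × lat v H) => (Phi T (x ρ.1) (f c 0) (fun i => f c i.succ)
        fun i => ρ.2.1 i.succ).coeff (ρ.2.1 0)).det ≠ 0 := by
  choose P hP hPy using fun ρ : Fin K × lat v H =>
    hs fun j => if j = ρ.1 then monomial ρ.2.1 1 else 0
  obtain ⟨f, hf⟩ := exists_minor (κ := lat w H') (fun ρ μ => coeff μ.1 (P ρ))
    (fun μ (ρ : Fin K × lat v H) => coeff ρ.2.1 (psi T (x ρ.1) (monomial μ.1 1))) (by
      intro ρ0 ρ
      have h1 : P ρ0 = ∑ μ : lat w H', C (coeff μ.1 (P ρ0)) * monomial μ.1 1 := by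
        rw [sum_coe_sort (lat w H') fun μ => C (coeff μ (P ρ0)) * monomial μ 1]
        conv_lhs => rw [(P ρ0).as_sum]
        simp only [C_mul_monomial, mul_one]
        refine sum_subset (fun μ hμ => (mem_lat hw).mpr (mem_VH.mp (hP ρ0) μ hμ)) fun μ _ hμ => ?_
        rw [notMem_support_iff.mp hμ, monomial_zero]
      have h2 : coeff ρ.2.1 (psi T (x ρ.1) (P ρ0) -
          if ρ.1 = ρ0.1 then monomial ρ0.2.1 1 else 0) = 0 := by
        by_contra h
        have := mem_NI.mp (hPy ρ0 ρ.1) _ (mem_support_iff.mpr h)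
        linarith [(mem_lat hv).mp ρ.2.2]
      rw [coeff_sub, sub_eq_zero] at h2
      have h3 : coeff ρ.2.1 (psi T (x ρ.1) (P ρ0)) =
          ∑ μ : lat w H', coeff μ.1 (P ρ0) * coeff ρ.2.1 (psi T (x ρ.1) (monomial μ.1 1)) := by
        conv_lhs => rw [h1]
        simp only [map_sum, map_mul, algHom_C, algebraMap_eq, coeff_sum, coeff_C_mul]
      rw [← h3, h2]
      obtain ⟨j0, ν0⟩ := ρ0
      obtain ⟨j, ν⟩ := ρ
      by_cases hj : j = j0
      · simp [hj, coeff_monomial]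
      · simp [hj, Ne.symm hj])
  exact ⟨fun c => (f c).1, fun c => (mem_lat hw).mp (f c).2, by simpa only [entry] using hf⟩

theorem local_est {ν θ v0 : ℝ} (hν : 0 ≤ ν) (h1 : 1 ≤ ν * θ * v0) {K j : ℕ} (hj : j ≤ K)
    (T : Fin m → ℕ) (p : Fin m → ℤ) (q : Fin m → ℕ) (hq : ∀ i, 0 < q i)
    (hpq : ∀ i, |Real.pi - p i / q i| < (q i : ℝ) ^ (-ν))
    (hT : ∀ i, Real.log (q i) ≤ θ * v0 * (T i + 1)) (t : ℂ)
    (ht : ‖t‖ = Real.exp (-(ν * θ * v0))) :
    ∃ z, Complex.exp z = 1 + t ∧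
      ‖z‖ ≤ Real.exp 1 * (2 * Real.pi * K + 1) * Real.exp (-1) ∧
      ∀ i, ‖(j : ℂ) * (2 * Complex.I * p i / q i) + (logP (T i)).eval t - z‖ ≤
        (2 * K + 2) * Real.exp (-(ν * Real.log (q i))) := by
  have h2 : ‖t‖ ≤ 1 / 2 := by
    rw [ht]
    refine (Real.exp_le_exp.mpr (neg_le_neg h1)).trans ?_
    rw [Real.exp_neg, inv_eq_one_div]
    gcongr
    linarith [Real.add_one_le_exp 1]
  have h3 : 1 + t ≠ 0 := by
    intro h
    rw [eq_neg_of_add_eq_zero_right h] at h2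
    norm_num at h2
  have hjK : (j : ℝ) ≤ K := by exact_mod_cast hj
  refine ⟨j * (2 * Real.pi * Complex.I) + Complex.log (1 + t), ?_, ?_, fun i => ?_⟩
  · rw [Complex.exp_add, Complex.exp_nat_mul_two_pi_mul_I, Complex.exp_log h3, one_mul]
  · rw [mul_right_comm (Real.exp 1), ← Real.exp_add, add_neg_cancel, Real.exp_zero, one_mul]
    refine (norm_add_le _ _).trans (add_le_add ?_ ?_)
    · simp only [norm_mul, Complex.norm_natCast, Complex.norm_ofNat, Complex.norm_real,
        Complex.norm_I, Real.norm_of_nonneg Real.pi_pos.le]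
      nlinarith [Real.pi_pos]
    · linarith [Complex.norm_log_one_add_half_le_self h2]
  · have e1 : (logP (T i)).eval t = Complex.logTaylor (T i + 1) t := by
      simp only [logP, Polynomial.eval_finsetSum, Complex.logTaylor, Polynomial.eval_mul,
        Polynomial.eval_C, Polynomial.eval_pow, Polynomial.eval_X]
      exact sum_congr rfl fun k _ => by ring
    have e2 : (j : ℂ) * (2 * Complex.I * p i / q i) + (logP (T i)).eval t -
        (j * (2 * Real.pi * Complex.I) + Complex.log (1 + t)) =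
        -(j * 2 * Complex.I * ((Real.pi - p i / q i : ℝ) : ℂ)) -
          (Complex.log (1 + t) - Complex.logTaylor (T i + 1) t) := by
      rw [e1]; push_cast; ring
    rw [e2, add_mul]
    refine (norm_sub_le _ _).trans (add_le_add ?_ ?_)
    · have h4 := hpq i
      rw [Real.rpow_def_of_pos (by exact_mod_cast hq i), mul_neg, mul_comm] at h4
      simp only [norm_neg, norm_mul, Complex.norm_natCast, Complex.norm_ofNat, Complex.norm_real,
        Complex.norm_I, Real.norm_eq_abs, mul_one]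
      rw [mul_comm (j : ℝ)]
      gcongr
    · refine (Complex.norm_log_sub_logTaylor_le (T i) (by linarith)).trans ?_
      have h4 : ‖t‖ ^ (T i + 1) ≤ Real.exp (-(ν * Real.log (q i))) := by
        rw [ht, ← Real.exp_nat_mul, Real.exp_le_exp]
        push_cast
        nlinarith [mul_le_mul_of_nonneg_left (hT i) hν]
      have h5 : (1 - ‖t‖)⁻¹ ≤ 2 := by
        rw [inv_le_comm₀ (by linarith) (by norm_num)]; linarith
      refine (div_le_self (by have : 0 ≤ 1 - ‖t‖ := by linarith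
                              positivity) (by simp)).trans ?_
      rw [mul_comm]
      gcongr

theorem Q_le {γ θ v0 : ℝ} (hγ : 6 ≤ γ * (θ * v0)) (h0 : 0 < θ * v0) {q : ℕ} (hq : 0 < q) :
    ((q * Nat.lcmUpto ⌊Real.log q / (θ * v0)⌋₊ : ℕ) : ℝ) ≤ Real.exp ((1 + γ) * Real.log q) := by
  have hq' : (0 : ℝ) < q := by exact_mod_cast hq
  have hl : 0 ≤ Real.log q := Real.log_natCast_nonneg q
  rw [add_mul, one_mul, Real.exp_add, Real.exp_log hq', Nat.cast_mul]
  gcongr
  rw [← Real.log_le_iff_le_exp (by exact_mod_cast Nat.lcmUpto_pos _),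
    ← Chebyshev.psi_eq_log_lcmUpto]
  refine (Chebyshev.psi_le_const_mul_self (by positivity)).trans ?_
  have h1 : Real.log 4 ≤ 2 := by
    rw [show (4 : ℝ) = 2 ^ 2 by norm_num, Real.log_pow]
    have := Real.log_two_lt_d9
    push_cast; linarith
  calc _ ≤ γ * (θ * v0) * (Real.log q / (θ * v0)) :=
        mul_le_mul (by linarith) (Nat.floor_le (by positivity)) (by positivity) (by linarith)
    _ = _ := by rw [mul_assoc γ, mul_div_cancel₀ _ h0.ne']

theorem core {K : ℕ} {ν θ γ v0 w0 H H' Λ : ℝ} (hν : 1 ≤ ν) (hθ : 0 < θ) (hγ0 : 0 < γ)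
    (hγ1 : γ ≤ 1) (hv0 : 0 < v0) (hw0 : 0 < w0) (hγ : 6 ≤ γ * (θ * v0))
    (hR : Real.exp 1 * (2 * Real.pi * K + 1) ≤ γ * w0)
    (p : Fin m → ℤ) (q : Fin m → ℕ) (hq1 : ∀ i, 1 ≤ Real.log (q i))
    (hq2 : ∀ i, Real.log (4 * K + 4) ≤ γ * Real.log (q i))
    (hq3 : ∀ i, Real.log (2 * (Real.exp 1 * (2 * Real.pi * K + 1))) ≤ γ * Real.log (q i))
    (hpq : ∀ i, |Real.pi - p i / q i| < (q i : ℝ) ^ (-ν))
    (w v : Fin (m + 1) → ℝ) (hw : w = Fin.cons w0 fun i => Real.log (q i))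
    (hv : v = Fin.cons v0 fun i => Real.log (q i) / θ) (hv' : ∀ a, 0 < v a)
    (hs : ∀ y : Fin K → MvPolynomial (Fin (m + 1)) ℂ, ∃ P ∈ VH w H',
      ∀ j : Fin K, psi (fun i => ⌊Real.log (q i) / (θ * v0)⌋₊)
        (fun i => ((j : ℕ) : ℂ) * (2 * Complex.I * p i / q i)) P - y j ∈
          NI (fun a => (hv' a).le) (H + 1)) :
    K * ∑ μ ∈ lat v H, ∑ i : Fin m, Real.log (q i) * μ i.succ ≤
      2 * ((K * #(lat v H) : ℕ) * Real.log (K * #(lat v H) : ℕ)) +
      (K * #(lat v H) : ℕ) * (ν * θ * H - Λ + (1 + 2 * γ) * H') +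
      ∑ a : Fin m → Fin (⌊H'⌋₊ + 1), Psi (Λ - ∑ i, (ν - γ) * Real.log (q i) * (a i : ℕ)) := by
  have hq : ∀ i, 0 < q i := fun i => Nat.pos_of_ne_zero fun h => by
    have := hq1 i; simp [h] at this; linarith
  have hw' : ∀ a, 0 < w a := fun a => by
    rw [hw]; refine Fin.cases (by simpa) (fun i => ?_) a
    simpa using one_pos.trans_le (hq1 i)
  obtain ⟨f, hf, hdet⟩ := exists_det hw' hv' _
    (fun (j : Fin K) i => ((j : ℕ) : ℂ) * (2 * Complex.I * p i / q i)) hs
  have hwt : ∀ μ, wt w μ = w0 * μ 0 + ∑ i : Fin m, Real.log (q i) * μ i.succ := fun μ => by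
    simp [wt, Fin.sum_univ_succ, hw]
  have hvt : ∀ μ, θ * wt v μ = θ * v0 * μ 0 + ∑ i : Fin m, Real.log (q i) * μ i.succ := fun μ => by
    simp only [wt, Fin.sum_univ_succ, hv, Fin.cons_zero, Fin.cons_succ, mul_add, mul_sum]
    congr 1
    · ring
    · exact sum_congr rfl fun i _ => by field_simp
  have h1 := arith (fun i => ⌊Real.log (q i) / (θ * v0)⌋₊)
    (fun (ρ : Fin K × lat v H) i => ((ρ.1 : ℕ) : ℂ) * (2 * Complex.I * p i / q i))
    (fun i => q i * Nat.lcmUpto ⌊Real.log (q i) / (θ * v0)⌋₊)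
    (fun i => Nat.mul_pos (hq i) (Nat.lcmUpto_pos _)) (fun ρ i => lifts_mem _ _ _ (hq i))
    (fun ρ => ρ.2.1 0) (fun c => f c 0) (fun c i => f c i.succ) (fun ρ i => ρ.2.1 i.succ) hdet
  set R := Real.exp 1 * (2 * Real.pi * K + 1) with hRdef
  have hR1 : 1 ≤ R := by
    have : 0 ≤ 2 * Real.pi * K := by positivity
    nlinarith [Real.add_one_le_exp 1]
  have h2 := analytic (fun i => ⌊Real.log (q i) / (θ * v0)⌋₊)
    (fun (ρ : Fin K × lat v H) i => ((ρ.1 : ℕ) : ℂ) * (2 * Complex.I * p i / q i))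
    (fun ρ => ρ.2.1 0) (fun c => f c 0) (fun c i => f c i.succ) (fun ρ i => ρ.2.1 i.succ)
    ⌊H'⌋₊ (fun c i => Nat.le_floor (by
      have h3 := (le_wt (fun a => (hw' a).le) (f c) i.succ).trans (hf c)
      simp only [hw, Fin.cons_succ] at h3
      nlinarith [hq1 i, (Nat.cast_nonneg (f c i.succ) : (0 : ℝ) ≤ _)]))
    (ν * θ * v0) R Λ hR1 (fun i => (2 * K + 2) * Real.exp (-(ν * Real.log (q i))))
    (fun i => ν * Real.log (q i)) (fun i => (ν - γ) * Real.log (q i)) (fun i => by positivity)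
    (fun i => by
      have := (Real.log_le_iff_le_exp (by positivity)).mp (hq2 i)
      calc _ = (4 * K + 4) * Real.exp (-(ν * Real.log (q i))) := by ring
        _ ≤ Real.exp (γ * Real.log (q i)) * Real.exp (-(ν * Real.log (q i))) := by gcongr
        _ = _ := by rw [← Real.exp_add]; congr 1; ring)
    (fun i => by
      rw [mul_inv, ← Real.exp_neg, neg_neg]
      refine mul_le_of_le_one_left (by positivity) (inv_le_one_of_one_le₀ ?_)
      have : (0 : ℝ) ≤ K := by positivity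
      linarith)
    (fun ρ t ht => local_est (by linarith) (by nlinarith [mul_pos hθ hv0]) ρ.1.2.le _ p q hq hpq
      (fun i => by
        rw [← div_le_iff₀' (by positivity)]; exact (Nat.lt_floor_add_one _).le) t ht)
  rw [← Matrix.det_transpose] at h2
  set N := Fintype.card (Fin K × lat v H) with hN
  have hNc : K * #(lat v H) = N := by simp [hN]
  rw [hNc]
  have e1 : Real.exp (K * ∑ μ ∈ lat v H, ∑ i : Fin m, Real.log (q i) * μ i.succ) ≤
      ∏ ρ : Fin K × lat v H, ∏ i, ((q i * Nat.lcmUpto ⌊Real.log (q i) / (θ * v0)⌋₊ : ℕ) : ℝ) ^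
        ρ.2.1 i.succ := by
    have : K * ∑ μ ∈ lat v H, ∑ i : Fin m, Real.log (q i) * μ i.succ =
        ∑ ρ : Fin K × lat v H, ∑ i : Fin m, Real.log (q i) * ρ.2.1 i.succ := by
      rw [Fintype.sum_prod_type, ← sum_coe_sort]
      simp
    rw [this, Real.exp_sum]
    refine prod_le_prod (fun _ _ => by positivity) fun ρ _ => ?_
    rw [Real.exp_sum]
    refine prod_le_prod (fun _ _ => by positivity) fun i _ => ?_
    rw [mul_comm, Real.exp_nat_mul, Real.exp_log (by exact_mod_cast hq i)]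
    gcongr
    exact Nat.le_mul_of_pos_right _ (Nat.lcmUpto_pos _)
  have e2 : ∏ c : Fin K × lat v H, ∏ i,
      ((q i * Nat.lcmUpto ⌊Real.log (q i) / (θ * v0)⌋₊ : ℕ) : ℝ) ^ f c i.succ ≤
      Real.exp (N * ((1 + γ) * H')) := by
    rw [Real.exp_nat_mul, hN, ← card_univ, ← prod_const]
    refine prod_le_prod (fun _ _ => by positivity) fun c _ => ?_
    calc _ ≤ ∏ i, Real.exp ((1 + γ) * (Real.log (q i) * f c i.succ)) := by
          refine prod_le_prod (fun _ _ => by positivity) fun i _ => ?_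
          rw [← mul_assoc, mul_comm _ (f c i.succ : ℝ), Real.exp_nat_mul]
          gcongr
          exact Q_le hγ (by positivity) (hq i)
      _ ≤ _ := by
          rw [← Real.exp_sum, ← mul_sum, Real.exp_le_exp]
          have := hf c
          rw [hwt] at this
          have : 0 ≤ w0 * f c 0 := by positivity
          gcongr
          linarith
  have e3 : ∏ ρ : Fin K × lat v H, Real.exp (ν * θ * v0 * ρ.2.1 0 +
      ∑ i, ν * Real.log (q i) * ρ.2.1 i.succ - Λ) ≤ Real.exp (N * (ν * θ * H - Λ)) := by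
    rw [Real.exp_nat_mul, hN, ← card_univ, ← prod_const]
    refine prod_le_prod (fun _ _ => by positivity) fun ρ _ => Real.exp_le_exp.mpr ?_
    have h3 := mul_le_mul_of_nonneg_left ((mem_lat hv').mp ρ.2.2) hθ.le
    rw [hvt] at h3
    simp only [mul_assoc, ← mul_sum] at h3 ⊢
    nlinarith
  have e4 : ∏ c : Fin K × lat v H, Real.exp (f c 0 * R) * (2 * R) ^ (∑ i : Fin m, f c i.succ) ≤
      Real.exp (N * (γ * H')) := by
    rw [Real.exp_nat_mul, hN, ← card_univ, ← prod_const]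
    refine prod_le_prod (fun _ _ => by positivity) fun c _ => ?_
    rw [← Real.exp_log (show 0 < 2 * R by linarith), ← Real.exp_nat_mul, ← Real.exp_add,
      Real.exp_le_exp]
    have h3 := mul_le_mul_of_nonneg_left (hf c) hγ0.le
    rw [hwt, mul_add, mul_sum] at h3
    refine le_trans (add_le_add ?_ ?_) h3
    · nlinarith [(Nat.cast_nonneg (f c 0) : (0 : ℝ) ≤ _)]
    · rw [Nat.cast_sum, sum_mul]
      exact sum_le_sum fun i _ => by
        nlinarith [(Nat.cast_nonneg (f c i.succ) : (0 : ℝ) ≤ _), hq3 i]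
  have e5 : ((N : ℝ) ^ N) ^ 2 ≤ Real.exp (2 * (N * Real.log N)) := by
    rcases Nat.eq_zero_or_pos N with h | h
    · simp [h]
    · rw [show (2 : ℝ) = (2 : ℕ) by norm_num, Real.exp_nat_mul, Real.exp_nat_mul,
        Real.exp_log (by exact_mod_cast h)]
  rw [← Real.exp_le_exp]
  refine (e1.trans h1).trans ?_
  calc _ ≤ (Real.exp (2 * (N * Real.log N)) * Real.exp (N * (ν * θ * H - Λ)) *
        Real.exp (N * (γ * H')) * ∏ a : Fin m → Fin (⌊H'⌋₊ + 1),
          Real.exp (Psi (Λ - ∑ i, (ν - γ) * Real.log (q i) * (a i : ℕ)))) *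
        Real.exp (N * ((1 + γ) * H')) := by
        refine mul_le_mul (h2.trans ?_) e2 (by positivity) (by positivity)
        gcongr
    _ = _ := by
        simp only [← Real.exp_sum, ← Real.exp_add]
        congr 1; ring

end Vale.Agent.P021
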