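import Vale.Agent.P021.Filt

/-! Counting lattice points in weighted simplices. -/

namespace Vale.Agent.P021

open Finset MvPolynomial Filter Topology

/-- Exponent vectors of weight at most `H`. -/
noncomputable def lat {σ : Type*} [Fintype σ] [DecidableEq σ] (w : σ → ℝ) (H : ℝ) :
    Finset (σ →₀ ℕ) :=
  ((Fintype.piFinset fun i => range (⌊H / w i⌋₊ + 1)).map
    Finsupp.equivFunOnFinite.symm.toEmbedding).filter fun μ => wt w μ ≤ H

theorem mem_lat {σ : Type*} [Fintype σ] [DecidableEq σ] {w : σ → ℝ} (hw : ∀ a, 0 < w a) {H : ℝ}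
    {μ : σ →₀ ℕ} : μ ∈ lat w H ↔ wt w μ ≤ H := by
  rw [lat, mem_filter]
  refine ⟨fun h => h.2, fun h => ⟨?_, h⟩⟩
  rw [mem_map_equiv, Fintype.mem_piFinset]
  intro a
  rw [mem_range, Nat.lt_succ_iff]
  apply Nat.le_floor
  rw [le_div_iff₀ (hw a)]
  have := le_wt (fun a => (hw a).le) μ a
  simp only [Equiv.symm_symm, Finsupp.equivFunOnFinite_apply]
  linarith

theorem wt_succ {n : ℕ} (w : Fin (n + 1) → ℝ) (μ : Fin (n + 1) →₀ ℕ) :
    wt w μ = w 0 * μ 0 + wt (fun i => w i.succ) μ.tail := by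
  simp [wt, Fin.sum_univ_succ, Finsupp.tail_apply]

theorem card_lat_succ {n : ℕ} {w : Fin (n + 1) → ℝ} (hw : ∀ a, 0 < w a) (H : ℝ) :
    #(lat w H) = ∑ k ∈ range (⌊H / w 0⌋₊ + 1), #(lat (fun i : Fin n => w i.succ) (H - w 0 * k)) := by
  rw [card_eq_sum_card_fiberwise (f := fun μ => μ 0) (t := range (⌊H / w 0⌋₊ + 1))]
  · refine sum_congr rfl fun k _ => ?_
    refine card_nbij' Finsupp.tail (Finsupp.cons k) ?_ ?_ ?_ ?_
    · intro μ hμ
      simp only [coe_filter, Set.mem_ofPred_eq, mem_lat hw] at hμ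
      rw [mem_coe, mem_lat (fun a => hw _), ← hμ.2]
      linarith [wt_succ w μ]
    · intro μ hμ
      rw [mem_coe, mem_lat (fun a => hw _)] at hμ
      simp only [coe_filter, Set.mem_ofPred_eq, mem_lat hw, Finsupp.cons_zero, and_true]
      rw [wt_succ, Finsupp.cons_zero, Finsupp.tail_cons]
      linarith
    · intro μ hμ
      simp only [coe_filter, Set.mem_ofPred_eq] at hμ
      rw [← hμ.2, Finsupp.cons_tail]
    · intro μ _
      exact Finsupp.tail_cons _ _
  · intro μ hμ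
    rw [mem_coe, mem_lat hw] at hμ
    rw [mem_coe, mem_range, Nat.lt_succ_iff]
    apply Nat.le_floor
    rw [le_div_iff₀ (hw 0)]
    linarith [le_wt (fun a => (hw a).le) μ 0]

theorem tele_lower (n : ℕ) {w : ℝ} (hw : 0 < w) (K : ℕ) : ∀ H : ℝ, w * K ≤ H → H ≤ w * (K + 1) →
    H ^ (n + 1) ≤ ∑ k ∈ range (K + 1), (n + 1) * w * (H - w * k) ^ n := by
  induction K with
  | zero =>
    intro H h0 h1
    simp only [Nat.cast_zero, mul_zero, zero_add, mul_one, range_one, sum_singleton,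
      sub_zero] at *
    rw [pow_succ']
    have : (0 : ℝ) ≤ n * w := by positivity
    exact mul_le_mul_of_nonneg_right (by linarith) (by positivity)
  | succ K ih =>
    intro H h0 h1
    push_cast at h0 h1
    have h2 := ih (H - w) (by linarith) (by linarith)
    have h3 : (0 : ℝ) ≤ w * K := by positivity
    have h4 := pow_add_mul_le_add_pow (a := H) (b := -w) (by linarith) (by linarith) (n + 1)
    rw [sum_range_succ']
    have h5 : ∑ k ∈ range (K + 1), ((n : ℝ) + 1) * w * (H - w * ((k + 1 : ℕ) : ℝ)) ^ n =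
        ∑ k ∈ range (K + 1), (n + 1) * w * (H - w - w * k) ^ n :=
      sum_congr rfl fun k _ => by push_cast; ring
    rw [h5]
    simp only [Nat.add_sub_cancel, Nat.cast_zero, mul_zero, sub_zero, ← sub_eq_add_neg] at h4 ⊢
    push_cast at h4
    linarith

theorem tele_upper (n : ℕ) {w : ℝ} (hw : 0 < w) (K : ℕ) : ∀ y : ℝ, w * K ≤ y + w →
    ∑ k ∈ range K, (n + 1) * w * (y - w * k) ^ n ≤ (y + w) ^ (n + 1) := by
  induction K with
  | zero => intro y h; simp at h ⊢; positivity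
  | succ K ih =>
    intro y h0
    push_cast at h0
    have h2 := ih (y - w) (by linarith)
    have h3 : (0 : ℝ) ≤ w * K := by positivity
    have h4 := pow_add_mul_le_add_pow (a := y) (b := w) (by linarith) (by linarith) (n + 1)
    rw [sum_range_succ']
    have h5 : ∑ k ∈ range K, ((n : ℝ) + 1) * w * (y - w * ((k + 1 : ℕ) : ℝ)) ^ n =
        ∑ k ∈ range K, (n + 1) * w * (y - w - w * k) ^ n :=
      sum_congr rfl fun k _ => by push_cast; ring
    rw [h5]
    simp only [Nat.add_sub_cancel, Nat.cast_zero, mul_zero, sub_zero, sub_add_cancel] at h2 h4 ⊢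
    push_cast at h4
    linarith

theorem card_lat_zero (w : Fin 0 → ℝ) {H : ℝ} (hH : 0 ≤ H) : #(lat w H) = 1 := by
  rw [card_eq_one]
  refine ⟨0, eq_singleton_iff_unique_mem.mpr ⟨?_, fun μ _ => Subsingleton.elim _ _⟩⟩
  rw [mem_lat (fun a => a.elim0)]
  simpa using hH

theorem lat_lower (n : ℕ) : ∀ (w : Fin n → ℝ), (∀ a, 0 < w a) → ∀ H : ℝ, 0 ≤ H →
    H ^ n ≤ n.factorial * (∏ a, w a) * #(lat w H) := by
  induction n with
  | zero => intro w _ H hH; simp [card_lat_zero w hH]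
  | succ n ih =>
    intro w hw H hH
    have h0 := hw 0
    have h1 : w 0 * ⌊H / w 0⌋₊ ≤ H := by
      rw [← le_div_iff₀' h0]; exact Nat.floor_le (by positivity)
    have h2 : H ≤ w 0 * (⌊H / w 0⌋₊ + 1) := by
      rw [← div_le_iff₀' h0]; exact (Nat.lt_floor_add_one _).le
    refine (tele_lower n h0 _ H h1 h2).trans ?_
    rw [card_lat_succ hw, Nat.cast_sum, mul_sum]
    refine sum_le_sum fun k hk => ?_
    have h3 : (k : ℝ) ≤ ⌊H / w 0⌋₊ := by exact_mod_cast Nat.lt_succ_iff.mp (mem_range.mp hk)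
    have h4 := ih (fun i => w i.succ) (fun a => hw _) (H - w 0 * k) (by nlinarith)
    rw [Fin.prod_univ_succ, Nat.factorial_succ]
    push_cast
    calc _ ≤ ((n : ℝ) + 1) * w 0 * (n.factorial * (∏ i : Fin n, w i.succ) *
          #(lat (fun i : Fin n => w i.succ) (H - w 0 * k))) := by gcongr
      _ = _ := by ring

theorem lat_upper (n : ℕ) : ∀ (w : Fin n → ℝ), (∀ a, 0 < w a) → ∀ H : ℝ, 0 ≤ H →
    n.factorial * (∏ a, w a) * #(lat w H) ≤ (H + ∑ a, w a) ^ n := by
  induction n with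
  | zero => intro w _ H hH; simp [card_lat_zero w hH]
  | succ n ih =>
    intro w hw H hH
    have h0 := hw 0
    have h1 : w 0 * ⌊H / w 0⌋₊ ≤ H := by
      rw [← le_div_iff₀' h0]; exact Nat.floor_le (by positivity)
    have hS : 0 ≤ ∑ i : Fin n, w i.succ := sum_nonneg fun i _ => (hw _).le
    have h2 := tele_upper n h0 (⌊H / w 0⌋₊ + 1) (H + ∑ i : Fin n, w i.succ)
      (by push_cast; linarith)
    rw [Fin.sum_univ_succ, add_comm (w 0), ← add_assoc]
    refine le_trans ?_ h2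
    rw [card_lat_succ hw, Nat.cast_sum, mul_sum]
    refine sum_le_sum fun k hk => ?_
    have h3 : (k : ℝ) ≤ ⌊H / w 0⌋₊ := by exact_mod_cast Nat.lt_succ_iff.mp (mem_range.mp hk)
    have h4 := ih (fun i => w i.succ) (fun a => hw _) (H - w 0 * k) (by nlinarith)
    rw [Fin.prod_univ_succ, Nat.factorial_succ]
    push_cast
    calc _ = ((n : ℝ) + 1) * w 0 * (n.factorial * (∏ i : Fin n, w i.succ) *
          #(lat (fun i : Fin n => w i.succ) (H - w 0 * k))) := by ring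
      _ ≤ ((n : ℝ) + 1) * w 0 * (H - w 0 * k + ∑ i : Fin n, w i.succ) ^ n := by gcongr
      _ = _ := by ring

theorem exists_aux {σ : Type*} [Fintype σ] [DecidableEq σ] {w v : σ → ℝ} (hw : ∀ a, 0 < w a)
    (hv : ∀ a, 0 < v a) {K : ℕ} (ψ : Fin K → MvPolynomial σ ℂ →ₐ[ℂ] MvPolynomial σ ℂ) {H e : ℝ}
    (h : K * #(lat v e) < #(lat w H)) :
    ∃ F, F ≠ 0 ∧ F ∈ VH w H ∧ ∀ j, ψ j F ∈ NI (fun a => (hv a).le) e := by
  let L : (lat w H → ℂ) →ₗ[ℂ] MvPolynomial σ ℂ :=
    ∑ μ : lat w H, (monomial μ.1) ∘ₗ LinearMap.proj μ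
  have hL : ∀ c, L c = ∑ μ : lat w H, monomial μ.1 (c μ) := fun c => by simp [L]
  let Φ : (lat w H → ℂ) →ₗ[ℂ] (Fin K × lat v e → ℂ) :=
    LinearMap.pi fun x => lcoeff ℂ x.2.1 ∘ₗ (ψ x.1).toLinearMap ∘ₗ L
  have h1 : LinearMap.ker Φ ≠ ⊥ := LinearMap.ker_ne_bot_of_finrank_lt (by simpa using h)
  obtain ⟨c, hc, hc0⟩ := Submodule.exists_mem_ne_zero_of_ne_bot h1
  refine ⟨L c, fun h0 => hc0 ?_, ?_, fun j => mem_NI.mpr fun μ hμ => ?_⟩
  · funext μ
    have := congrArg (coeff μ.1) h0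
    rw [hL, coeff_sum, sum_eq_single μ] at this
    · simpa using this
    · intro b _ hb
      rw [coeff_monomial, if_neg fun h => hb (Subtype.ext h)]
    · simp
  · rw [hL]
    exact Submodule.sum_mem _ fun μ _ => monomial_mem_VH ((mem_lat hw).mp μ.2) _
  · by_contra hlt
    have := congrFun (LinearMap.mem_ker.mp hc) (j, ⟨μ, (mem_lat hv).mpr (not_le.mp hlt).le⟩)
    exact mem_support_iff.mp hμ (by simpa [Φ] using this)

theorem exists_aux' {n : ℕ} {w v : Fin n → ℝ} (hw : ∀ a, 0 < w a)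
    (hv : ∀ a, 0 < v a) {K : ℕ} (ψ : Fin K → MvPolynomial (Fin n) ℂ →ₐ[ℂ] MvPolynomial (Fin n) ℂ)
    {c : ℝ} (hc : 0 ≤ c) (h : K * c ^ n * ∏ a, w a < ∏ a, v a) :
    ∃ H F, 0 < H ∧ F ≠ 0 ∧ F ∈ VH w H ∧ ∀ j, ψ j F ∈ NI (fun a => (hv a).le) (c * H) := by
  have h1 : Tendsto (fun H : ℝ => K * (c + (∑ a, v a) / H) ^ n * ∏ a, w a) atTop
      (𝓝 (K * (c + 0) ^ n * ∏ a, w a)) :=
    ((((tendsto_const_nhds.div_atTop tendsto_id).const_add c).pow n).const_mul _).mul_const _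
  rw [add_zero] at h1
  obtain ⟨H, h2, hH⟩ := ((h1.eventually (gt_mem_nhds h)).and (eventually_gt_atTop 0)).exists
  obtain ⟨F, hF⟩ := exists_aux hw hv ψ (H := H) (e := c * H) (by
    have h3 := lat_lower n w hw H hH.le
    have h4 := lat_upper n v hv (c * H) (by positivity)
    have h5 : (c * H + ∑ a, v a) ^ n = (c + (∑ a, v a) / H) ^ n * H ^ n := by
      rw [← mul_pow]; congr 1; field_simp
    have hW : 0 < ∏ a, w a := prod_pos fun a _ => hw a
    have hV : 0 < ∏ a, v a := prod_pos fun a _ => hv a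
    have hf : (0 : ℝ) < n.factorial := by exact_mod_cast n.factorial_pos
    have h6 : ((K * #(lat v (c * H)) : ℕ) : ℝ) < #(lat w H) := by
      push_cast
      refine lt_of_mul_lt_mul_left (a := n.factorial * (∏ a, v a) * ∏ a, w a) ?_ (by positivity)
      calc _ = K * (n.factorial * (∏ a, v a) * #(lat v (c * H))) * ∏ a, w a := by ring
        _ ≤ K * ((c + (∑ a, v a) / H) ^ n * H ^ n) * ∏ a, w a := by rw [← h5]; gcongr
        _ = (K * (c + (∑ a, v a) / H) ^ n * ∏ a, w a) * H ^ n := by ring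
        _ < (∏ a, v a) * H ^ n := by gcongr
        _ ≤ (∏ a, v a) * (n.factorial * (∏ a, w a) * #(lat w H)) := by gcongr
        _ = _ := by ring
    exact_mod_cast h6)
  exact ⟨H, F, hH, hF⟩

end Vale.Agent.P021
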