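import Mathlib

/-! Expansion and estimate of determinants of products. -/

namespace Vale.Agent.P021

open Finset Matrix

variable {ι κ : Type*} [Fintype ι] [DecidableEq ι] [Fintype κ]

theorem det_expand (A : ι → κ → ℂ) (B : κ → ι → ℂ) :
    det (of fun ρ c => ∑ k, A ρ k * B k c) =
      ∑ f : ι → κ, (∏ ρ, A ρ (f ρ)) * det (of fun ρ c => B (f ρ) c) := by
  have h : (of fun ρ c => ∑ k, A ρ k * B k c : Matrix ι ι ℂ) = fun ρ => ∑ k, A ρ k • B k := by
    ext ρ c; simp
  rw [h]
  change (detRowAlternating : (ι → ℂ) [⋀^ι]→ₗ[ℂ] ℂ).toMultilinearMap _ = _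
  rw [MultilinearMap.map_sum]
  refine sum_congr rfl fun f _ => ?_
  rw [MultilinearMap.map_smul_univ]
  rfl

theorem norm_det_le (M : Matrix ι ι ℂ) (y : ι → ℝ) (h : ∀ ρ c, ‖M ρ c‖ ≤ y c) :
    ‖det M‖ ≤ (Fintype.card ι : ℝ) ^ Fintype.card ι * ∏ c, y c := by
  rw [det_apply']
  refine (norm_sum_le _ _).trans ?_
  refine (sum_le_card_nsmul _ _ (∏ c, y c) fun s _ => ?_).trans ?_
  · rw [norm_mul, norm_prod]
    have : ‖((Equiv.Perm.sign s : ℤ) : ℂ)‖ = 1 := by
      rcases Int.units_eq_one_or (Equiv.Perm.sign s) with h | h <;> simp [h]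
    rw [this, one_mul]
    exact prod_le_prod (fun _ _ => norm_nonneg _) fun c _ => h _ c
  · rw [card_univ, Fintype.card_perm, nsmul_eq_mul]
    refine mul_le_mul_of_nonneg_right (by exact_mod_cast Nat.factorial_le_pow _) ?_
    exact prod_nonneg fun c _ => (norm_nonneg _).trans (h c c)

theorem sum_inj_le [DecidableEq κ] (g : κ → ℝ) (hg : ∀ k, 0 ≤ g k) :
    ∑ f : ι → κ with Function.Injective f, ∏ ρ, g (f ρ) ≤
      (Fintype.card ι : ℝ) ^ Fintype.card ι * ∏ k, (1 + g k) := by
  rw [← sum_fiberwise_of_maps_to (g := fun f : ι → κ => univ.image f) (t := univ.powerset)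
    (fun _ _ => by simp), prod_one_add, mul_sum]
  refine sum_le_sum fun S _ => ?_
  refine (sum_le_card_nsmul _ _ (∏ k ∈ S, g k) fun f hf => ?_).trans ?_
  · simp only [mem_filter, mem_univ, true_and] at hf
    rw [← hf.2, prod_image fun a _ b _ h => hf.1 h]
  · rw [nsmul_eq_mul]
    refine mul_le_mul_of_nonneg_right ?_ (prod_nonneg fun k _ => hg k)
    rcases (((univ : Finset (ι → κ)).filter fun f => Function.Injective f).filter
      fun f => univ.image f = S).eq_empty_or_nonempty with h | ⟨f0, h⟩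
    · rw [h]; simp
    · simp only [mem_filter, mem_univ, true_and] at h
      have h1 : #S = Fintype.card ι := by rw [← h.2, card_image_of_injective _ h.1, card_univ]
      have h2 := card_le_card (s := ((univ : Finset (ι → κ)).filter
        fun f => Function.Injective f).filter fun f => univ.image f = S)
        (t := Fintype.piFinset fun _ : ι => S) (fun f hf => by
          simp only [mem_filter, mem_univ, true_and] at hf
          exact Fintype.mem_piFinset.mpr fun ρ => hf.2 ▸ mem_image_of_mem _ (mem_univ _))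
      rw [Fintype.card_piFinset, prod_const, card_univ, h1] at h2
      exact_mod_cast h2

theorem det_bound (A : ι → κ → ℂ) (B : κ → ι → ℂ) (x y : ι → ℝ) (g : κ → ℝ)
    (hx : ∀ ρ, 0 ≤ x ρ) (hy : ∀ c, 0 ≤ y c) (hg : ∀ k, 0 ≤ g k)
    (hA : ∀ ρ k, ‖A ρ k‖ ≤ x ρ * g k) (hB : ∀ k c, ‖B k c‖ ≤ y c) :
    ‖det (of fun ρ c => ∑ k, A ρ k * B k c)‖ ≤ ((Fintype.card ι : ℝ) ^ Fintype.card ι) ^ 2 *
      (∏ ρ, x ρ) * (∏ c, y c) * ∏ k, (1 + g k) := by
  classical
  rw [det_expand, ← sum_filter_add_sum_filter_not univ Function.Injective,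
    sum_eq_zero (s := univ.filter fun f : ι → κ => ¬ Function.Injective f), add_zero]
  · refine (norm_sum_le _ _).trans ?_
    have hX : 0 ≤ ∏ ρ, x ρ := prod_nonneg fun ρ _ => hx ρ
    have hY : 0 ≤ ∏ ρ, y ρ := prod_nonneg fun ρ _ => hy ρ
    calc _ ≤ ∑ f : ι → κ with Function.Injective f, ((∏ ρ, x ρ) *
          ((Fintype.card ι : ℝ) ^ Fintype.card ι * ∏ c, y c)) * ∏ ρ, g (f ρ) := by
          refine sum_le_sum fun f _ => ?_
          rw [norm_mul, norm_prod, mul_right_comm, ← prod_mul_distrib]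
          exact mul_le_mul (prod_le_prod (fun _ _ => norm_nonneg _) fun ρ _ => hA ρ _)
            (norm_det_le _ y fun ρ c => hB _ c) (norm_nonneg _)
            (prod_nonneg fun ρ _ => mul_nonneg (hx ρ) (hg _))
      _ ≤ ((∏ ρ, x ρ) * ((Fintype.card ι : ℝ) ^ Fintype.card ι * ∏ c, y c)) *
          ((Fintype.card ι : ℝ) ^ Fintype.card ι * ∏ k, (1 + g k)) := by
          rw [← mul_sum]
          exact mul_le_mul_of_nonneg_left (sum_inj_le g hg) (by positivity)
      _ = _ := by ring
  · intro f hf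
    simp only [mem_filter, mem_univ, true_and, Function.Injective, not_forall] at hf
    obtain ⟨a, b, h1, h2⟩ := hf
    rw [det_zero_of_row_eq h2 (by ext c; simp [h1]), mul_zero]

theorem exists_minor (W : ι → κ → ℂ) (M : κ → ι → ℂ)
    (h : ∀ ρ c, ∑ k, W ρ k * M k c = if ρ = c then 1 else 0) :
    ∃ f : ι → κ, det (of fun ρ c => M (f ρ) c) ≠ 0 := by
  by_contra hcon
  push Not at hcon
  have h1 := det_expand W M
  simp only [hcon, mul_zero, sum_const_zero] at h1
  have h2 : (of fun ρ c => ∑ k, W ρ k * M k c : Matrix ι ι ℂ) = 1 := by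
    ext ρ c; simp [h, one_apply]
  simp [h2] at h1

/-- Majorant for the logarithm of the product over one exponent. -/
noncomputable def Psi (c : ℝ) : ℝ := if c ≤ 0 then 2 * Real.exp c else (c + 2) ^ 2

theorem prod_exp_le (n : ℕ) : ∀ c : ℝ,
    ∏ k ∈ range n, (1 + Real.exp (c - k)) ≤ Real.exp (Psi c) := by
  induction n with
  | zero =>
    intro c
    rw [range_zero, prod_empty]
    apply Real.one_le_exp
    unfold Psi; split_ifs <;> positivity
  | succ n ih =>
    intro c
    rw [prod_range_succ']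
    have h1 : ∏ k ∈ range n, (1 + Real.exp (c - ((k + 1 : ℕ) : ℝ))) =
        ∏ k ∈ range n, (1 + Real.exp (c - 1 - k)) :=
      prod_congr rfl fun k _ => by push_cast; ring_nf
    rw [h1, Nat.cast_zero, sub_zero]
    have h2 : 1 + Real.exp c ≤ Real.exp (Psi c - Psi (c - 1)) := by
      have e1 : Real.exp (c - 1) * 2 ≤ Real.exp c := by
        have := Real.add_one_le_exp 1
        calc _ ≤ Real.exp (c - 1) * Real.exp 1 := by gcongr; linarith
          _ = _ := by rw [← Real.exp_add]; ring_nf
      by_cases hc : c ≤ 0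
      · rw [Psi, Psi, if_pos hc, if_pos (by linarith)]
        refine le_trans (by linarith [Real.add_one_le_exp (Real.exp c)]) (Real.exp_le_exp.mpr
          (show Real.exp c ≤ _ by linarith))
      · have hc' : 0 < c := not_le.mp hc
        have e2 : 1 + Real.exp c ≤ Real.exp (c + 1) := by
          have := Real.add_one_le_exp 1
          have h3 := Real.one_le_exp hc'.le
          rw [Real.exp_add]
          nlinarith
        refine e2.trans (Real.exp_le_exp.mpr ?_)
        rw [Psi, Psi, if_neg hc]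
        split_ifs with h
        · have := Real.exp_le_one_iff.mpr h
          nlinarith
        · nlinarith
    calc _ ≤ Real.exp (Psi (c - 1)) * Real.exp (Psi c - Psi (c - 1)) :=
          mul_le_mul (ih _) h2 (by positivity) (by positivity)
      _ = _ := by rw [← Real.exp_add]; ring_nf

end Vale.Agent.P021
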