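import Vale.Agent.P021.Surj
import Vale.Agent.P021.Det

/-! The entries of the interpolation matrix and the arithmetic lower bound. -/

namespace Vale.Agent.P021

open Finset

variable {m : ℕ}

/-- The one-variable polynomial whose coefficients are the entries. -/
noncomputable def Phi (T : Fin m → ℕ) (x : Fin m → ℂ) (h : ℕ) (α β : Fin m → ℕ) : Polynomial ℂ :=
  (1 + Polynomial.X) ^ h * ∏ i, (Polynomial.C ((α i).choose (β i) : ℂ) *
    (Polynomial.C (x i) + logP (T i)) ^ (α i - β i))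

open MvPolynomial in
theorem coeff_aeval_mul (P : Polynomial ℂ) (k : Fin m → ℕ) (ν : Fin (m + 1) →₀ ℕ) :
    coeff ν (Polynomial.aeval (X 0 : MvPolynomial (Fin (m + 1)) ℂ) P * ∏ i, X i.succ ^ k i) =
      if (fun i => ν i.succ) = k then P.coeff (ν 0) else 0 := by
  induction P using Polynomial.induction_on' with
  | add p q hp hq => rw [map_add, add_mul, coeff_add, hp, hq]; split_ifs <;> simp
  | monomial s c =>
    have h1 : Polynomial.aeval (X 0 : MvPolynomial (Fin (m + 1)) ℂ) (Polynomial.monomial s c) *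
        ∏ i, X i.succ ^ k i = monomial (Finsupp.cons s (Finsupp.equivFunOnFinite.symm k)) c := by
      rw [mono_eq, Fin.prod_univ_succ]
      simp [mul_assoc]
    rw [h1, coeff_monomial, Polynomial.coeff_monomial]
    by_cases h2 : (fun i : Fin m => ν i.succ) = k
    · subst h2
      rw [if_pos rfl]
      congr 1
      refine propext ⟨fun h => by rw [← h]; simp, fun h => ?_⟩
      ext a
      refine Fin.cases ?_ (fun i => ?_) a <;> simp [h]
    · rw [if_neg h2, if_neg]
      rintro rfl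
      exact h2 (by ext i; simp)

open MvPolynomial in
theorem entry (T : Fin m → ℕ) (x : Fin m → ℂ) (μ ν : Fin (m + 1) →₀ ℕ) :
    coeff ν (psi T x (monomial μ 1)) =
      (Phi T x (μ 0) (fun i => μ i.succ) fun i => ν i.succ).coeff (ν 0) := by
  have h1 : psi T x (monomial μ 1) = ∑ k ∈ Fintype.piFinset fun i : Fin m => range (μ i.succ + 1),
      Polynomial.aeval (X 0) (Phi T x (μ 0) (fun i => μ i.succ) k) * ∏ i, X i.succ ^ k i := by
    rw [mono_eq, Fin.prod_univ_succ]
    simp only [map_mul, map_pow, map_prod, psi_zero, psi_succ, map_one, one_mul]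
    rw [prod_congr rfl fun i _ => add_pow _ _ _, prod_univ_sum, mul_sum]
    refine sum_congr rfl fun k _ => ?_
    simp only [Phi, map_mul, map_pow, map_prod, map_add, map_one, Polynomial.aeval_X,
      Polynomial.aeval_C, algebraMap_eq, map_natCast]
    rw [mul_assoc, ← prod_mul_distrib]
    refine congrArg _ (prod_congr rfl fun i _ => ?_)
    ring
  rw [h1, coeff_sum]
  simp only [coeff_aeval_mul, sum_ite_eq]
  split_ifs with h
  · rfl
  · rw [Fintype.mem_piFinset, not_forall] at h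
    obtain ⟨i, hi⟩ := h
    rw [Phi, prod_eq_zero (mem_univ i), mul_zero, Polynomial.coeff_zero]
    rw [Nat.choose_eq_zero_of_lt (by simpa using hi)]
    simp

theorem arith {ι : Type*} [Fintype ι] [DecidableEq ι] (T : Fin m → ℕ) (x : ι → Fin m → ℂ)
    (Q : Fin m → ℕ) (hQ0 : ∀ i, 0 < Q i)
    (hQ : ∀ ρ i, Polynomial.C (Q i : ℂ) * (Polynomial.C (x ρ i) + logP (T i)) ∈
      Polynomial.lifts GaussianInt.toComplex)
    (s h : ι → ℕ) (α β : ι → Fin m → ℕ)
    (h0 : (Matrix.of fun c ρ => (Phi T (x ρ) (h c) (α c) (β ρ)).coeff (s ρ)).det ≠ 0) :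
    ∏ ρ, ∏ i, (Q i : ℝ) ^ β ρ i ≤
      ‖(Matrix.of fun c ρ => (Phi T (x ρ) (h c) (α c) (β ρ)).coeff (s ρ)).det‖ *
        ∏ c, ∏ i, (Q i : ℝ) ^ α c i := by
  have h1 : ∀ c ρ, ∃ z : GaussianInt, (∏ i, (Q i : ℂ) ^ α c i) *
      (Phi T (x ρ) (h c) (α c) (β ρ)).coeff (s ρ) = (∏ i, (Q i : ℂ) ^ β ρ i) * z := by
    intro c ρ
    have h2 : (1 + Polynomial.X) ^ h c * ∏ i, (Polynomial.C ((α c i).choose (β ρ i) : ℂ) *
        (Polynomial.C (Q i : ℂ) * (Polynomial.C (x ρ i) + logP (T i))) ^ (α c i - β ρ i)) ∈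
        Polynomial.lifts GaussianInt.toComplex := by
      refine mul_mem (pow_mem (add_mem (one_mem _) (Polynomial.X_mem_lifts _)) _)
        (prod_mem fun i _ => mul_mem ?_ (pow_mem (hQ ρ i) _))
      rw [map_natCast]
      exact natCast_mem _ _
    obtain ⟨z, hz⟩ := (Polynomial.lifts_iff_coeff_lifts _).mp h2 (s ρ)
    refine ⟨z, ?_⟩
    rw [hz, ← Polynomial.coeff_C_mul, ← Polynomial.coeff_C_mul, Phi, mul_left_comm,
      mul_left_comm (Polynomial.C _), map_prod, map_prod, ← prod_mul_distrib, ← prod_mul_distrib]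
    congr 3
    funext i
    rcases lt_or_ge (α c i) (β ρ i) with h3 | h3
    · simp [Nat.choose_eq_zero_of_lt h3]
    · obtain ⟨d, hd⟩ := Nat.exists_eq_add_of_le h3
      rw [hd, Nat.add_sub_cancel_left, map_pow, map_pow, mul_pow]
      ring
  choose Z hZ using h1
  have h2 := Matrix.det_mul_column (fun c => ∏ i, (Q i : ℂ) ^ α c i)
    (Matrix.of fun c ρ => (Phi T (x ρ) (h c) (α c) (β ρ)).coeff (s ρ))
  have h3 := Matrix.det_mul_row (fun ρ => ∏ i, (Q i : ℂ) ^ β ρ i)
    (GaussianInt.toComplex.mapMatrix (Matrix.of Z))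
  simp only [Matrix.of_apply, hZ] at h2
  simp only [RingHom.mapMatrix_apply, Matrix.map_apply, Matrix.of_apply] at h3
  rw [h2, ← RingHom.mapMatrix_apply, ← RingHom.map_det] at h3
  have hQ1 : ∀ i, (Q i : ℂ) ≠ 0 := fun i => by exact_mod_cast (hQ0 i).ne'
  have h4 : (Matrix.of Z).det ≠ 0 := by
    intro h5
    rw [h5, map_zero, mul_zero] at h3
    exact mul_ne_zero (prod_ne_zero_iff.mpr fun c _ => prod_ne_zero_iff.mpr fun i _ =>
      pow_ne_zero _ (hQ1 i)) h0 h3
  have h5 : 1 ≤ ‖GaussianInt.toComplex (Matrix.of Z).det‖ := by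
    have h6 : (1 : ℝ) ≤ ((Matrix.of Z).det.norm : ℝ) := by
      exact_mod_cast GaussianInt.norm_pos.mpr h4
    rw [GaussianInt.intCast_real_norm, Complex.normSq_eq_norm_sq] at h6
    exact (one_le_sq_iff₀ (norm_nonneg _)).mp h6
  have h6 := congrArg norm h3
  simp only [norm_mul, norm_prod, norm_pow, Complex.norm_natCast] at h6
  rw [mul_comm, h6]
  exact le_mul_of_one_le_right (by positivity) h5

theorem lifts_mem (T : ℕ) (j : ℕ) (p : ℤ) {q : ℕ} (hq : 0 < q) :
    Polynomial.C ((q * Nat.lcmUpto T : ℕ) : ℂ) *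
      (Polynomial.C ((j : ℂ) * (2 * Complex.I * p / q)) + logP T) ∈
      Polynomial.lifts GaussianInt.toComplex := by
  have hq' : (q : ℂ) ≠ 0 := by exact_mod_cast hq.ne'
  rw [mul_add, logP, mul_sum]
  refine add_mem ?_ (sum_mem fun k hk => ?_)
  · rw [← map_mul]
    refine Polynomial.C'_mem_lifts ⟨⟨0, 2 * j * p * Nat.lcmUpto T⟩, ?_⟩
    rw [GaussianInt.toComplex_def]
    push_cast
    field_simp
    ring
  · rw [← mul_assoc, ← map_mul]
    refine mul_mem (Polynomial.C'_mem_lifts ?_) (pow_mem (Polynomial.X_mem_lifts _) _)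
    rcases Nat.eq_zero_or_pos k with rfl | hk0
    · exact ⟨0, by simp⟩
    obtain ⟨d, hd⟩ : k ∣ Nat.lcmUpto T :=
      Finset.dvd_lcm (f := id) (mem_Icc.mpr ⟨hk0, Nat.lt_succ_iff.mp (mem_range.mp hk)⟩)
    refine ⟨q * d * (-1) ^ (k + 1), ?_⟩
    have hk' : (k : ℂ) ≠ 0 := by exact_mod_cast hk0.ne'
    rw [hd]
    simp only [map_mul, map_pow, map_neg, map_one, map_natCast]
    push_cast
    field_simp

end Vale.Agent.P021
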