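import Vale.Agent.P021.Words

/-! Weighted degree and weighted index of polynomials. -/

namespace Vale.Agent.P021

open Finset MvPolynomial

variable {σ : Type*} [Fintype σ]

/-- Weight of an exponent vector. -/
noncomputable def wt (w : σ → ℝ) (μ : σ →₀ ℕ) : ℝ := ∑ a, w a * μ a

theorem wt_add (w : σ → ℝ) (μ ν : σ →₀ ℕ) : wt w (μ + ν) = wt w μ + wt w ν := by
  simp [wt, mul_add, sum_add_distrib]

@[simp] theorem wt_zero (w : σ → ℝ) : wt w 0 = 0 := by simp [wt]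

theorem wt_single (w : σ → ℝ) (a : σ) (k : ℕ) : wt w (Finsupp.single a k) = w a * k := by
  classical
  rw [wt, sum_eq_single a] <;> simp +contextual [eq_comm]

theorem wt_nonneg {w : σ → ℝ} (hw : ∀ a, 0 ≤ w a) (μ : σ →₀ ℕ) : 0 ≤ wt w μ :=
  sum_nonneg fun a _ => mul_nonneg (hw a) (Nat.cast_nonneg _)

theorem wt_mono {w : σ → ℝ} (hw : ∀ a, 0 ≤ w a) {μ ν : σ →₀ ℕ} (h : μ ≤ ν) : wt w μ ≤ wt w ν :=
  sum_le_sum fun a _ => mul_le_mul_of_nonneg_left (by exact_mod_cast h a) (hw a)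

theorem le_wt {w : σ → ℝ} (hw : ∀ a, 0 ≤ w a) (μ : σ →₀ ℕ) (a : σ) : w a * μ a ≤ wt w μ :=
  single_le_sum (f := fun a => w a * μ a) (fun a _ => mul_nonneg (hw a) (Nat.cast_nonneg _))
    (mem_univ a)

/-- Polynomials of weighted degree at most `H`. -/
noncomputable def VH (w : σ → ℝ) (H : ℝ) : Submodule ℂ (MvPolynomial σ ℂ) :=
  restrictSupport ℂ {μ | wt w μ ≤ H}

theorem mem_VH {w : σ → ℝ} {H : ℝ} {f : MvPolynomial σ ℂ} :
    f ∈ VH w H ↔ ∀ μ ∈ f.support, wt w μ ≤ H := Iff.rfl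

theorem VH_mul (w : σ → ℝ) (a b : ℝ) (f g : MvPolynomial σ ℂ) (hf : f ∈ VH w a)
    (hg : g ∈ VH w b) : f * g ∈ VH w (a + b) := by
  classical
  intro μ hμ
  obtain ⟨x, hx, y, hy, rfl⟩ := mem_add.mp (support_mul f g hμ)
  change wt w (x + y) ≤ a + b
  rw [wt_add]
  exact add_le_add (hf hx) (hg hy)

theorem VH_mono (w : σ → ℝ) {a b : ℝ} (h : a ≤ b) : VH w a ≤ VH w b :=
  fun _ hf => mem_VH.mpr fun μ hμ => (mem_VH.mp hf μ hμ).trans h

theorem VH_ex (w : σ → ℝ) (f : MvPolynomial σ ℂ) : ∃ a, f ∈ VH w a := by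
  refine ⟨∑ μ ∈ f.support, |wt w μ|, mem_VH.mpr fun μ hμ => ?_⟩
  exact (le_abs_self _).trans
    (single_le_sum (f := fun μ => |wt w μ|) (fun _ _ => abs_nonneg _) hμ)

theorem monomial_mem_VH {w : σ → ℝ} {H : ℝ} {μ : σ →₀ ℕ} (h : wt w μ ≤ H) (c : ℂ) :
    monomial μ c ∈ VH w H := (monomial_mem_restrictSupport ℂ).mpr (Or.inl h)

theorem C_mem_VH (w : σ → ℝ) {H : ℝ} (h : 0 ≤ H) (c : ℂ) : (C c : MvPolynomial σ ℂ) ∈ VH w H :=
  monomial_mem_VH (by simpa using h) c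

theorem X_mem_VH (w : σ → ℝ) (a : σ) : (X a : MvPolynomial σ ℂ) ∈ VH w (w a) :=
  monomial_mem_VH (by simp [wt_single]) 1

theorem VH_le {w w' : σ → ℝ} (h : ∀ a, w' a ≤ w a) (H : ℝ) : VH w H ≤ VH w' H :=
  fun _ hf => mem_VH.mpr fun μ hμ => le_trans
    (sum_le_sum fun a _ => mul_le_mul_of_nonneg_right (h a) (Nat.cast_nonneg _))
    (mem_VH.mp hf μ hμ)

omit [Fintype σ] in
theorem mem_support_pderiv {a : σ} {f : MvPolynomial σ ℂ} {μ : σ →₀ ℕ} :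
    μ ∈ (pderiv a f).support ↔ μ + Finsupp.single a 1 ∈ f.support := by
  rw [mem_support_iff, mem_support_iff, coeff_pderiv]
  have : ((μ a : ℂ) + 1) ≠ 0 := by exact_mod_cast Nat.succ_ne_zero (μ a)
  simp [this]

theorem pderiv_mem_VH {w : σ → ℝ} {H : ℝ} {f : MvPolynomial σ ℂ} (hf : f ∈ VH w H) (a : σ) :
    pderiv a f ∈ VH w (H - w a) := by
  refine mem_VH.mpr fun μ hμ => ?_
  have := mem_VH.mp hf _ (mem_support_pderiv.mp hμ)
  rw [wt_add, wt_single] at this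
  simp at this; linarith

/-- Polynomials of weighted index at least `e` at the origin. -/
noncomputable def NI {v : σ → ℝ} (hv : ∀ a, 0 ≤ v a) (e : ℝ) : Ideal (MvPolynomial σ ℂ) :=
  restrictSupportIdeal ℂ {μ | e ≤ wt v μ} fun _ _ h h' => le_trans h' (wt_mono hv h)

theorem mem_NI {v : σ → ℝ} {hv : ∀ a, 0 ≤ v a} {e : ℝ} {f : MvPolynomial σ ℂ} :
    f ∈ NI hv e ↔ ∀ μ ∈ f.support, e ≤ wt v μ := Iff.rfl

theorem NI_top {v : σ → ℝ} (hv : ∀ a, 0 ≤ v a) {e : ℝ} (he : e ≤ 0) : NI hv e = ⊤ := by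
  rw [eq_top_iff]
  exact fun f _ => mem_NI.mpr fun μ _ => he.trans (wt_nonneg hv μ)

theorem NI_mul {v : σ → ℝ} (hv : ∀ a, 0 ≤ v a) (a b : ℝ) (f g : MvPolynomial σ ℂ)
    (hf : f ∈ NI hv a) (hg : g ∈ NI hv b) : f * g ∈ NI hv (a + b) := by
  classical
  refine mem_NI.mpr fun μ hμ => ?_
  obtain ⟨x, hx, y, hy, rfl⟩ := mem_add.mp (support_mul f g hμ)
  rw [wt_add]
  exact add_le_add (mem_NI.mp hf _ hx) (mem_NI.mp hg _ hy)

theorem NI_anti {v : σ → ℝ} (hv : ∀ a, 0 ≤ v a) {a b : ℝ} (h : b ≤ a) : NI hv a ≤ NI hv b :=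
  fun _ hf => mem_NI.mpr fun μ hμ => h.trans (mem_NI.mp hf μ hμ)

theorem monomial_mem_NI {v : σ → ℝ} (hv : ∀ a, 0 ≤ v a) {e : ℝ} {μ : σ →₀ ℕ} (h : e ≤ wt v μ)
    (c : ℂ) : monomial μ c ∈ NI hv e := by
  classical
  refine mem_NI.mpr fun ν hν => ?_
  rw [mem_singleton.mp (support_monomial_subset hν)]
  exact h

theorem X_pow_mem_NI {v : σ → ℝ} (hv : ∀ a, 0 ≤ v a) (a : σ) (k : ℕ) :
    (X a ^ k : MvPolynomial σ ℂ) ∈ NI hv (v a * k) := by
  rw [X_pow_eq_monomial]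
  exact monomial_mem_NI hv (by rw [wt_single]) 1

theorem X_mem_NI {v : σ → ℝ} (hv : ∀ a, 0 ≤ v a) (a : σ) :
    (X a : MvPolynomial σ ℂ) ∈ NI hv (v a) := by simpa using X_pow_mem_NI hv a 1

theorem pderiv_mem_NI {v : σ → ℝ} (hv : ∀ a, 0 ≤ v a) {e : ℝ} {f : MvPolynomial σ ℂ}
    (hf : f ∈ NI hv e) (a : σ) : pderiv a f ∈ NI hv (e - v a) := by
  refine mem_NI.mpr fun μ hμ => ?_
  have := mem_NI.mp hf _ (mem_support_pderiv.mp hμ)
  rw [wt_add, wt_single] at this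
  simp at this; linarith

omit [Fintype σ] in
theorem mem_supp {T : Set σ} {f : MvPolynomial σ ℂ} :
    f ∈ supported ℂ T ↔ ∀ μ ∈ f.support, ∀ a, a ∉ T → μ a = 0 := by
  rw [mem_supported]
  constructor
  · intro h μ hμ a ha
    by_contra h0
    exact ha (h (mem_coe.mpr ((mem_vars_iff_mem_support a).mpr ⟨μ, hμ, Finsupp.mem_support_iff.mpr h0⟩)))
  · intro h a ha
    obtain ⟨μ, hμ, h0⟩ := (mem_vars_iff_mem_support a).mp (mem_coe.mp ha)
    by_contra h1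
    exact Finsupp.mem_support_iff.mp h0 (h μ hμ a h1)

omit [Fintype σ] in
theorem pderiv_supp {T : Set σ} {f : MvPolynomial σ ℂ} (hf : f ∈ supported ℂ T) (a : σ) :
    pderiv a f ∈ supported ℂ T := by
  refine mem_supp.mpr fun μ hμ b hb => ?_
  have := mem_supp.mp hf _ (mem_support_pderiv.mp hμ) b hb
  simp at this
  exact this.1

omit [Fintype σ] in
theorem pderiv_supp_zero {T : Set σ} {f : MvPolynomial σ ℂ} (hf : f ∈ supported ℂ T) {a : σ}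
    (ha : a ∉ T) : pderiv a f = 0 := by
  rw [← support_eq_empty, eq_empty_iff_forall_notMem]
  intro μ hμ
  have := mem_supp.mp hf _ (mem_support_pderiv.mp hμ) a ha
  simp at this

omit [Fintype σ] in
theorem apply_eq_zero_of_pderiv {f : MvPolynomial σ ℂ} {a : σ} (h : pderiv a f = 0)
    {μ : σ →₀ ℕ} (hμ : μ ∈ f.support) : μ a = 0 := by
  by_contra h0
  have : μ - Finsupp.single a 1 ∈ (pderiv a f).support := by
    rw [mem_support_pderiv, Finsupp.sub_add_single_one_cancel h0]; exact hμ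
  simp [h] at this

theorem mono_eq (μ : σ →₀ ℕ) (c : ℂ) :
    (monomial μ c : MvPolynomial σ ℂ) = C c * ∏ a, X a ^ μ a := by
  rw [monomial_eq, Finsupp.prod_fintype _ _ (by simp)]

theorem supp_VH {T : Set σ} {w : σ → ℝ} (hw : ∀ a ∈ T, w a = 0) {f : MvPolynomial σ ℂ}
    (hf : f ∈ supported ℂ T) : f ∈ VH w 0 := by
  refine mem_VH.mpr fun μ hμ => le_of_eq (sum_eq_zero fun a _ => ?_)
  by_cases ha : a ∈ T
  · simp [hw a ha]
  · simp [mem_supp.mp hf μ hμ a ha]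

end Vale.Agent.P021
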