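import Vale.Agent.P021.Filt

/-! Generic finiteness over a maximal independent set of coordinates. -/

namespace Vale.Agent.P021

open Finset MvPolynomial

theorem card_le_of_span {A : Type*} [CommRing A] [IsDomain A] [Algebra ℂ A] (S : Subalgebra ℂ A)
    (J : Ideal A) {κ Λ : Type*} [Fintype Λ] (Γ : Finset κ) (x : κ → A) (h : Λ → A)
    (hind : ∀ s : Λ → A, (∀ β, s β ∈ S) → ∑ β, s β * h β ∈ J → ∀ β, s β = 0)
    (hsp : ∀ β, ∃ s ∈ S, s ≠ 0 ∧ ∃ c : κ → A, (∀ k, c k ∈ S) ∧
      ∑ k ∈ Γ, c k * x k - s * h β ∈ J) : Fintype.card Λ ≤ Γ.card := by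
  classical
  choose s hs hs0 c hc hJ using hsp
  let mk := Ideal.Quotient.mk J
  have hsm : ∀ (t : S) (a : A), t • mk a = mk (t * a) := fun t a => rfl
  have hli : LinearIndependent S fun β => mk (s β * h β) := by
    rw [Fintype.linearIndependent_iff]
    intro t ht β
    simp only [hsm, ← map_sum] at ht
    have h1 := hind (fun β => t β * s β) (fun β => S.mul_mem (t β).2 (hs β))
      (by simpa [mul_assoc] using Ideal.Quotient.eq_zero_iff_mem.mp ht) β
    exact Subtype.ext ((mul_eq_zero.mp h1).resolve_right (hs0 β))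
  have := linearIndependent_le_span_aux' _ hli
    ((Γ.image fun k => mk (x k) : Finset (A ⧸ J)) : Set (A ⧸ J)) (by
      rintro _ ⟨β, rfl⟩
      have h2 : mk (s β * h β) = ∑ k ∈ Γ, (⟨c β k, hc β k⟩ : S) • mk (x k) := by
        simp only [hsm, ← map_sum]
        exact (Ideal.Quotient.eq.mpr (hJ β)).symm
      simp only [SetLike.mem_coe]
      rw [h2]
      refine Submodule.sum_mem _ fun k hk => Submodule.smul_mem _ _ (Submodule.subset_span ?_)
      exact mem_coe.mpr (mem_image_of_mem _ hk))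
  refine this.trans ?_
  simpa using card_image_le

variable {σ : Type*} [Fintype σ] [DecidableEq σ]

/-- The weights with the coordinates of `T` set to zero. -/
noncomputable def wB (T : Finset σ) (w : σ → ℝ) : σ → ℝ := fun a => if a ∈ T then 0 else w a

/-- A box of exponents in the coordinates outside `T`. -/
noncomputable def box (T : Finset σ) (w : σ → ℝ) (H : ℝ) : Finset (σ → ℕ) :=
  Fintype.piFinset fun a => if a ∈ T then {0} else range (⌊H / w a⌋₊ + 1)

theorem VH_span (T : Finset σ) {w : σ → ℝ} (hw : ∀ a, 0 < w a) {H : ℝ} {P : MvPolynomial σ ℂ}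
    (hP : P ∈ VH (wB T w) H) : ∃ c : (σ → ℕ) → MvPolynomial σ ℂ,
      (∀ k, c k ∈ supported ℂ (T : Set σ)) ∧ ∑ k ∈ box T w H, c k * ∏ a, X a ^ k a = P := by
  let pB : (σ →₀ ℕ) → σ → ℕ := fun μ a => if a ∈ T then 0 else μ a
  let pT : (σ →₀ ℕ) → MvPolynomial σ ℂ := fun μ =>
    C (coeff μ P) * ∏ a, X a ^ (if a ∈ T then μ a else 0)
  have hT : ∀ μ, pT μ ∈ supported ℂ (T : Set σ) := by
    intro μ
    refine Subalgebra.mul_mem _ (Subalgebra.algebraMap_mem _ _)
      (Subalgebra.prod_mem _ fun a _ => ?_)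
    split_ifs with ha
    · exact Subalgebra.pow_mem _ (X_mem_supported.mpr ha) _
    · simp
  have hB : ∀ μ ∈ P.support, pB μ ∈ box T w H := by
    intro μ hμ
    refine Fintype.mem_piFinset.mpr fun a => ?_
    simp only [pB]
    split_ifs with ha
    · simp
    · rw [mem_range, Nat.lt_succ_iff]
      have h1 := le_wt (w := wB T w) (fun a => by
        unfold wB; split_ifs; exacts [le_rfl, (hw a).le]) μ a
      have h2 := mem_VH.mp hP μ hμ
      simp only [wB, ha, if_false] at h1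
      apply Nat.le_floor
      rw [le_div_iff₀ (hw a)]
      linarith
  refine ⟨fun k => ∑ μ ∈ P.support with pB μ = k, pT μ,
    fun k => Subalgebra.sum_mem _ fun μ _ => hT μ, ?_⟩
  conv_rhs => rw [P.as_sum, ← sum_fiberwise_of_maps_to hB]
  refine sum_congr rfl fun k _ => ?_
  rw [sum_mul]
  refine sum_congr rfl fun μ hμ => ?_
  rw [← (mem_filter.mp hμ).2, mono_eq, mul_assoc, ← prod_mul_distrib]
  congr 1
  refine prod_congr rfl fun a _ => ?_
  simp only [pB]
  split_ifs <;> simp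

/-- `h` is, after a nonzero multiplier from `T`, of bounded degree modulo `q`. -/
def Wp (T : Finset σ) (w : σ → ℝ) (q : Ideal (MvPolynomial σ ℂ)) (a0 : ℝ)
    (h : MvPolynomial σ ℂ) : Prop :=
  ∃ s ∈ supported ℂ (T : Set σ), s ≠ 0 ∧ ∃ P ∈ VH (wB T w) a0, P - s * h ∈ q

section
variable {T : Finset σ} {w : σ → ℝ} {q : Ideal (MvPolynomial σ ℂ)} {a0 : ℝ}

theorem smul_VH {s P : MvPolynomial σ ℂ} (hs : s ∈ supported ℂ (T : Set σ))
    (hP : P ∈ VH (wB T w) a0) : s * P ∈ VH (wB T w) a0 := by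
  simpa using VH_mul _ _ _ _ _ (supp_VH (w := wB T w) (fun a ha => by
    simp [wB, mem_coe.mp ha]) hs) hP

theorem Wp.add {g h : MvPolynomial σ ℂ} (hg : Wp T w q a0 g) (hh : Wp T w q a0 h) :
    Wp T w q a0 (g + h) := by
  obtain ⟨s, hs, hs0, P, hP, h1⟩ := hg
  obtain ⟨s', hs', hs0', P', hP', h2⟩ := hh
  refine ⟨s * s', Subalgebra.mul_mem _ hs hs', mul_ne_zero hs0 hs0', s' * P + s * P',
    Submodule.add_mem _ (smul_VH hs' hP) (smul_VH hs hP'), ?_⟩
  have : s' * P + s * P' - s * s' * (g + h) = s' * (P - s * g) + s * (P' - s' * h) := by ring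
  rw [this]
  exact q.add_mem (q.mul_mem_left _ h1) (q.mul_mem_left _ h2)

theorem Wp.of_mem {h : MvPolynomial σ ℂ} (hh : h ∈ q) : Wp T w q a0 h :=
  ⟨1, Subalgebra.one_mem _, one_ne_zero, 0, Submodule.zero_mem _, by simpa using hh⟩

theorem Wp.of_VH {h : MvPolynomial σ ℂ} (hh : h ∈ VH (wB T w) a0) : Wp T w q a0 h :=
  ⟨1, Subalgebra.one_mem _, one_ne_zero, h, hh, by simp⟩

theorem Wp.sat {s h : MvPolynomial σ ℂ} (hs : s ∈ supported ℂ (T : Set σ)) (hs0 : s ≠ 0)
    (hh : Wp T w q a0 (s * h)) : Wp T w q a0 h := by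
  obtain ⟨s', hs', hs0', P', hP', h2⟩ := hh
  exact ⟨s' * s, Subalgebra.mul_mem _ hs' hs, mul_ne_zero hs0' hs0, P', hP', by rwa [mul_assoc]⟩

theorem Wp.sum {κ : Type*} (S : Finset κ) (f : κ → MvPolynomial σ ℂ)
    (hf : ∀ k ∈ S, Wp T w q a0 (f k)) : Wp T w q a0 (∑ k ∈ S, f k) :=
  Finset.sum_induction f _ (fun _ _ => Wp.add) (Wp.of_mem q.zero_mem) hf

end

theorem gen_fin (T : Finset σ) {w : σ → ℝ} (hw : ∀ a, 0 ≤ w a) (q : Ideal (MvPolynomial σ ℂ))
    (hdep : ∀ y, y ∉ T → ∃ f ∈ supported ℂ (insert y (T : Set σ)), f ∈ q ∧ f ≠ 0) :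
    ∃ a0, ∀ h, Wp T w q a0 h := by
  choose! f hf hfq hf0 using hdep
  refine ⟨∑ a, w a * degreeOf a (f a), ?_⟩
  have key : ∀ n : ℕ, ∀ (γ : σ →₀ ℕ) (c : ℂ), ∑ a ∈ Tᶜ, γ a = n →
      Wp T w q (∑ a, w a * degreeOf a (f a)) (monomial γ c) := by
    intro n
    induction n using Nat.strong_induction_on with
    | _ n ih =>
    intro γ c hγ
    by_cases hlow : ∀ y, y ∉ T → γ y < degreeOf y (f y)
    · refine Wp.of_VH (monomial_mem_VH (sum_le_sum fun a _ => ?_) c)
      unfold wB
      split_ifs with ha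
      · simp only [zero_mul]; exact mul_nonneg (hw a) (Nat.cast_nonneg _)
      · exact mul_le_mul_of_nonneg_left (by exact_mod_cast (hlow a ha).le) (hw a)
    push Not at hlow
    obtain ⟨y, hy, hd⟩ := hlow
    set d := degreeOf y (f y) with hdd
    set γ' := γ - Finsupp.single y d with hγ'
    have hγγ : γ' + Finsupp.single y d = γ := by
      ext a
      by_cases ha : a = y
      · subst ha; simp [hγ']; omega
      · simp [hγ', Ne.symm ha]
    let ℓ : MvPolynomial σ ℂ :=
      ∑ μ ∈ (f y).support with μ y = d, monomial (μ.erase y) (coeff μ (f y))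
    have hℓ : ℓ ∈ supported ℂ (T : Set σ) := by
      refine Subalgebra.sum_mem _ fun μ hμ => mem_supp.mpr fun ν hν a ha => ?_
      rw [mem_singleton.mp (support_monomial_subset hν)]
      by_cases hay : a = y
      · subst hay; simp
      · rw [Finsupp.erase_ne hay]
        exact mem_supp.mp (hf y hy) μ (mem_filter.mp hμ).1 a (by simp [hay, ha])
    have hX : ℓ * monomial (Finsupp.single y d) 1 =
        ∑ μ ∈ (f y).support with μ y = d, monomial μ (coeff μ (f y)) := by
      rw [sum_mul]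
      refine sum_congr rfl fun μ hμ => ?_
      rw [monomial_mul, mul_one, ← (mem_filter.mp hμ).2, Finsupp.erase_add_single]
    have hℓ0 : ℓ ≠ 0 := by
      intro h0
      rw [h0, zero_mul] at hX
      obtain ⟨μ0, h1, h2⟩ := exists_mem_eq_sup (f y).support
        (support_nonempty.mpr (hf0 y hy)) fun m => m y
      have h3 := congrArg (coeff μ0) hX
      rw [coeff_sum, sum_eq_single μ0] at h3
      · simp at h3; exact mem_support_iff.mp h1 h3.symm
      · intro b _ hb; simp [coeff_monomial, hb]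
      · intro h; exact absurd (mem_filter.mpr ⟨h1, by rw [hdd, degreeOf_eq_sup, h2]⟩) h
    refine Wp.sat hℓ hℓ0 ?_
    have hsplit : ℓ * monomial γ c = f y * monomial γ' c +
        ∑ μ ∈ (f y).support with ¬ μ y = d, monomial (μ + γ') (-(coeff μ (f y) * c)) := by
      have h1 : ℓ * monomial γ c = ℓ * monomial (Finsupp.single y d) 1 * monomial γ' c := by
        rw [mul_assoc, monomial_mul, one_mul, add_comm, hγγ]
      have h2 : f y * monomial γ' c =
          (∑ μ ∈ (f y).support, monomial μ (coeff μ (f y))) * monomial γ' c := by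
        rw [← as_sum]
      rw [h1, hX, h2, ← sum_filter_add_sum_filter_not (f y).support (fun μ => μ y = d), add_mul,
        add_assoc]
      simp only [sum_mul, monomial_mul, map_neg, sum_neg_distrib, add_neg_cancel, add_zero]
    rw [hsplit]
    refine Wp.add (Wp.of_mem (q.mul_mem_right _ (hfq y hy))) (Wp.sum _ _ fun μ hμ => ?_)
    obtain ⟨h1, h2⟩ := mem_filter.mp hμ
    refine ih _ ?_ _ _ rfl
    have h3 : μ y < d := lt_of_le_of_ne (by rw [hdd]; exact monomial_le_degreeOf y h1) h2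
    have h4 : ∑ a ∈ Tᶜ, μ a = μ y := by
      refine sum_eq_single y (fun a ha hay => ?_) (fun h => absurd (mem_compl.mpr hy) h)
      exact mem_supp.mp (hf y hy) μ h1 a (by simp [hay, mem_compl.mp ha])
    have h5 : ∑ a ∈ Tᶜ, (Finsupp.single y d) a = d := by
      rw [sum_eq_single y (fun a ha hay => by simp [Ne.symm hay])
        (fun h => absurd (mem_compl.mpr hy) h)]
      simp
    rw [← hγ, ← hγγ]
    simp only [Finsupp.coe_add, Pi.add_apply, sum_add_distrib]
    omega
  intro h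
  rw [h.as_sum]
  exact Wp.sum _ _ fun μ _ => key _ μ _ rfl

theorem exists_const (T : Finset σ) {w : σ → ℝ} (hw : ∀ a, 0 < w a)
    (q : Ideal (MvPolynomial σ ℂ)) (hq : q.IsPrime) {a0 : ℝ} (hW : ∀ h, Wp T w q a0 h)
    {p : MvPolynomial σ ℂ} (hp : p ∉ q) :
    ∃ s ∈ supported ℂ (T : Set σ), s ≠ 0 ∧ ∃ c, s + c * p ∈ q := by
  by_contra hcon
  push Not at hcon
  set n := (box T w a0).card
  have := card_le_of_span (supported ℂ (T : Set σ)) q (Λ := Fin (n + 1)) (box T w a0)
    (fun k => ∏ a, X a ^ k a) (fun k => p ^ (k : ℕ)) ?_ ?_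
  · simp at this; omega
  · intro s hs hsum
    by_contra hne
    push Not at hne
    obtain ⟨k0, h0, hmin⟩ := exists_min_image (univ.filter fun k => s k ≠ 0) id
      (by obtain ⟨k, hk⟩ := hne; exact ⟨k, by simp [hk]⟩)
    simp only [mem_filter, mem_univ, true_and, id] at h0 hmin
    refine hcon (s k0) (hs k0) h0 (∑ k ∈ univ.erase k0, s k * p ^ ((k : ℕ) - k0 - 1)) ?_
    have h1 : ∑ k, s k * p ^ (k : ℕ) =
        p ^ (k0 : ℕ) * (s k0 + (∑ k ∈ univ.erase k0, s k * p ^ ((k : ℕ) - k0 - 1)) * p) := by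
      rw [← add_sum_erase _ _ (mem_univ k0), mul_add, sum_mul, mul_sum, mul_comm]
      congr 1
      refine sum_congr rfl fun k hk => ?_
      by_cases hs0 : s k = 0
      · simp [hs0]
      have h2 : (k0 : ℕ) < k := lt_of_le_of_ne (hmin k hs0)
        (fun h => ne_of_mem_erase hk (Fin.ext h.symm))
      have h3 : (k : ℕ) = k0 + (k - k0 - 1) + 1 := by omega
      conv_lhs => rw [h3]
      ring
    rw [h1] at hsum
    exact (hq.mem_or_mem hsum).resolve_left fun h => hp (hq.mem_of_pow_mem _ h)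
  · intro k
    obtain ⟨s, hs, hs0, P, hP, h1⟩ := hW (p ^ (k : ℕ))
    obtain ⟨c, hc, rfl⟩ := VH_span T hw hP
    exact ⟨s, hs, hs0, c, hc, h1⟩

end Vale.Agent.P021
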