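import Vale.Agent.P021.ZE
import Vale.Agent.P021.Count

/-! Local coordinates along the graph of the logarithm, and the invariant derivations. -/

namespace Vale.Agent.P021

open Finset MvPolynomial

theorem intertwine {σ : Type*} (ψ : MvPolynomial σ ℂ →ₐ[ℂ] MvPolynomial σ ℂ)
    (E E' : Derivation ℂ (MvPolynomial σ ℂ) (MvPolynomial σ ℂ))
    (h : ∀ a, ψ (E (X a)) = E' (ψ (X a))) (f : MvPolynomial σ ℂ) : ψ (E f) = E' (ψ f) := by
  induction f using MvPolynomial.induction_on with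
  | C c => simp [← algebraMap_eq]
  | add f g hf hg => simp [hf, hg]
  | mul_X f a hf => simp only [Derivation.leibniz, smul_eq_mul, map_add, map_mul, hf, h]

theorem wd_NI {σ : Type*} [Fintype σ] {v : σ → ℝ} (hv : ∀ a, 0 ≤ v a)
    (ψ : MvPolynomial σ ℂ →ₐ[ℂ] MvPolynomial σ ℂ)
    (δ : σ → Derivation ℂ (MvPolynomial σ ℂ) (MvPolynomial σ ℂ))
    (h : ∀ a e f, ψ f ∈ NI hv e → ψ (δ a f) ∈ NI hv (e - v a)) (l : List σ) :
    ∀ e f, ψ f ∈ NI hv e → ψ (wd δ l f) ∈ NI hv (e - cost v l) := by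
  induction l with
  | nil => intro e f hf; simpa [wd] using hf
  | cons a l ih =>
    intro e f hf
    have := ih _ _ (h a e f hf)
    rwa [cost_cons, ← sub_sub]

/-- Truncated series of `log (1 + t)`. -/
noncomputable def logP (T : ℕ) : Polynomial ℂ :=
  ∑ j ∈ range (T + 1), Polynomial.C ((-1 : ℂ) ^ (j + 1) / j) * Polynomial.X ^ j

theorem logP_der (T : ℕ) :
    (1 + Polynomial.X) * Polynomial.derivative (logP T) = 1 - (-Polynomial.X) ^ T := by
  induction T with
  | zero => simp [logP]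
  | succ T ih =>
    rw [logP, sum_range_succ, ← logP, map_add, mul_add, ih, Polynomial.derivative_C_mul_X_pow]
    have : ((T + 1 : ℕ) : ℂ) ≠ 0 := by exact_mod_cast T.succ_ne_zero
    rw [div_mul_cancel₀ _ this, neg_pow (Polynomial.X : Polynomial ℂ) T,
      neg_pow (Polynomial.X : Polynomial ℂ) (T + 1)]
    simp only [map_pow, map_neg, map_one, Nat.add_sub_cancel]
    ring

theorem logP_dvd (T : ℕ) : Polynomial.X ∣ logP T := by
  rw [Polynomial.X_dvd_iff]
  simp +contextual [logP, Polynomial.coeff_X_pow]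

variable {m : ℕ}

/-- Expansion of a polynomial in the local coordinates at the point `(1, x)`. -/
noncomputable def psi (T : Fin m → ℕ) (x : Fin m → ℂ) :
    MvPolynomial (Fin (m + 1)) ℂ →ₐ[ℂ] MvPolynomial (Fin (m + 1)) ℂ :=
  aeval (Fin.cons (1 + X 0) fun i => X i.succ + (C (x i) + Polynomial.aeval (X 0) (logP (T i))))

/-- The local coordinates at the point `(1, x)`. -/
noncomputable def loc (T : Fin m → ℕ) (x : Fin m → ℂ) :
    Fin (m + 1) → MvPolynomial (Fin (m + 1)) ℂ :=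
  Fin.cons (X 0 - 1) fun i => X i.succ - C (x i) - Polynomial.aeval (X 0 - 1) (logP (T i))

theorem psi_zero (T : Fin m → ℕ) (x : Fin m → ℂ) : psi T x (X 0) = 1 + X 0 := by simp [psi]

theorem psi_succ (T : Fin m → ℕ) (x : Fin m → ℂ) (i : Fin m) : psi T x (X i.succ) =
    X i.succ + (C (x i) + Polynomial.aeval (X 0) (logP (T i))) := by simp [psi]

theorem psi_loc (T : Fin m → ℕ) (x : Fin m → ℂ) (a : Fin (m + 1)) :
    psi T x (loc T x a) = X a := by
  refine Fin.cases ?_ (fun i => ?_) a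
  · simp [loc, psi_zero]
  · simp only [loc, Fin.cons_succ, map_sub, psi_succ, ← Polynomial.aeval_algHom_apply, psi_zero,
      map_one, add_sub_cancel_left, algHom_C, algebraMap_eq]
    ring

theorem psi_chi (T : Fin m → ℕ) (x : Fin m → ℂ) (f : MvPolynomial (Fin (m + 1)) ℂ) :
    psi T x (aeval (loc T x) f) = f := by
  have : (psi T x).comp (aeval (loc T x)) = AlgHom.id ℂ _ := by
    ext1 a; simp [psi_loc]
  exact AlgHom.congr_fun this f

/-- The invariant derivations. -/
noncomputable def der (m : ℕ) : Fin (m + 1) →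
    Derivation ℂ (MvPolynomial (Fin (m + 1)) ℂ) (MvPolynomial (Fin (m + 1)) ℂ) :=
  Fin.cons ((X 0 : MvPolynomial (Fin (m + 1)) ℂ) • pderiv 0 + ∑ i : Fin m, pderiv i.succ)
    fun i => pderiv i.succ

theorem der_sum_apply {κ A : Type*} [CommRing A] [Algebra ℂ A] (S : Finset κ)
    (E : κ → Derivation ℂ A A) (f : A) : (∑ k ∈ S, E k) f = ∑ k ∈ S, E k f := by
  classical
  induction S using Finset.induction_on with
  | empty => simp
  | insert k S hk ih => rw [sum_insert hk, sum_insert hk, Derivation.add_apply, ih]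

theorem der_zero (f : MvPolynomial (Fin (m + 1)) ℂ) :
    der m 0 f = X 0 * pderiv 0 f + ∑ i : Fin m, pderiv i.succ f := by
  simp [der, der_sum_apply]

theorem der_succ (i : Fin m) : der m i.succ = pderiv i.succ := by simp [der]

theorem coeff_euler {σ : Type*} (a : σ) (f : MvPolynomial σ ℂ) (μ : σ →₀ ℕ) :
    coeff μ (X a * pderiv a f) = μ a * coeff μ f := by
  classical
  rw [coeff_X_mul']
  split_ifs with h
  · have h1 := Finsupp.mem_support_iff.mp h
    rw [coeff_pderiv, Finsupp.sub_add_single_one_cancel h1, mul_comm]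
    congr 1
    obtain ⟨k, hk⟩ := Nat.exists_eq_succ_of_ne_zero h1
    simp [hk]
  · simp [Finsupp.notMem_support_iff.mp h]

theorem der_VH {w : Fin (m + 1) → ℝ} (hw : ∀ a, 0 < w a) (a : Fin (m + 1)) (H : ℝ)
    (f : MvPolynomial (Fin (m + 1)) ℂ) (hf : f ∈ VH w H) : der m a f ∈ VH w H := by
  have h1 : ∀ a, pderiv a f ∈ VH w H := fun a =>
    VH_mono w (by linarith [hw a]) (pderiv_mem_VH hf a)
  refine Fin.cases ?_ (fun i => ?_) a
  · rw [der_zero]
    refine Submodule.add_mem _ ?_ (Submodule.sum_mem _ fun i _ => h1 _)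
    simpa using VH_mul w _ _ _ _ (X_mem_VH w 0) (pderiv_mem_VH hf 0)
  · rw [der_succ]; exact h1 _

theorem psi_der_succ (T : Fin m → ℕ) (x : Fin m → ℂ) (i : Fin m)
    (f : MvPolynomial (Fin (m + 1)) ℂ) :
    psi T x (pderiv i.succ f) = pderiv i.succ (psi T x f) := by
  refine intertwine _ _ _ (fun a => ?_) f
  refine Fin.cases ?_ (fun k => ?_) a
  · simp [psi_zero]
  · simp [psi_succ, Derivation.map_aeval, pderiv_X, Pi.single_apply]

theorem psi_der_zero (T : Fin m → ℕ) (x : Fin m → ℂ) (f : MvPolynomial (Fin (m + 1)) ℂ) :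
    psi T x (der m 0 f) = (1 + X 0) * pderiv 0 (psi T x f) +
      ∑ i : Fin m, (-X 0) ^ T i * pderiv i.succ (psi T x f) := by
  have := intertwine (psi T x) (der m 0) ((1 + X 0 : MvPolynomial (Fin (m + 1)) ℂ) • pderiv 0 +
    ∑ i : Fin m, ((-X 0) ^ T i : MvPolynomial (Fin (m + 1)) ℂ) • pderiv i.succ) (fun a => ?_) f
  · simpa [der_sum_apply] using this
  refine Fin.cases ?_ (fun k => ?_) a
  · simp [psi_zero, der_zero, der_sum_apply]
  · have h := congrArg (Polynomial.aeval (X 0 : MvPolynomial (Fin (m + 1)) ℂ)) (logP_der (T k))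
    simp only [map_mul, map_add, map_one, Polynomial.aeval_X, map_sub, map_pow, map_neg] at h
    simp [psi_succ, der_zero, der_sum_apply, Derivation.map_aeval, pderiv_X, Pi.single_apply, h]

theorem psi_der_NI {v : Fin (m + 1) → ℝ} (hv : ∀ a, 0 ≤ v a) (T : Fin m → ℕ)
    (hT : ∀ i, v i.succ ≤ (T i + 1) * v 0) (x : Fin m → ℂ) (a : Fin (m + 1)) (e : ℝ)
    (f : MvPolynomial (Fin (m + 1)) ℂ) (hf : psi T x f ∈ NI hv e) :
    psi T x (der m a f) ∈ NI hv (e - v a) := by
  refine Fin.cases ?_ (fun i => ?_) a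
  · rw [psi_der_zero]
    refine Ideal.add_mem _ (Ideal.mul_mem_left _ _ (pderiv_mem_NI hv hf 0))
      (Ideal.sum_mem _ fun i _ => ?_)
    rw [neg_pow, mul_assoc]
    refine Ideal.mul_mem_left _ _ (NI_anti hv ?_ (NI_mul hv _ _ _ _ (X_pow_mem_NI hv 0 (T i))
      (pderiv_mem_NI hv hf i.succ)))
    linarith [hT i]
  · rw [der_succ, psi_der_succ]
    exact pderiv_mem_NI hv hf _

theorem ze_mul {w v : Fin (m + 1) → ℝ} (hw : ∀ a, 0 < w a) (hv : ∀ a, 0 < v a)
    {η θ H : ℝ} (hη : 0 < η) (hη1 : η ≤ 1) (hθ : 0 < θ) (hθ1 : θ ≤ 1) (hH : 0 < H)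
    (hδ : ∀ i : Fin m, θ * v i.succ ≤ w i.succ)
    (hsep : ∀ a b, a < b → (2 * (m + 1) / (η * θ)) ^ (m + 1) * v a < w b)
    (p : Ideal (MvPolynomial (Fin (m + 1)) ℂ)) (hp : p.IsPrime)
    {F : MvPolynomial (Fin (m + 1)) ℂ} (hF0 : F ≠ 0) (hF : F ∈ VH w H)
    (hall : ∀ l, cost v l ≤ (m + 2) * (η * H) → wd (der m) l F ∈ p) :
    ∃ c : ℂ, X 0 - C c ∈ p := by
  obtain ⟨q, hq, hqp, b, f, μ0, hind, hf, hfq, hμ, hd, hmax, hmin⟩ :=
    ze hw hv (der m) (der_VH hw) hη hη1 hθ hθ1 hH (fun a y hay => by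
      obtain ⟨i, rfl⟩ := Fin.exists_succ_eq.mpr (ne_of_gt (lt_of_le_of_lt (Fin.zero_le a) hay))
      exact ⟨der_succ i, hδ i⟩) (by simpa using hsep) p hp hF0 hF (by
        intro l hl; apply hall; simp at hl; linarith)
  have hf0 : f ≠ 0 := ne_zero_iff.mpr ⟨μ0, by simpa using hμ⟩
  rcases Fin.eq_zero_or_eq_succ b with rfl | ⟨k, rfl⟩
  · obtain ⟨c, hc⟩ := exists_root hq (b := 0) (supported_mono (fun a ha => by
      simpa using ha) hf) hfq hf0
    exact ⟨c, hqp hc⟩
  exfalso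
  have h1 : ∀ i : Fin m, i ≠ k → pderiv i.succ f = 0 := by
    intro i hi
    rcases lt_or_gt_of_ne hi with h | h
    · refine hmin _ (pderiv_supp hf _) ?_ fun ν hν => ?_
      · rw [← der_succ]; exact hd _ (by simpa using h)
      · exact lex_lt_of_add (hmax _ (mem_support_pderiv.mp hν))
    · exact pderiv_supp_zero hf (by simpa using h)
  have h2 : der m 0 f = X 0 * pderiv 0 f + pderiv k.succ f := by
    rw [der_zero, sum_eq_single k (fun i _ hi => h1 i hi) (by simp)]
  have h3 : ∀ μ, coeff μ (der m 0 f - C (μ0 0 : ℂ) * f) =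
      ((μ 0 : ℂ) - μ0 0) * coeff μ f + coeff μ (pderiv k.succ f) := by
    intro μ
    rw [h2, coeff_sub, coeff_add, coeff_euler, coeff_C_mul]
    ring
  have h4 : der m 0 f - C (μ0 0 : ℂ) * f = 0 := by
    refine hmin _ ?_ (q.sub_mem (hd 0 (Fin.succ_pos k)) (q.mul_mem_left _ hfq)) fun μ hμ => ?_
    · rw [h2]
      refine Subalgebra.sub_mem _ (Subalgebra.add_mem _ (Subalgebra.mul_mem _
        (X_mem_supported.mpr (by simp)) (pderiv_supp hf _)) (pderiv_supp hf _))
        (Subalgebra.mul_mem _ (Subalgebra.algebraMap_mem _ _) hf)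
    · by_cases h5 : μ ∈ (pderiv k.succ f).support
      · exact lex_lt_of_add (hmax _ (mem_support_pderiv.mp h5))
      · rw [mem_support_iff, h3, notMem_support_iff.mp h5, add_zero] at hμ
        refine lt_of_le_of_ne (hmax _ (mem_support_iff.mpr (right_ne_zero_of_mul hμ))) fun h => ?_
        rw [toLex.injective h] at hμ
        simp at hμ
  have h5 : pderiv k.succ f = 0 := by
    by_contra h6
    obtain ⟨ν, hν⟩ := support_nonempty.mpr h6
    have h7 : ∀ μ : Fin (m + 1) →₀ ℕ, (μ + Finsupp.single k.succ 1 : Fin (m + 1) →₀ ℕ) 0 = μ 0 :=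
      fun μ => by simp
    obtain ⟨μ, h8, h9⟩ := exists_max_image (f.support.filter fun μ => μ 0 ≠ μ0 0)
      (fun μ => μ k.succ) ⟨ν + Finsupp.single k.succ 1, by
        rw [mem_filter, h7]
        refine ⟨mem_support_pderiv.mp hν, fun h => mem_support_iff.mp hν ?_⟩
        have := h3 ν
        rw [h4, h] at this
        simpa using this.symm⟩
    rw [mem_filter] at h8
    have h10 : coeff μ (pderiv k.succ f) = 0 := by
      by_contra h
      have := h9 _ (mem_filter.mpr ⟨mem_support_pderiv.mp (mem_support_iff.mpr h),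
        by rw [h7]; exact h8.2⟩)
      simp at this
    have := h3 μ
    rw [h4, h10, add_zero, coeff_zero] at this
    rcases mul_eq_zero.mp this.symm with h | h
    · exact h8.2 (by exact_mod_cast sub_eq_zero.mp h)
    · exact mem_support_iff.mp h8.1 h
  refine hf0 (hind f (mem_supp.mpr fun μ hμ a ha => ?_) hfq)
  rcases (not_lt.mp (by simpa using ha : ¬ a < k.succ)).lt_or_eq with h | h
  · exact mem_supp.mp hf μ hμ a (by simpa using h)
  · rw [← h]; exact apply_eq_zero_of_pderiv h5 hμ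

end Vale.Agent.P021
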