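import Vale.Agent.P021.Asym

/-! Choice of the parameters and the conclusion. -/

namespace Vale.Agent.P021

open Finset Filter Topology

theorem tuple_surj {m K : ℕ} {θ v0 w0 : ℝ} (hθ : 0 < θ) (hθ1 : θ ≤ 1) (hv0 : 0 < v0)
    (hvw : v0 ≤ w0) (hcnt : 3 * K * w0 * θ ^ m < v0)
    (p : Fin m → ℤ) (q : Fin m → ℕ) (hp : ∀ i, p i ≠ 0) (hl : ∀ i, 0 < Real.log (q i))
    (hq4 : ∀ i, (2 * (m + 1) / (1 / ((m + 1) * (m + 2)) * θ)) ^ (m + 1) * v0 < Real.log (q i))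
    (hq5 : ∀ i k, i < k → (2 * (m + 1) / (1 / ((m + 1) * (m + 2)) * θ)) ^ (m + 1) *
      (Real.log (q i) / θ) < Real.log (q k))
    (w v : Fin (m + 1) → ℝ) (w0e : w 0 = w0) (v0e : v 0 = v0)
    (wse : ∀ i : Fin m, w i.succ = Real.log (q i))
    (vse : ∀ i : Fin m, v i.succ = Real.log (q i) / θ) (hw' : ∀ a, 0 < w a) (hv' : ∀ a, 0 < v a) :
    ∃ a0, ∀ e, ∀ y : Fin K → MvPolynomial (Fin (m + 1)) ℂ, ∃ P ∈ VH w (e + a0),
      ∀ j : Fin K, psi (fun i => ⌊Real.log (q i) / (θ * v0)⌋₊)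
        (fun i => ((j : ℕ) : ℂ) * (2 * Complex.I * p i / q i)) P - y j ∈
          NI (fun a => (hv' a).le) e := by
  have hq : ∀ i, (q i : ℂ) ≠ 0 := fun i h => by
    have := hl i
    rw [Nat.cast_eq_zero.mp h] at this
    simp at this
  have hw0 : 0 < w0 := hv0.trans_le hvw
  have hW : 0 < ∏ i, Real.log (q i) := prod_pos fun i _ => hl i
  have hprod : ∏ i : Fin m, v i.succ = (∏ i, Real.log (q i)) / θ ^ m := by
    simp [vse, prod_div_distrib]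
  have hm : (0 : ℝ) ≤ m := by positivity
  have hc1 : 1 ≤ (1 + (m + 2) * (1 / ((m + 1) * (m + 2))) : ℝ) := by
    have : 0 ≤ ((m + 2) * (1 / ((m + 1) * (m + 2))) : ℝ) := by positivity
    linarith
  have hc3 : (1 + (m + 2) * (1 / ((m + 1) * (m + 2))) : ℝ) ^ (m + 1) ≤ 3 := by
    have h1 : (1 + (m + 2) * (1 / ((m + 1) * (m + 2))) : ℝ) ≤ Real.exp (1 / (m + 1)) := by
      refine le_trans (le_of_eq ?_) (Real.add_one_le_exp _)
      field_simp; ring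
    refine (pow_le_pow_left₀ (by linarith) h1 _).trans ?_
    rw [← Real.exp_nat_mul]
    push_cast
    rw [mul_one_div_cancel (by positivity)]
    linarith [Real.exp_one_lt_d9]
  have hθm : 0 < θ ^ m := by positivity
  refine surj hw' hv' (fun i => ⌊Real.log (q i) / (θ * v0)⌋₊)
    (fun (j : Fin K) i => ((j : ℕ) : ℂ) * (2 * Complex.I * p i / q i))
    (η := 1 / ((m + 1) * (m + 2))) (θ := θ) (by positivity)
    (by rw [div_le_one (by positivity)]; nlinarith) hθ hθ1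
    (fun i => by rw [wse, vse, le_div_iff₀ hθ]; nlinarith [hl i])
    (fun i => by rw [wse, vse, mul_div_cancel₀ _ hθ.ne']) (fun a b hab => ?_) (fun i => ?_) ?_ ?_
    fun i j j' h => ?_
  · obtain ⟨k, rfl⟩ := Fin.exists_succ_eq.mpr (ne_of_gt (lt_of_le_of_lt (Fin.zero_le a) hab))
    rcases Fin.eq_zero_or_eq_succ a with rfl | ⟨i, rfl⟩
    · rw [v0e, wse]; exact hq4 k
    · rw [vse, wse]; exact hq5 i k (by simpa using hab)
  · rw [vse, v0e, div_le_iff₀ hθ, mul_assoc, mul_comm v0, ← div_le_iff₀ (by positivity)]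
    exact (Nat.lt_floor_add_one _).le
  · rw [Fin.prod_univ_succ, Fin.prod_univ_succ, hprod, w0e, v0e, ← mul_div_assoc v0,
      lt_div_iff₀ hθm]
    simp only [wse]
    calc _ ≤ K * 3 * (w0 * ∏ i, Real.log (q i)) * θ ^ m := by gcongr
      _ = (3 * K * w0 * θ ^ m) * ∏ i, Real.log (q i) := by ring
      _ < _ := by gcongr
  · rw [hprod, lt_div_iff₀ hθm]
    simp only [wse]
    have h1 := (pow_le_pow_right₀ hc1 (Nat.le_succ m)).trans hc3
    have h2 : 3 * K * θ ^ m < 1 := by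
      refine lt_of_mul_lt_mul_right (a := w0) ?_ hw0.le
      linarith
    calc _ ≤ K * 3 * (∏ i, Real.log (q i)) * θ ^ m := by gcongr
      _ = (3 * K * θ ^ m) * ∏ i, Real.log (q i) := by ring
      _ < 1 * ∏ i, Real.log (q i) := by gcongr
      _ = _ := one_mul _
  · have h1 : (2 * Complex.I * p i / q i : ℂ) ≠ 0 :=
      div_ne_zero (mul_ne_zero (by simp) (by exact_mod_cast hp i)) (hq i)
    exact Fin.ext (by exact_mod_cast mul_right_cancel₀ h1 h)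

theorem no_tuple {m K : ℕ} {ν θ γ a v0 w0 : ℝ} (hν : 1 ≤ ν) (hθ : 0 < θ) (hθ1 : θ ≤ 1)
    (hγ0 : 0 < γ) (hγ1 : γ ≤ 1 / 2) (ha0 : 0 ≤ a) (ha1 : a ≤ 1)
    (hgap : 12 * γ ≤ ν * a - ν * θ - 1 + θ) (hv0 : 0 < v0) (hvw : v0 ≤ w0)
    (hγ : 6 ≤ γ * (θ * v0)) (hK : 0 < K)
    (hR : Real.exp 1 * (2 * Real.pi * K + 1) ≤ γ * w0)
    (hbad : (m + 1) * (1 - γ) ^ m < γ)
    (hlow : (m + 1) * v0 * a ^ m * ν ^ 2 < γ * K * θ ^ m)
    (hcnt : 3 * K * w0 * θ ^ m < v0)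
    (p : Fin m → ℤ) (q : Fin m → ℕ) (hp : ∀ i, p i ≠ 0) (hq1 : ∀ i, 1 ≤ Real.log (q i))
    (hq2 : ∀ i, Real.log (4 * K + 4) ≤ γ * Real.log (q i))
    (hq3 : ∀ i, Real.log (2 * (Real.exp 1 * (2 * Real.pi * K + 1))) ≤ γ * Real.log (q i))
    (hq4 : ∀ i, (2 * (m + 1) / (1 / ((m + 1) * (m + 2)) * θ)) ^ (m + 1) * v0 < Real.log (q i))
    (hq5 : ∀ i k, i < k → (2 * (m + 1) / (1 / ((m + 1) * (m + 2)) * θ)) ^ (m + 1) *
      (Real.log (q i) / θ) < Real.log (q k))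
    (hpq : ∀ i, |Real.pi - p i / q i| < (q i : ℝ) ^ (-ν)) : False := by
  have hl : ∀ i, 0 < Real.log (q i) := fun i => one_pos.trans_le (hq1 i)
  have hw0 : 0 < w0 := hv0.trans_le hvw
  obtain ⟨w, hw⟩ : ∃ w : Fin (m + 1) → ℝ, w = Fin.cons w0 fun i => Real.log (q i) := ⟨_, rfl⟩
  obtain ⟨v, hv⟩ : ∃ v : Fin (m + 1) → ℝ, v = Fin.cons v0 fun i => Real.log (q i) / θ := ⟨_, rfl⟩
  have w0e : w 0 = w0 := by simp [hw]
  have v0e : v 0 = v0 := by simp [hv]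
  have wse : ∀ i : Fin m, w i.succ = Real.log (q i) := by simp [hw]
  have vse : ∀ i : Fin m, v i.succ = Real.log (q i) / θ := by simp [hv]
  have hw' : ∀ a, 0 < w a := fun a => Fin.cases (by rwa [w0e]) (fun i => by rw [wse]; exact hl i) a
  have hv' : ∀ a, 0 < v a := fun a => Fin.cases (by rwa [v0e])
    (fun i => by rw [vse]; exact div_pos (hl i) hθ) a
  have hW : 0 < ∏ i, Real.log (q i) := prod_pos fun i _ => hl i
  have hprod : ∏ i : Fin m, v i.succ = (∏ i, Real.log (q i)) / θ ^ m := by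
    simp [vse, prod_div_distrib]
  obtain ⟨a0, hs⟩ := tuple_surj hθ hθ1 hv0 hvw hcnt p q hp hl hq4 hq5 w v w0e v0e wse vse hw' hv'
  have hK' : (0 : ℝ) < K := by exact_mod_cast hK
  have e1 := ev_bad hv' (γ := γ) (by linarith) hbad
  have e2 := ev_low hv' hl (γ := γ) (ν := ν) (K := K) ha0 (by positivity) (by
    rw [hprod, v0e]
    calc _ = ((m + 1) * v0 * a ^ m * ν ^ 2) * ((∏ i, Real.log (q i)) / θ ^ m) := by ring
      _ < (γ * K * θ ^ m) * ((∏ i, Real.log (q i)) / θ ^ m) := by gcongr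
      _ = _ := by field_simp)
  have e3 := ev_box hv' (c := γ * K) (by positivity) (2 + |a0|)
  have e4 := ev_log hv' (c := γ / 2) (by positivity) K
  obtain ⟨H, ⟨⟨⟨e1, e2⟩, e3⟩, e4⟩, hH, e5⟩ := ((((e1.and e2).and e3).and e4).and
    ((eventually_gt_atTop 0).and (eventually_ge_atTop ((1 + |a0|) / γ)))).exists
  have h1 := core hν hθ hγ0 (by linarith) hv0 hw0 hγ hR p q hq1 hq2 hq3 hpq w v hw hv hv'
    (H := H) (H' := H + 1 + |a0|) (Λ := (ν - γ) * (a * H)) fun y => by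
      obtain ⟨P, hP, h⟩ := hs (H + 1) y
      exact ⟨P, VH_mono w (add_le_add_right (le_abs_self a0) _) hP, h⟩
  have h2 := psi_sum_le hl (ν := ν - γ) (X := a * H) (Y := ν * H) (by linarith)
    (mul_le_mul (by linarith) (mul_le_of_le_one_left hH.le ha1) (by positivity) (by linarith))
    ⌊H + 1 + |a0|⌋₊
  have h3 := rows_lower hv' hH.le (y := (1 - γ) * H) (mul_nonneg (by linarith) hH.le)
  have h4 : ∑ μ ∈ lat v H, ∑ i : Fin m, Real.log (q i) * μ i.succ =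
      θ * ∑ μ ∈ lat v H, ∑ i : Fin m, v i.succ * μ i.succ := by
    simp only [mul_sum, vse]
    exact sum_congr rfl fun μ _ => sum_congr rfl fun i _ => by field_simp
  have h5 : (0 : ℝ) < #(lat v H) := by
    exact_mod_cast card_pos.mpr ⟨0, (mem_lat hv').mpr (by simpa using hH.le)⟩
  rw [h4, Nat.cast_mul] at h1
  rw [Nat.cast_mul] at e4
  rw [div_le_iff₀ hγ0] at e5
  refine final_ineq hγ0 hγ1 hθ hθ1 ha1 hH h5 hK' hgap (H' := H + 1 + |a0|) (by linarith) h3 e1 e4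
    h2 e2 (le_trans ?_ e3) h1
  have := Nat.floor_le (a := H + 1 + |a0|) (by positivity)
  exact mul_le_mul_of_nonneg_left (pow_le_pow_left₀ (by positivity) (by linarith) _) zero_le_two

theorem exists_params {ν : ℝ} (hν : 2 < ν) : ∃ (m K : ℕ) (θ γ a v0 w0 : ℝ), 0 < θ ∧ θ ≤ 1 ∧
    0 < γ ∧ γ ≤ 1 / 2 ∧ 0 ≤ a ∧ a ≤ 1 ∧ 12 * γ ≤ ν * a - ν * θ - 1 + θ ∧ 0 < v0 ∧ v0 ≤ w0 ∧
    6 ≤ γ * (θ * v0) ∧ 0 < K ∧ Real.exp 1 * (2 * Real.pi * K + 1) ≤ γ * w0 ∧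
    (m + 1) * (1 - γ) ^ m < γ ∧ (m + 1) * v0 * a ^ m * ν ^ 2 < γ * K * θ ^ m ∧
    3 * K * w0 * θ ^ m < v0 := by
  obtain ⟨a, ha0, ha1⟩ := exists_between (show 1 / (ν - 1) < 1 by
    rw [div_lt_one (by linarith)]; linarith)
  rw [div_lt_iff₀ (by linarith)] at ha0
  have ha : 0 < a := by nlinarith
  obtain ⟨θ, hθ0, hθ1⟩ := exists_between (show a ^ 2 < (ν * a - 1) / (ν - 1) by
    rw [lt_div_iff₀ (by linarith)]; nlinarith)
  rw [lt_div_iff₀ (by linarith)] at hθ1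
  have hθ : 0 < θ := lt_trans (by positivity) hθ0
  have hθa : θ < a := by nlinarith
  obtain ⟨γ, hγ0, hγ1⟩ := exists_between (show 0 < min (1 / 2) ((ν * a - ν * θ - 1 + θ) / 12) from
    lt_min (by norm_num) (by linarith))
  obtain ⟨hγ1, hγ2⟩ := lt_min_iff.mp hγ1
  set v0 := 6 / (γ * θ) with hv0
  have hv1 : 1 ≤ v0 := by
    rw [hv0, le_div_iff₀ (by positivity)]; nlinarith
  set C := v0 + 24 / γ with hC
  have hC0 : 0 < C := by positivity
  have t1 : ∀ (k : ℕ) (r : ℝ), 0 < r → r < 1 → ∀ c : ℝ, 0 < c →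
      ∀ᶠ m : ℕ in atTop, ((m : ℝ) + 1) ^ k * r ^ m < c := by
    intro k r h0 h1 c hc
    have h2 := ((tendsto_pow_const_mul_const_pow_of_lt_one k h0.le h1).comp
      (tendsto_add_atTop_nat 1)).eventually (gt_mem_nhds (mul_pos hc h0))
    filter_upwards [h2] with m hm
    simp only [Function.comp, pow_succ r, ← mul_assoc] at hm
    push_cast at hm
    exact lt_of_mul_lt_mul_right hm h0.le
  obtain ⟨m, h1, h2⟩ := ((t1 1 (1 - γ) (by linarith) (by linarith) γ hγ0).and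
    (t1 2 (a ^ 2 / θ) (by positivity) (by rwa [div_lt_one hθ])
      (γ ^ 2 / (12 * C * v0 * ν ^ 4)) (by positivity))).exists
  set X := (m + 1) * v0 * (a / θ) ^ m * ν ^ 2 / γ with hX
  have hX1 : 1 ≤ X := by
    have e1 : 1 ≤ (a / θ) ^ m := one_le_pow₀ (by rw [le_div_iff₀ hθ]; linarith)
    have e2 : (1 : ℝ) ≤ m + 1 := by simp
    have e3 : 1 ≤ ν ^ 2 := by nlinarith
    rw [hX, le_div_iff₀ hγ0]
    exact le_trans (by linarith) (one_le_mul_of_one_le_of_one_le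
      (one_le_mul_of_one_le_of_one_le (one_le_mul_of_one_le_of_one_le e2 hv1) e1) e3)
  have hK1 : X < (⌊X⌋₊ + 1 : ℕ) := by push_cast; exact Nat.lt_floor_add_one X
  have hK2 : ((⌊X⌋₊ + 1 : ℕ) : ℝ) ≤ 2 * X := by
    push_cast; linarith [Nat.floor_le (show 0 ≤ X by linarith)]
  have hK3 : (1 : ℝ) ≤ (⌊X⌋₊ + 1 : ℕ) := by linarith
  generalize hKK : ⌊X⌋₊ + 1 = K at hK1 hK2 hK3
  have hθm : 0 < θ ^ m := by positivity
  refine ⟨m, K, θ, γ, a, v0, C * K, hθ, by linarith, hγ0, hγ1.le, ha.le, ha1.le, by linarith,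
    by linarith, ?_, le_of_eq (by rw [hv0]; field_simp), by omega, ?_, by simpa using h1, ?_, ?_⟩
  · have : 0 < 24 / γ := by positivity
    nlinarith
  · have e1 : γ * (C * K) = γ * v0 * K + 24 * K := by rw [hC]; field_simp
    have e2 : 0 ≤ γ * v0 * K := by positivity
    have e3 : 2 * Real.pi * K + 1 ≤ 8 * K := by nlinarith [Real.pi_lt_d2]
    have e4 : Real.exp 1 * (2 * Real.pi * K + 1) ≤ 3 * (8 * K) :=
      mul_le_mul (by linarith [Real.exp_one_lt_d9]) e3 (by positivity) (by norm_num)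
    linarith
  · rw [hX, div_lt_iff₀ hγ0, div_pow] at hK1
    calc _ = ((m + 1) * v0 * (a ^ m / θ ^ m) * ν ^ 2) * θ ^ m := by field_simp
      _ < (K * γ) * θ ^ m := by gcongr
      _ = _ := by ring
  · rw [lt_div_iff₀ (by positivity)] at h2
    calc _ = 3 * C * K ^ 2 * θ ^ m := by ring
      _ ≤ 3 * C * (2 * X) ^ 2 * θ ^ m := by gcongr
      _ = (((m : ℝ) + 1) ^ 2 * (a ^ 2 / θ) ^ m * (12 * C * v0 * ν ^ 4)) * (v0 / γ ^ 2) := by
        rw [hX, div_pow a, div_pow (a ^ 2), ← pow_mul, mul_comm 2 m, pow_mul]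
        field_simp; ring
      _ < γ ^ 2 * (v0 / γ ^ 2) := by gcongr
      _ = _ := by field_simp

theorem unbounded {x ν : ℝ} (hν : 0 < ν) (h : Set.Infinite {y : ℤ × ℤ | IsCoprime y.1 y.2 ∧
    2 ≤ y.2 ∧ 0 < |x - y.1 / y.2| ∧ |x - y.1 / y.2| < (y.2 : ℝ) ^ (-ν)}) (B : ℝ) :
    ∃ y : ℤ × ℕ, B < Real.log y.2 ∧ |x - y.1 / y.2| < (y.2 : ℝ) ^ (-ν) ∧ |x - y.1 / y.2| < 1 := by
  obtain ⟨N, hN⟩ := exists_nat_gt (Real.exp B)
  obtain ⟨M, hM⟩ := exists_nat_gt ((|x| + 1) * N)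
  obtain ⟨⟨p, q⟩, ⟨-, h2, -, h4⟩, h5⟩ := h.exists_notMem_finset
    (Icc (-M : ℤ) M ×ˢ Icc (0 : ℤ) N)
  obtain ⟨q, rfl⟩ := Int.eq_ofNat_of_zero_le (show 0 ≤ q by simp only at h2; omega)
  simp only [Int.cast_natCast] at h2 h4
  have hq : (2 : ℝ) ≤ q := by exact_mod_cast h2
  have h6 : |x - p / q| < 1 :=
    h4.trans_le (Real.rpow_le_one_of_one_le_of_nonpos (by linarith) (by linarith))
  refine ⟨(p, q), ?_, h4, h6⟩
  by_contra h7
  rw [not_lt, Real.log_le_iff_le_exp (by linarith)] at h7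
  have h8 : (q : ℝ) ≤ N := by linarith
  have h9 : |(p : ℝ)| ≤ M := by
    have e1 : |(p : ℝ) / q| ≤ |x| + 1 := by
      have := abs_sub_abs_le_abs_sub ((p : ℝ) / q) x
      rw [abs_sub_comm] at this
      linarith
    rw [abs_div, abs_of_pos (show (0 : ℝ) < q by linarith), div_le_iff₀ (by linarith)] at e1
    nlinarith [abs_nonneg x]
  apply h5
  rw [mem_product, mem_Icc, mem_Icc, ← abs_le]
  exact ⟨by exact_mod_cast h9, by simp, Int.ofNat_le.mpr (by exact_mod_cast h8)⟩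

theorem upper {ν : ℝ} (hν : 2 < ν) : ¬ Set.Infinite {y : ℤ × ℤ | IsCoprime y.1 y.2 ∧
    2 ≤ y.2 ∧ 0 < |Real.pi - y.1 / y.2| ∧ |Real.pi - y.1 / y.2| < (y.2 : ℝ) ^ (-ν)} := by
  intro h
  obtain ⟨m, K, θ, γ, a, v0, w0, hθ, hθ1, hγ0, hγ1, ha0, ha1, hgap, hv0, hvw, hγ, hK, hR, hbad,
    hlow, hcnt⟩ := exists_params hν
  set L : ℝ := (2 * (m + 1) / (1 / ((m + 1) * (m + 2)) * θ)) ^ (m + 1) with hL
  set W := max (max 1 (Real.log (4 * K + 4) / γ))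
    (max (Real.log (2 * (Real.exp 1 * (2 * Real.pi * K + 1))) / γ) (L * v0)) with hW
  obtain ⟨f, hf, hr⟩ := exists_seq_of_forall_finset_exists
    (fun y : ℤ × ℕ => W < Real.log y.2 ∧ |Real.pi - y.1 / y.2| < (y.2 : ℝ) ^ (-ν) ∧
      |Real.pi - y.1 / y.2| < 1)
    (fun y z => L * (Real.log y.2 / θ) < Real.log z.2) (fun s _ => by
      obtain ⟨B, hB⟩ := (s.image fun y => L * (Real.log y.2 / θ)).bddAbove
      obtain ⟨y, h1, h2⟩ := unbounded (by linarith) h (max W B)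
      exact ⟨y, ⟨(le_max_left _ _).trans_lt h1, h2⟩, fun x hx => lt_of_le_of_lt
        ((hB (mem_coe.mpr (mem_image_of_mem _ hx))).trans (le_max_right _ _)) h1⟩)
  simp only [hW, max_lt_iff, div_lt_iff₀' hγ0] at hf
  refine no_tuple (by linarith) hθ hθ1 hγ0 hγ1 ha0 ha1 hgap hv0 hvw hγ hK hR hbad hlow hcnt
    (fun i => (f i).1) (fun i => (f i).2) (fun i h0 => ?_) (fun i => (hf i).1.1.1.le)
    (fun i => (hf i).1.1.2.le) (fun i => (hf i).1.2.1.le) (fun i => (hf i).1.2.2)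
    (fun i k hik => hr i k hik) fun i => (hf i).2.1
  have := (hf i).2.2
  rw [h0] at this
  simp [abs_of_pos Real.pi_pos] at this
  linarith [Real.pi_gt_three]

theorem lower {x : ℝ} (hx : Irrational x) : Set.Infinite {y : ℤ × ℤ | IsCoprime y.1 y.2 ∧
    2 ≤ y.2 ∧ 0 < |x - y.1 / y.2| ∧ |x - y.1 / y.2| < (y.2 : ℝ) ^ (-(2 : ℝ))} := by
  have h1 := (Real.infinite_rat_abs_sub_lt_one_div_den_sq_of_irrational hx).sdiff
    (((Set.finite_singleton ⌊x⌋).insert (⌊x⌋ + 1)).image (Int.cast : ℤ → ℚ))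
  refine Set.infinite_of_injOn_mapsTo (f := fun r : ℚ => (r.num, (r.den : ℤ)))
    (fun r _ r' _ h => ?_) (fun r hr => ?_) h1
  · simp only [Prod.mk.injEq, Nat.cast_inj] at h
    exact Rat.ext h.1 h.2
  obtain ⟨h2, h3⟩ := hr
  have h4 : ((r.num : ℝ) / ((r.den : ℤ) : ℝ)) = r := by
    rw [Int.cast_natCast, Rat.cast_def]
  simp only [Set.mem_ofPred_eq, h4] at h2 ⊢
  refine ⟨Int.isCoprime_iff_gcd_eq_one.mpr r.reduced, ?_, abs_pos.mpr (sub_ne_zero.mpr (hx.ne_rat r)),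
    ?_⟩
  · by_contra h5
    have h6 : r.den = 1 := by have := r.pos; omega
    obtain ⟨n, rfl⟩ : ∃ n : ℤ, r = n := ⟨r.num, ((Rat.den_eq_one_iff r).mp h6).symm⟩
    refine h3 ⟨n, ?_, rfl⟩
    simp only [Rat.cast_intCast, Rat.den_intCast, Nat.cast_one, one_pow, div_one, abs_lt] at h2
    have e1 : (n : ℝ) < ⌊x⌋ + 2 := by linarith [Int.lt_floor_add_one x]
    have e2 : (⌊x⌋ : ℝ) < n + 1 := by linarith [Int.floor_le x]
    have e3 : n < ⌊x⌋ + 2 := by exact_mod_cast e1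
    have e4 : ⌊x⌋ < n + 1 := by exact_mod_cast e2
    simp only [Set.mem_insert_iff, Set.mem_singleton_iff]
    omega
  · rw [Real.rpow_neg (by positivity), Real.rpow_two, Int.cast_natCast, ← one_div]
    exact h2

end Vale.Agent.P021
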