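import Mathlib

/-! Surjectivity of filtered pieces onto jets, by Noetherian induction. -/

namespace Vale.Agent.P021

/-- Data of a degree filtration `V`, multipliers `M` and index filtrations `m j`. -/
structure Filt (A : Type*) [CommRing A] (ι : Type*) where
  V : ℝ → AddSubgroup A
  M : Submonoid A
  m : ι → ℝ → Ideal A
  V_mul : ∀ a b f g, f ∈ V a → g ∈ V b → f * g ∈ V (a + b)
  V_mono : ∀ a b, a ≤ b → V a ≤ V b
  V_ex : ∀ f, ∃ a, f ∈ V a
  M_V : ∀ s ∈ M, s ∈ V 0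
  m_top : ∀ j e, e ≤ 0 → m j e = ⊤
  m_mul : ∀ j a b f g, f ∈ m j a → g ∈ m j b → f * g ∈ m j (a + b)

variable {A : Type*} [CommRing A] {ι : Type*}

namespace Filt

variable (F : Filt A ι)

theorem m_anti (j : ι) {a b : ℝ} (h : b ≤ a) : F.m j a ≤ F.m j b := by
  intro f hf
  have h1 : (1 : A) ∈ F.m j (b - a) := by
    rw [F.m_top j _ (by linarith)]; trivial
  have := F.m_mul j _ _ _ _ hf h1
  simpa using this

theorem sup_mul (I : Ideal A) (j : ι) {a b : ℝ} {f g : A} (hf : f ∈ I ⊔ F.m j a)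
    (hg : g ∈ I ⊔ F.m j b) : f * g ∈ I ⊔ F.m j (a + b) := by
  obtain ⟨p, hp, x, hx, rfl⟩ := Submodule.mem_sup.mp hf
  obtain ⟨p', hp', x', hx', rfl⟩ := Submodule.mem_sup.mp hg
  have : (p + x) * (p' + x') = (p * (p' + x') + x * p') + x * x' := by ring
  rw [this]
  exact Submodule.add_mem_sup (I.add_mem (I.mul_mem_right _ hp) (I.mul_mem_left _ hp'))
    (F.m_mul j _ _ _ _ hx hx')

theorem sup_pow (I : Ideal A) (j : ι) {a : ℝ} {f : A} (hf : f ∈ I ⊔ F.m j a) (n : ℕ) :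
    f ^ n ∈ I ⊔ F.m j (n * a) := by
  induction n with
  | zero => rw [F.m_top j _ (by simp)]; simp
  | succ n ih =>
    have := F.sup_mul I j ih hf
    rw [pow_succ]; push_cast
    rwa [add_mul, one_mul]

theorem exists_pow (I : Ideal A) {a : ℝ} (ha : 0 < a) {f : A} (hf : ∀ j, f ∈ I ⊔ F.m j a)
    (e : ℝ) : ∃ n : ℕ, ∀ j, f ^ n ∈ I ⊔ F.m j e := by
  obtain ⟨n, hn⟩ := exists_nat_ge (e / a)
  refine ⟨n, fun j => ?_⟩
  have h1 : e ≤ n * a := by rwa [div_le_iff₀ ha] at hn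
  exact (sup_le_sup_left (F.m_anti j h1) I) (F.sup_pow I j (hf j) n)

theorem sup_eq_top (I : Ideal A) (j : ι) {a : ℝ} (ha : 0 < a) (hf : (1 : A) ∈ I ⊔ F.m j a)
    (e : ℝ) : I ⊔ F.m j e = ⊤ := by
  obtain ⟨n, hn⟩ := exists_nat_ge (e / a)
  have h1 : e ≤ n * a := by rwa [div_le_iff₀ ha] at hn
  have := (sup_le_sup_left (F.m_anti j h1) I) (F.sup_pow I j hf n)
  rw [one_pow] at this
  exact (Ideal.eq_top_iff_one _).mpr this

/-- One instance of the surjectivity statement. -/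
def Sur (I : Ideal A) (H e : ℝ) : Prop :=
  ∀ r : ι → A, ∃ s ∈ F.M, ∃ P ∈ F.V H, ∀ j, P - s * r j ∈ I ⊔ F.m j e

/-- Surjectivity modulo `I` in all degrees beyond `lam * e + a0`. -/
def Good (lam : ℝ) (I : Ideal A) : Prop :=
  ∃ a0 : ℝ, ∀ H e, lam * e + a0 ≤ H → F.Sur I H e

theorem sur_nonpos (I : Ideal A) (H : ℝ) {e : ℝ} (he : e ≤ 0) : F.Sur I H e := by
  intro r
  refine ⟨1, F.M.one_mem, 0, (F.V H).zero_mem, fun j => ?_⟩
  rw [F.m_top j e he]; simp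

theorem step (I : Ideal A) {f : A} {H H1 e e1 e2 : ℝ} (hf : f ∈ F.V H1)
    (h1 : F.Sur (I ⊔ Ideal.span {f}) H e) (J : Ideal A) (h2 : F.Sur J (H - H1) e2)
    (h3 : ∀ j x, x ∈ J ⊔ F.m j e2 → f * x ∈ I ⊔ F.m j e1) (he : e ≤ e1) : F.Sur I H e := by
  intro r
  obtain ⟨s1, hs1, P1, hP1, hr⟩ := h1 r
  have : ∀ j, ∃ c : A, P1 - s1 * r j - c * f ∈ I ⊔ F.m j e := by
    intro j
    obtain ⟨x, hx, y, hy, hxy⟩ := Submodule.mem_sup.mp (hr j)
    obtain ⟨p, hp, z, hz, rfl⟩ := Submodule.mem_sup.mp hx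
    obtain ⟨c, rfl⟩ := Ideal.mem_span_singleton'.mp hz
    refine ⟨c, ?_⟩
    rw [← hxy]
    have : p + c * f + y - c * f = p + y := by ring
    rw [this]
    exact Submodule.add_mem_sup hp hy
  choose c hc using this
  obtain ⟨s2, hs2, P2, hP2, hr2⟩ := h2 c
  refine ⟨s2 * s1, F.M.mul_mem hs2 hs1, s2 * P1 - f * P2, ?_, fun j => ?_⟩
  · apply (F.V H).sub_mem
    · simpa using F.V_mul _ _ _ _ (F.M_V s2 hs2) hP1
    · simpa using F.V_mul _ _ _ _ hf hP2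
  · have : s2 * P1 - f * P2 - s2 * s1 * r j =
        s2 * (P1 - s1 * r j - c j * f) - f * (P2 - s2 * c j) := by ring
    rw [this]
    apply Ideal.sub_mem
    · exact Ideal.mul_mem_left _ _ (hc j)
    · exact (sup_le_sup_left (F.m_anti j he) I) (h3 j _ (hr2 j))

theorem good_of_mul {lam : ℝ} (I : Ideal A) {f g : A} (hfg : f * g ∈ I)
    (h1 : F.Good lam (I ⊔ Ideal.span {f})) (h2 : F.Good lam (I ⊔ Ideal.span {g})) :
    F.Good lam I := by
  obtain ⟨a1, h1⟩ := h1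
  obtain ⟨a2, h2⟩ := h2
  obtain ⟨d, hd⟩ := F.V_ex f
  refine ⟨max a1 (a2 + d), fun H e hH => ?_⟩
  have := le_max_left a1 (a2 + d)
  have := le_max_right a1 (a2 + d)
  refine F.step I hd (h1 H e (by linarith)) _ (h2 (H - d) e (by linarith)) ?_ le_rfl
  intro j x hx
  obtain ⟨x', hx', y, hy, rfl⟩ := Submodule.mem_sup.mp hx
  obtain ⟨p, hp, z, hz, rfl⟩ := Submodule.mem_sup.mp hx'
  obtain ⟨c, rfl⟩ := Ideal.mem_span_singleton'.mp hz
  have : f * (p + c * g + y) = (f * p + c * (f * g)) + f * y := by ring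
  rw [this]
  exact Submodule.add_mem_sup (I.add_mem (I.mul_mem_left _ hp) (I.mul_mem_left _ hfg))
    (Ideal.mul_mem_left _ _ hy)

theorem good_of_section {lam : ℝ} (I : Ideal A) {f : A} {H1 e1 : ℝ} (hf : f ∈ F.V H1)
    (he1 : 0 < e1) (hH1 : H1 ≤ lam * e1) (hm : ∀ j, f ∈ I ⊔ F.m j e1)
    (h1 : F.Good lam (I ⊔ Ideal.span {f})) : F.Good lam I := by
  obtain ⟨a1, h1⟩ := h1
  refine ⟨a1, ?_⟩
  have key : ∀ n : ℕ, ∀ H e, e ≤ n * e1 → lam * e + a1 ≤ H → F.Sur I H e := by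
    intro n
    induction n with
    | zero => intro H e he _; exact F.sur_nonpos I H (by simpa using he)
    | succ n ih =>
      intro H e he hH
      push_cast at he
      refine F.step I hf (h1 H e hH) I (ih (H - H1) (e - e1) (by linarith) (by nlinarith))
        (e1 := e1 + (e - e1)) ?_ (by linarith)
      intro j x hx
      exact F.sup_mul I j (hm j) hx
  intro H e hH
  obtain ⟨n, hn⟩ := exists_nat_ge (e / e1)
  exact key n H e (by rwa [div_le_iff₀ he1] at hn) hH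

theorem good_of_mult {lam : ℝ} (I : Ideal A) {s : A} (hs : s ∈ F.M) {e1 : ℝ} (he1 : 0 < e1)
    (hm : ∀ j, s ∈ I ⊔ F.m j e1) : F.Good lam I := by
  refine ⟨0, fun H e _ r => ?_⟩
  obtain ⟨n, hn⟩ := F.exists_pow I he1 hm e
  refine ⟨s ^ n, F.M.pow_mem hs n, 0, (F.V H).zero_mem, fun j => ?_⟩
  rw [zero_sub]
  exact neg_mem (Ideal.mul_mem_right _ _ (hn j))

theorem good_bot [IsNoetherianRing A] {lam : ℝ}
    (h : ∀ p : Ideal A, p.IsPrime → F.Good lam p ∨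
      ∃ f H1 e1, f ∈ F.V H1 ∧ f ∉ p ∧ 0 < e1 ∧ H1 ≤ lam * e1 ∧ ∀ j, f ∈ p ⊔ F.m j e1)
    (I : Ideal A) : F.Good lam I := by
  induction I using IsNoetherian.induction with
  | hgt I ih =>
  have hlt : ∀ f, f ∉ I → I ⊔ Ideal.span {f} > I := by
    intro f hf
    refine lt_of_le_of_ne le_sup_left fun h => hf ?_
    rw [h]
    exact Ideal.mem_sup_right (Ideal.mem_span_singleton_self f)
  by_cases hp : Ideal.IsPrime I
  · rcases h I hp with h | ⟨f, H1, e1, hf, hfI, he1, hH1, hm⟩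
    · exact h
    · exact F.good_of_section I hf he1 hH1 hm (ih _ (hlt f hfI))
  · by_cases ht : I = ⊤
    · exact F.good_of_mult I F.M.one_mem one_pos (fun j => by simp [ht])
    · obtain ⟨f, hf, g, hg, hfg⟩ := (Ideal.not_isPrime_iff.mp hp).resolve_left ht
      exact F.good_of_mul I hfg (ih _ (hlt f hf)) (ih _ (hlt g hg))

end Filt

end Vale.Agent.P021
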