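import Vale.Agent.P021.Gen

/-! A product-theorem inequality by counting. -/

namespace Vale.Agent.P021

open Finset MvPolynomial

variable {σ : Type*} [Fintype σ] [DecidableEq σ]

/-- The coordinates in `T` are algebraically independent modulo `q`. -/
def Indep (q : Ideal (MvPolynomial σ ℂ)) (T : Finset σ) : Prop :=
  ∀ f ∈ supported ℂ (T : Set σ), f ∈ q → f = 0

omit [Fintype σ] [DecidableEq σ] in
theorem min_pderiv {q : Ideal (MvPolynomial σ ℂ)} {T : Finset σ} (hT : Indep q T) (y : σ) :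
    ∀ d : ℕ, ∀ f ∈ supported ℂ (insert y (T : Set σ)), f ∈ q → f ≠ 0 →
      (∀ μ ∈ f.support, μ y < d) →
      ∃ g ∈ supported ℂ (insert y (T : Set σ)), g ∈ q ∧ pderiv y g ∉ q := by
  intro d
  induction d with
  | zero =>
    intro f _ _ hf0 h
    obtain ⟨μ, hμ⟩ := support_nonempty.mpr hf0
    exact absurd (h μ hμ) (Nat.not_lt_zero _)
  | succ d ih =>
    intro f hf hfq hf0 h
    by_cases h1 : pderiv y f ∈ q
    · refine ih _ (pderiv_supp hf y) h1 (fun h0 => hf0 (hT f ?_ hfq)) fun μ hμ => ?_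
      · refine mem_supp.mpr fun μ hμ a ha => ?_
        by_cases hay : a = y
        · rw [hay]; exact apply_eq_zero_of_pderiv h0 hμ
        · exact mem_supp.mp hf μ hμ a (by simp only [Set.mem_insert_iff, not_or]; exact ⟨hay, ha⟩)
      · simpa using h _ (mem_support_pderiv.mp hμ)
    · exact ⟨f, hf, hfq, h1⟩

theorem exists_max_indep {q : Ideal (MvPolynomial σ ℂ)} {T0 : Finset σ} (h0 : Indep q T0) :
    ∃ T, T0 ⊆ T ∧ Indep q T ∧
      ∀ y, y ∉ T → ∃ f ∈ supported ℂ (insert y (T : Set σ)), f ∈ q ∧ f ≠ 0 := by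
  classical
  obtain ⟨T, hT, hmax⟩ := exists_max_image
    ((univ : Finset (Finset σ)).filter fun T => T0 ⊆ T ∧ Indep q T) card ⟨T0, by simp [h0]⟩
  simp only [mem_filter, mem_univ, true_and] at hT hmax
  refine ⟨T, hT.1, hT.2, fun y hy => ?_⟩
  by_contra hcon
  push Not at hcon
  have := hmax (insert y T) ⟨hT.1.trans (subset_insert _ _), fun f hf => hcon f (by simpa using hf)⟩
  rw [card_insert_of_notMem hy] at this
  omega

/-- The filtration data used for the upper count. -/
noncomputable def ptFilt (T : Finset σ) (w : σ → ℝ) (δ : σ → Derivation ℂ (MvPolynomial σ ℂ)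
    (MvPolynomial σ ℂ)) (q : Ideal (MvPolynomial σ ℂ)) {v : σ → ℝ} (hv : ∀ a, 0 ≤ v a) :
    Filt (MvPolynomial σ ℂ) Unit where
  V H := (VH (wB T w) H).toAddSubgroup
  M := (supported ℂ (T : Set σ)).toSubmonoid ⊓ nonZeroDivisors _
  m _ e := JI δ q hv e
  V_mul := VH_mul _
  V_mono _ _ h := VH_mono _ h
  V_ex := VH_ex _
  M_V _ hs := supp_VH (w := wB T w) (fun a ha => by simp [wB, mem_coe.mp ha]) hs.1
  m_top _ _ he := JI_top δ q hv he
  m_mul _ := JI_mul δ q hv

theorem pt_upper (T : Finset σ) {w v : σ → ℝ} (hw : ∀ a, 0 < w a) (hv : ∀ a, 0 < v a)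
    (δ : σ → Derivation ℂ (MvPolynomial σ ℂ) (MvPolynomial σ ℂ))
    (q : Ideal (MvPolynomial σ ℂ)) (hq : q.IsPrime) {η H : ℝ} (hη : 0 < η) (hH : 0 < H)
    (hmin : ∀ p : Ideal (MvPolynomial σ ℂ), p.IsPrime → p < q →
      ∃ g ∈ VH w H, g ∉ p ∧ g ∈ JI δ q (fun a => (hv a).le) (η * H))
    (hdep : ∀ y, y ∉ T → ∃ f ∈ supported ℂ (insert y (T : Set σ)), f ∈ q ∧ f ≠ 0) :
    ∃ a0 : ℝ, ∀ e h, Wp T w (JI δ q (fun a => (hv a).le) e) (e / η + a0) h := by
  have hv' : ∀ a, 0 ≤ v a := fun a => (hv a).le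
  obtain ⟨a1, hW⟩ := gen_fin T (fun a => (hw a).le) q hdep
  obtain ⟨c, hc, hcv⟩ : ∃ c, 0 < c ∧ ∀ a, c ≤ v a := by
    rcases isEmpty_or_nonempty σ with h | h
    · exact ⟨1, one_pos, fun a => isEmptyElim a⟩
    · obtain ⟨a, ha⟩ := Finite.exists_min v
      exact ⟨v a, hv a, ha⟩
  have hM : ∀ s ∈ supported ℂ (T : Set σ), s ≠ 0 → s ∈ (ptFilt T w δ q hv').M :=
    fun s hs h0 => ⟨hs, mem_nonZeroDivisors_of_ne_zero h0⟩
  have := (ptFilt T w δ q hv').good_bot (lam := 1 / η) ?_ ⊥
  · obtain ⟨a0, h0⟩ := this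
    refine ⟨a0, fun e h => ?_⟩
    obtain ⟨s, hs, P, hP, h1⟩ := h0 (e / η + a0) e (le_of_eq (by ring)) (fun _ => h)
    exact ⟨s, hs.1, nonZeroDivisors.ne_zero hs.2, P, hP, by simpa [ptFilt] using h1 ()⟩
  intro p hp
  by_cases hle : p ≤ q
  · rcases hle.lt_or_eq with hlt | rfl
    · obtain ⟨g, hg, hgp, hgJ⟩ := hmin p hp hlt
      refine Or.inr ⟨g, H, η * H, VH_le (fun a => ?_) H hg, hgp, by positivity,
        le_of_eq (by field_simp), fun _ => Ideal.mem_sup_right hgJ⟩
      unfold wB; split_ifs; exacts [(hw a).le, le_rfl]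
    · refine Or.inl ⟨a1, fun H' e hH' => ?_⟩
      by_cases he : e ≤ 0
      · exact Filt.sur_nonpos _ _ _ he
      intro r
      obtain ⟨s, hs, hs0, P, hP, h1⟩ := hW (r ())
      have : 0 ≤ 1 / η * e := by push Not at he; positivity
      exact ⟨s, hM s hs hs0, P, VH_mono _ (by linarith) hP, fun _ => Ideal.mem_sup_left h1⟩
  · obtain ⟨x, hxp, hxq⟩ := SetLike.not_le_iff_exists.mp hle
    obtain ⟨s, hs, hs0, c', h1⟩ := exists_const T hw q hq hW hxq
    refine Or.inl (Filt.good_of_mult _ p (hM s hs hs0) hc fun _ => ?_)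
    have : s = -(c' * x) + (s + c' * x) := by ring
    rw [this]
    exact Submodule.add_mem_sup (neg_mem (p.mul_mem_left _ hxp)) (le_JI δ q hv' hcv h1)

theorem pt_count (T : Finset σ) {w v : σ → ℝ} (hw : ∀ a, 0 < w a) (hv : ∀ a, 0 < v a)
    (δ : σ → Derivation ℂ (MvPolynomial σ ℂ) (MvPolynomial σ ℂ))
    (q : Ideal (MvPolynomial σ ℂ)) (hq : q.IsPrime) (hT : Indep q T) {e H' : ℝ} (he : 0 < e)
    (hH' : 0 ≤ H') (hW : ∀ h, Wp T w (JI δ q (fun a => (hv a).le) e) H' h)
    (b : {y // y ∉ T}) (d : {y // y ∉ T} → σ) (g : {y // y ∉ T} → MvPolynomial σ ℂ)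
    (hg : ∀ y, g y ∈ q) (hE : ∀ y z, z ≠ y → δ (d y) (g z) ∈ q)
    (hd : ∀ y, δ (d y) (g y) ∉ q) :
    ∏ y, e / (Fintype.card σ * v (d y)) ≤ ∏ y : {y // y ∉ T}, (H' / w y + 1) := by
  set n := Fintype.card σ with hn
  have hnpos : (0 : ℝ) < n := by exact_mod_cast Fintype.card_pos_iff.mpr ⟨b.1⟩
  let Λ := Fintype.piFinset fun y => range ⌈e / (n * v (d y))⌉₊
  have h1 := card_le_of_span (supported ℂ (T : Set σ)) (JI δ q (fun a => (hv a).le) e) (Λ := Λ)
    (box T w H') (fun k => ∏ a, X a ^ k a) (fun β => ∏ z, g z ^ β.1 z) ?_ ?_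
  · rw [Fintype.card_coe, Fintype.card_piFinset, box, Fintype.card_piFinset] at h1
    have h2 : ∏ a, #(if a ∈ T then ({0} : Finset ℕ) else range (⌊H' / w a⌋₊ + 1)) =
        ∏ y : {y // y ∉ T}, (⌊H' / w y⌋₊ + 1) := by
      rw [← prod_subtype (s := Tᶜ) (p := fun y => y ∉ T) (by simp)
        (f := fun a => ⌊H' / w a⌋₊ + 1), ← prod_mul_prod_compl T]
      rw [prod_eq_one (fun a ha => by simp [ha]), one_mul]
      exact prod_congr rfl fun a ha => by simp [mem_compl.mp ha]
    rw [h2] at h1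
    simp only [card_range] at h1
    have h3 : ((∏ y, ⌈e / (n * v (d y))⌉₊ : ℕ) : ℝ) ≤
        ((∏ y : {y // y ∉ T}, (⌊H' / w y⌋₊ + 1) : ℕ) : ℝ) := by exact_mod_cast h1
    push_cast at h3
    refine le_trans (prod_le_prod (fun y _ => ?_) fun y _ => Nat.le_ceil _) (h3.trans
      (prod_le_prod (fun y _ => by positivity) fun y _ => ?_))
    · have := hv (d y); positivity
    · have := hw y
      have := Nat.floor_le (a := H' / w y) (by positivity)
      linarith
  · intro s hs hsum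
    have := indep δ q hq (fun a => (hv a).le) e d g hg hE hd Λ
      (fun β => if h : β ∈ Λ then s ⟨β, h⟩ else 0) ?_ ?_ ?_
    · intro β
      simpa using this β.1 β.2
    · intro β hβ
      simp only [hβ, dif_pos]
      exact hT _ (hs _)
    · intro β hβ
      have h2 : ∑ z, (β z : ℝ) * v (d z) < ∑ z : {y // y ∉ T}, e / n := by
        refine sum_lt_sum_of_nonempty ⟨b, mem_univ _⟩ fun z _ => ?_
        have h3 := Nat.lt_ceil.mp (mem_range.mp (Fintype.mem_piFinset.mp hβ z))
        have := hv (d z)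
        rw [lt_div_iff₀ (by positivity)] at h3
        rw [lt_div_iff₀ hnpos]
        linarith
      refine h2.trans_le ?_
      rw [sum_const, card_univ, nsmul_eq_mul, ← mul_div_assoc, div_le_iff₀ hnpos, mul_comm]
      gcongr
      exact Fintype.card_subtype_le _
    · rw [← sum_coe_sort]
      simpa using hsum
  · intro β
    obtain ⟨s, hs, hs0, P, hP, h1⟩ := hW (∏ z, g z ^ β.1 z)
    obtain ⟨c, hc, rfl⟩ := VH_span T hw hP
    exact ⟨s, hs, hs0, c, hc, h1⟩

theorem pt {w v : σ → ℝ} (hw : ∀ a, 0 < w a) (hv : ∀ a, 0 < v a)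
    (δ : σ → Derivation ℂ (MvPolynomial σ ℂ) (MvPolynomial σ ℂ))
    (q : Ideal (MvPolynomial σ ℂ)) (hq : q.IsPrime) {η θ H : ℝ} (hη : 0 < η) (hη1 : η ≤ 1)
    (hθ : 0 < θ) (hθ1 : θ ≤ 1) (hH : 0 < H)
    (hmin : ∀ p : Ideal (MvPolynomial σ ℂ), p.IsPrime → p < q →
      ∃ g ∈ VH w H, g ∉ p ∧ g ∈ JI δ q (fun a => (hv a).le) (η * H))
    (T0 : Finset σ) (hT0 : Indep q T0) (a b : σ)
    (hδ : ∀ y, y ∉ T0 → y ≠ b → δ y = pderiv y ∧ θ * v y ≤ w y)
    (f : MvPolynomial σ ℂ) (hf : f ∈ supported ℂ (insert b (T0 : Set σ))) (hfq : f ∈ q)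
    (hsep : (2 * Fintype.card σ / (η * θ)) ^ Fintype.card σ * v a < w b) : δ a f ∈ q := by
  by_contra hfa
  obtain ⟨T, hT0T, hT, hdep⟩ := exists_max_indep hT0
  have hf' : f ∈ supported ℂ (insert b (T : Set σ)) :=
    supported_mono (Set.insert_subset_insert (coe_subset.mpr hT0T)) hf
  have hbT : b ∉ T := by
    intro hb
    rw [Set.insert_eq_of_mem (mem_coe.mpr hb)] at hf'
    rw [hT f hf' hfq] at hfa
    exact hfa (by simp)
  have hex : ∀ y : {y // y ∉ T}, ∃ g ∈ supported ℂ (insert y.1 (T : Set σ)),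
      g ∈ q ∧ pderiv y.1 g ∉ q := by
    intro y
    obtain ⟨g, h1, h2, h3⟩ := hdep y.1 y.2
    exact min_pderiv hT y.1 (degreeOf y.1 g + 1) g h1 h2 h3
      fun μ hμ => Nat.lt_succ_of_le (monomial_le_degreeOf _ hμ)
  choose F hF hFq hFd using hex
  obtain ⟨a0, hW⟩ := pt_upper T hw hv δ q hq hη hH hmin hdep
  set n := Fintype.card σ with hn
  have hn1 : (1 : ℝ) ≤ n := by exact_mod_cast Fintype.card_pos_iff.mpr ⟨b⟩
  set E := |a0| + ∑ y, w y with hE
  have hwE : ∀ y, a0 + w y ≤ E := fun y => add_le_add (le_abs_self _)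
    (single_le_sum (f := w) (fun y _ => (hw y).le) (mem_univ y))
  have hE0 : 0 < E := by
    have := single_le_sum (f := w) (fun y _ => (hw y).le) (mem_univ b)
    have := abs_nonneg a0
    linarith [hw b]
  have hE1 : 0 ≤ E + a0 := by
    have := sum_nonneg (s := univ) (f := w) (fun y _ => (hw y).le)
    have := neg_abs_le a0
    linarith
  let b' : {y // y ∉ T} := ⟨b, hbT⟩
  let d : {y // y ∉ T} → σ := fun y => if y = b' then a else y.1
  have hδ' : ∀ y : {y // y ∉ T}, y ≠ b' → δ (d y) = pderiv y.1 ∧ θ * v (d y) ≤ w y := by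
    intro y hy
    simp only [d, hy, if_false]
    exact hδ y.1 (fun h => y.2 (hT0T h)) fun h => hy (Subtype.ext h)
  have hdb : d b' = a := by simp [d]
  have h1 := pt_count T hw hv δ q hq hT (e := η * E) (H' := E + a0) (by positivity) hE1
    (fun h => by simpa [mul_div_cancel_left₀ E hη.ne'] using hW (η * E) h) b' d
    (fun y => if y = b' then f else δ a f * F y - δ a (F y) * f) ?_ ?_ ?_
  · set L := 2 * n / (η * θ) with hL
    have hL1 : 1 ≤ L := by
      rw [hL, le_div_iff₀ (by positivity)]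
      nlinarith [mul_le_mul hη1 hθ1 hθ.le zero_le_one]
    have h2 : ∏ y : {y // y ∉ T}, ((E + a0) / w y + 1) ≤ ∏ y : {y // y ∉ T}, 2 * E / w y := by
      refine prod_le_prod (fun y _ => by have := hw y; positivity) fun y _ => ?_
      have := hw y
      rw [div_add_one this.ne']
      gcongr
      linarith [hwE y]
    have h3 : ∏ y : {y // y ∉ T}, ((if y = b' then w b / v a else 1) * (2 * E / w y)) ≤
        ∏ y : {y // y ∉ T}, (L * (η * E / (n * v (d y)))) := by
      refine prod_le_prod (fun y _ => ?_) fun y _ => ?_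
      · have := hw y; have := hw b; have := hv a; positivity
      · have h4 := hw y
        have h5 := hv (d y)
        have h6 : L * (η * E / (n * v (d y))) = 2 * E / (θ * v (d y)) := by
          rw [hL]; field_simp
        rw [h6]
        split_ifs with hy
        · subst hy
          rw [hdb] at h5 ⊢
          have : w b / v a * (2 * E / w b) = 2 * E / v a := by
            have := (hw b).ne'
            field_simp
          rw [this]
          gcongr
          nlinarith
        · rw [one_mul]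
          gcongr
          exact (hδ' y hy).2
    rw [prod_mul_distrib, prod_mul_distrib, prod_ite_eq', if_pos (mem_univ _), prod_const,
      card_univ] at h3
    have h4 : 0 < ∏ y : {y // y ∉ T}, 2 * E / w y :=
      prod_pos fun y _ => by have := hw y; positivity
    have h5 : L ^ Fintype.card {y // y ∉ T} ≤ L ^ n :=
      pow_le_pow_right₀ hL1 (Fintype.card_subtype_le _)
    have h6 : w b / v a ≤ L ^ n := by
      refine le_of_mul_le_mul_right (h3.trans ?_) h4
      exact mul_le_mul h5 (h1.trans h2) (prod_nonneg fun y _ => by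
        have := hv (d y); positivity) (by positivity)
    rw [div_le_iff₀ (hv a)] at h6
    linarith
  · intro y
    split_ifs
    · exact hfq
    · exact q.sub_mem (q.mul_mem_left _ (hFq y)) (q.mul_mem_left _ hfq)
  · intro y z hzy
    by_cases hy : y = b'
    · subst hy
      rw [if_neg hzy, hdb]
      simp only [map_sub, Derivation.leibniz, smul_eq_mul]
      have : δ a f * δ a (F z) + F z * δ a (δ a f) - (δ a (F z) * δ a f + f * δ a (δ a (F z))) =
          F z * δ a (δ a f) - f * δ a (δ a (F z)) := by ring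
      rw [this]
      exact q.sub_mem (q.mul_mem_right _ (hFq z)) (q.mul_mem_right _ hfq)
    · have h0 : pderiv y.1 f = 0 := pderiv_supp_zero hf' (by
        simp only [Set.mem_insert_iff, not_or]
        exact ⟨fun h => hy (Subtype.ext h), y.2⟩)
      rw [(hδ' y hy).1]
      split_ifs
      · simp [h0]
      · have h1 : pderiv y.1 (F z) = 0 := pderiv_supp_zero (hF z) (by
          simp only [Set.mem_insert_iff, not_or]
          exact ⟨fun h => hzy (Subtype.ext h.symm), y.2⟩)
        simp only [map_sub, Derivation.leibniz, smul_eq_mul, h0, h1, mul_zero, zero_add]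
        exact q.sub_mem (q.mul_mem_right _ (hFq z)) (q.mul_mem_right _ hfq)
  · intro y
    by_cases hy : y = b'
    · subst hy
      rwa [if_pos rfl, hdb]
    · have h0 : pderiv y.1 f = 0 := pderiv_supp_zero hf' (by
        simp only [Set.mem_insert_iff, not_or]
        exact ⟨fun h => hy (Subtype.ext h), y.2⟩)
      rw [(hδ' y hy).1, if_neg hy]
      simp only [map_sub, Derivation.leibniz, smul_eq_mul, h0, mul_zero, zero_add]
      intro h
      have h2 := q.add_mem h (q.mul_mem_right (pderiv y.1 (δ a (F y))) hfq)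
      rw [sub_add_cancel, q.add_mem_iff_left (q.mul_mem_right _ (hFq y))] at h2
      exact (hq.mem_or_mem h2).elim hfa (hFd y)

end Vale.Agent.P021
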