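import Vale.Agent.P021.Jet

/-! Surjectivity onto weighted jets at the chosen points. -/

namespace Vale.Agent.P021

open Finset MvPolynomial

variable {m : ℕ}

/-- The filtration by degree and by index at the points. -/
noncomputable def jetFilt {K : ℕ} (w : Fin (m + 1) → ℝ) {v : Fin (m + 1) → ℝ}
    (hv : ∀ a, 0 ≤ v a) (T : Fin m → ℕ) (x : Fin K → Fin m → ℂ) :
    Filt (MvPolynomial (Fin (m + 1)) ℂ) (Fin K) where
  V H := (VH w H).toAddSubgroup
  M := ⊥
  m j e := (NI hv e).comap (psi T (x j))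
  V_mul := VH_mul _
  V_mono _ _ h := VH_mono _ h
  V_ex := VH_ex _
  M_V s hs := by
    rw [Submonoid.mem_bot.mp hs]
    exact C_mem_VH w le_rfl 1
  m_top j _ he := by rw [NI_top hv he, Ideal.comap_top]
  m_mul j a b f g hf hg := by
    rw [Ideal.mem_comap, map_mul]
    exact NI_mul hv a b _ _ hf hg

theorem mem_jet {K : ℕ} {w v : Fin (m + 1) → ℝ} {hv : ∀ a, 0 ≤ v a} {T : Fin m → ℕ}
    {x : Fin K → Fin m → ℂ} {j : Fin K} {e : ℝ} {f : MvPolynomial (Fin (m + 1)) ℂ} :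
    f ∈ (jetFilt w hv T x).m j e ↔ psi T (x j) f ∈ NI hv e := Iff.rfl

/-- Translation. -/
noncomputable def tau (x : Fin m → ℂ) : MvPolynomial (Fin m) ℂ →ₐ[ℂ] MvPolynomial (Fin m) ℂ :=
  aeval fun i => X i + C (x i)

theorem tau_der (x : Fin m → ℂ) (i : Fin m) (f : MvPolynomial (Fin m) ℂ) :
    tau x (pderiv i f) = pderiv i (tau x f) :=
  intertwine _ _ _ (fun a => by simp [tau, pderiv_X, Pi.single_apply, apply_ite]) f

theorem wt_mapDomain (w : Fin (m + 1) → ℝ) (μ : Fin m →₀ ℕ) :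
    wt w (μ.mapDomain Fin.succ) = wt (fun i => w i.succ) μ := by
  rw [wt_succ, Finsupp.mapDomain_of_notMem_range _ _ (by simp)]
  simp [wt, Finsupp.tail_apply, Finsupp.mapDomain_apply (Fin.succ_injective m)]

theorem rename_support {f : MvPolynomial (Fin m) ℂ} {ν : Fin (m + 1) →₀ ℕ}
    (h : ν ∈ (rename Fin.succ f).support) : ∃ μ ∈ f.support, ν = μ.mapDomain Fin.succ := by
  rw [support_rename_of_injective (Fin.succ_injective m)] at h
  obtain ⟨μ, h1, h2⟩ := mem_image.mp h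
  exact ⟨μ, h1, h2.symm⟩

theorem aeval_logP_mem (p : Ideal (MvPolynomial (Fin (m + 1)) ℂ)) (ht : X 0 - 1 ∈ p) (T : ℕ) :
    Polynomial.aeval (X 0 - 1 : MvPolynomial (Fin (m + 1)) ℂ) (logP T) ∈ p := by
  obtain ⟨g, hg⟩ := logP_dvd T
  rw [hg, map_mul, Polynomial.aeval_X]
  exact p.mul_mem_right _ ht

theorem transfer (p : Ideal (MvPolynomial (Fin (m + 1)) ℂ)) (ht : X 0 - 1 ∈ p) (T : Fin m → ℕ)
    (x : Fin m → ℂ) (f : MvPolynomial (Fin m) ℂ) :
    rename Fin.succ f - aeval (loc T x) (rename Fin.succ (tau x f)) ∈ p := by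
  rw [← Ideal.Quotient.eq]
  have : (Ideal.Quotient.mkₐ ℂ p).comp (rename Fin.succ) = (Ideal.Quotient.mkₐ ℂ p).comp
      ((aeval (loc T x)).comp ((rename Fin.succ).comp (tau x))) := by
    ext1 i
    simp only [AlgHom.comp_apply, Ideal.Quotient.mkₐ_eq_mk, Ideal.Quotient.eq]
    simp only [tau, aeval_X, map_add, rename_X, algHom_C, algebraMap_eq, loc, Fin.cons_succ]
    convert aeval_logP_mem p ht (T i) using 1
    ring
  exact AlgHom.congr_fun this f

theorem sub_eval_mem {σ : Type*} (p : Ideal (MvPolynomial σ ℂ)) (y : σ → ℂ)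
    (h : ∀ a, X a - C (y a) ∈ p) (f : MvPolynomial σ ℂ) : C (eval y f) - f ∈ p := by
  induction f using MvPolynomial.induction_on with
  | C c => simp
  | add f g hf hg =>
    convert p.add_mem hf hg using 1
    simp only [map_add]; ring
  | mul_X f a hf =>
    convert p.sub_mem (p.mul_mem_right (C (y a)) hf) (p.mul_mem_left f (h a)) using 1
    simp only [map_mul, eval_X]; ring

section
variable {K : ℕ} {w v : Fin (m + 1) → ℝ} (hw : ∀ a, 0 < w a) (hv : ∀ a, 0 < v a)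
  (T : Fin m → ℕ) (x : Fin K → Fin m → ℂ)

theorem loc_mem (j : Fin K) (a : Fin (m + 1)) :
    loc T (x j) a ∈ (jetFilt w (fun a => (hv a).le) T x).m j (v a) := by
  rw [mem_jet, psi_loc]
  exact X_mem_NI _ a

theorem top_of_const (p : Ideal (MvPolynomial (Fin (m + 1)) ℂ)) (j : Fin K) (a : Fin (m + 1))
    {c : ℂ} (hc : c ≠ 0) (h : loc T (x j) a - C c ∈ p) (e : ℝ) :
    p ⊔ (jetFilt w (fun a => (hv a).le) T x).m j e = ⊤ := by
  refine Filt.sup_eq_top _ p j (hv a) ?_ e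
  have : (1 : MvPolynomial (Fin (m + 1)) ℂ) =
      -(C c⁻¹ * (loc T (x j) a - C c)) + C c⁻¹ * loc T (x j) a := by
    rw [mul_sub, ← C_mul, inv_mul_cancel₀ hc, C_1]; ring
  rw [this]
  exact Submodule.add_mem_sup (neg_mem (p.mul_mem_left _ h))
    (Ideal.mul_mem_left _ _ (loc_mem hv T x j a))

include hw in
theorem case_point (hwv : ∀ i : Fin m, w i.succ ≤ v i.succ)
    (hx : ∀ i, Function.Injective fun j => x j i)
    (p : Ideal (MvPolynomial (Fin (m + 1)) ℂ)) (ht : X 0 - 1 ∈ p) (b : Fin m) (c : ℂ)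
    (hb : X b.succ - C c ∈ p) :
    (jetFilt w (fun a => (hv a).le) T x).Good 1 p ∨
      ∃ f H1 e1, f ∈ (jetFilt w (fun a => (hv a).le) T x).V H1 ∧ f ∉ p ∧ 0 < e1 ∧
        H1 ≤ 1 * e1 ∧ ∀ j, f ∈ p ⊔ (jetFilt w (fun a => (hv a).le) T x).m j e1 := by
  have htop : ∀ j, x j b ≠ c → ∀ e, p ⊔ (jetFilt w (fun a => (hv a).le) T x).m j e = ⊤ := by
    intro j hj
    refine top_of_const hv T x p j b.succ (sub_ne_zero.mpr hj.symm) ?_
    convert p.sub_mem hb (aeval_logP_mem p ht (T b)) using 1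
    simp only [loc, Fin.cons_succ, map_sub]; ring
  by_cases h0 : ∀ j, x j b ≠ c
  · exact Or.inl (Filt.good_of_mult _ p (Submonoid.one_mem _) one_pos fun j => by
      rw [htop j (h0 j)]; trivial)
  push Not at h0
  obtain ⟨j0, hj0⟩ := h0
  have htop' : ∀ j, j ≠ j0 → ∀ e, p ⊔ (jetFilt w (fun a => (hv a).le) T x).m j e = ⊤ :=
    fun j hj => htop j fun h => hj (hx b (h.trans hj0.symm))
  by_cases h1 : ∀ k : Fin m, X k.succ - C (x j0 k) ∈ p
  · refine Or.inl ⟨0, fun H e hH => ?_⟩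
    by_cases he : e ≤ 0
    · exact Filt.sur_nonpos _ _ _ he
    intro r
    refine ⟨1, Submonoid.one_mem _, C (eval (Fin.cons 1 (x j0)) (r j0)),
      C_mem_VH w (by linarith) _, fun j => ?_⟩
    by_cases hj : j = j0
    · rw [hj, one_mul]
      refine Ideal.mem_sup_left (sub_eval_mem p _ (fun a => ?_) _)
      refine Fin.cases ?_ (fun k => ?_) a
      · simpa using ht
      · simpa using h1 k
    · rw [htop' j hj]; trivial
  push Not at h1
  obtain ⟨k, hk⟩ := h1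
  refine Or.inr ⟨_, w k.succ, v k.succ, Submodule.sub_mem _ (X_mem_VH w _)
    (C_mem_VH w (hw _).le _), hk, hv _, by linarith [hwv k], fun j => ?_⟩
  by_cases hj : j = j0
  · have : X k.succ - C (x j0 k) =
        Polynomial.aeval (X 0 - 1) (logP (T k)) + loc T (x j0) k.succ := by
      simp only [loc, Fin.cons_succ]; ring
    rw [hj, this]
    exact Submodule.add_mem_sup (aeval_logP_mem p ht _) (loc_mem hv T x j0 _)
  · rw [htop' j hj]; trivial

include hw in
theorem case_add {η θ : ℝ} (hη : 0 < η) (hη1 : η ≤ 1) (hθ : 0 < θ) (hθ1 : θ ≤ 1)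
    (hwv : ∀ i : Fin m, w i.succ ≤ v i.succ) (hδ : ∀ i : Fin m, θ * v i.succ ≤ w i.succ)
    (hsep : ∀ a b, a < b → (2 * (m + 1) / (η * θ)) ^ (m + 1) * v a < w b)
    (hc : K * (1 + (m + 2) * η) ^ m * ∏ i : Fin m, w i.succ < ∏ i : Fin m, v i.succ)
    (hx : ∀ i, Function.Injective fun j => x j i)
    (p : Ideal (MvPolynomial (Fin (m + 1)) ℂ)) (hp : p.IsPrime) (ht : X 0 - 1 ∈ p) :
    (jetFilt w (fun a => (hv a).le) T x).Good 1 p ∨
      ∃ f H1 e1, f ∈ (jetFilt w (fun a => (hv a).le) T x).V H1 ∧ f ∉ p ∧ 0 < e1 ∧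
        H1 ≤ 1 * e1 ∧ ∀ j, f ∈ p ⊔ (jetFilt w (fun a => (hv a).le) T x).m j e1 := by
  obtain ⟨H, F, hH, hF0, hF, hFN⟩ := exists_aux' (w := fun i => w i.succ) (v := fun i => v i.succ)
    (fun i => hw _) (fun i => hv _) (fun j => tau (x j)) (by positivity) hc
  obtain ⟨p', hp', hpp⟩ : ∃ p' : Ideal (MvPolynomial (Fin m) ℂ), p'.IsPrime ∧
      ∀ f, f ∈ p' ↔ rename Fin.succ f ∈ p :=
    ⟨p.comap (rename (R := ℂ) Fin.succ), Ideal.comap_isPrime _ p, fun f => Iff.rfl⟩
  by_cases hall : ∀ l, cost (fun i : Fin m => v i.succ) l ≤ (Fintype.card (Fin m) + 1) * (η * H) →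
      wd pderiv l F ∈ p'
  · have hsep' : ∀ a b : Fin m, a < b →
        (2 * Fintype.card (Fin m) / (η * θ)) ^ Fintype.card (Fin m) * v a.succ < w b.succ := by
      intro a b hab
      refine lt_of_le_of_lt ?_ (hsep a.succ b.succ (by simpa using hab))
      have h1 : η * θ ≤ 1 := by nlinarith
      have h2 : (1 : ℝ) ≤ 2 * (m + 1) / (η * θ) := by
        rw [le_div_iff₀ (by positivity)]
        have : (0 : ℝ) ≤ m := by positivity
        linarith
      have := hv a.succ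
      rw [Fintype.card_fin]
      gcongr
      refine le_trans ?_ (pow_le_pow_right₀ h2 (Nat.le_succ m))
      gcongr
      linarith
    obtain ⟨b, c, hb⟩ := ze_add (σ := Fin m) (w := fun i => w i.succ) (v := fun i => v i.succ)
      (fun i => hw _) (fun i => hv _) hη hη1 hθ hθ1 hH hδ hsep' p' hp' hF0 hF
      (fun l hl => by convert hall l hl)
    exact case_point hw hv T x hwv hx p ht b c (by simpa [hpp] using hb)
  push Not at hall
  obtain ⟨l, hl, hlp⟩ := hall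
  refine Or.inr ⟨rename Fin.succ (wd pderiv l F), H, H, ?_, by rwa [← hpp], hH, by linarith,
    fun j => ?_⟩
  · have := wd_VH (σ := Fin m) (w := fun i => w i.succ) pderiv (fun a H f hf =>
      VH_mono _ (sub_le_self _ (hw a.succ).le) (pderiv_mem_VH hf a)) H l F hF
    refine mem_VH.mpr fun ν hν => ?_
    obtain ⟨μ, h1, rfl⟩ := rename_support hν
    rw [wt_mapDomain]
    exact mem_VH.mp this μ h1
  · have h1 := wd_NI (σ := Fin m) (v := fun i => v i.succ) (fun i => (hv _).le) (tau (x j)) pderiv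
      (fun a e f hf => by rw [tau_der]; exact pderiv_mem_NI _ hf a) l _ F (hFN j)
    rw [← sub_add_cancel (rename Fin.succ (wd pderiv l F))
      (aeval (loc T (x j)) (rename Fin.succ (tau (x j) (wd pderiv l F))))]
    refine Submodule.add_mem_sup (transfer p ht T _ _) ?_
    rw [mem_jet, psi_chi]
    refine mem_NI.mpr fun ν hν => ?_
    obtain ⟨μ, h2, rfl⟩ := rename_support hν
    rw [wt_mapDomain]
    refine le_trans ?_ (mem_NI.mp h1 μ h2)
    rw [Fintype.card_fin] at hl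
    nlinarith [mul_pos hη hH]

include hw in
theorem surj {η θ : ℝ} (hη : 0 < η) (hη1 : η ≤ 1) (hθ : 0 < θ) (hθ1 : θ ≤ 1)
    (hwv : ∀ i : Fin m, w i.succ ≤ v i.succ) (hδ : ∀ i : Fin m, θ * v i.succ ≤ w i.succ)
    (hsep : ∀ a b, a < b → (2 * (m + 1) / (η * θ)) ^ (m + 1) * v a < w b)
    (hT : ∀ i, v i.succ ≤ (T i + 1) * v 0)
    (hc1 : K * (1 + (m + 2) * η) ^ (m + 1) * ∏ a, w a < ∏ a, v a)
    (hc : K * (1 + (m + 2) * η) ^ m * ∏ i : Fin m, w i.succ < ∏ i : Fin m, v i.succ)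
    (hx : ∀ i, Function.Injective fun j => x j i) :
    ∃ a0, ∀ e, ∀ y : Fin K → MvPolynomial (Fin (m + 1)) ℂ, ∃ P ∈ VH w (e + a0),
      ∀ j, psi T (x j) P - y j ∈ NI (fun a => (hv a).le) e := by
  obtain ⟨H, F, hH, hF0, hF, hFN⟩ := exists_aux' hw hv (fun j => psi T (x j)) (by positivity) hc1
  have := (jetFilt w (fun a => (hv a).le) T x).good_bot (lam := 1) ?_ ⊥
  · obtain ⟨a0, h⟩ := this
    refine ⟨a0, fun e y => ?_⟩
    obtain ⟨s, hs, P, hP, h1⟩ := h (e + a0) e (by linarith) fun j => aeval (loc T (x j)) (y j)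
    refine ⟨P, hP, fun j => ?_⟩
    have h2 := h1 j
    rw [Submonoid.mem_bot.mp hs, one_mul, bot_sup_eq] at h2
    rwa [mem_jet, map_sub, psi_chi] at h2
  intro p hp
  by_cases hall : ∀ l, cost v l ≤ (m + 2) * (η * H) → wd (der m) l F ∈ p
  · obtain ⟨c, hc'⟩ := ze_mul hw hv hη hη1 hθ hθ1 hH hδ hsep p hp hF0 hF hall
    by_cases h1 : c = 1
    · exact case_add hw hv T x hη hη1 hθ hθ1 hwv hδ hsep hc hx p hp (by simpa [h1] using hc')
    · refine Or.inl (Filt.good_of_mult _ p (Submonoid.one_mem _) one_pos fun j => ?_)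
      rw [top_of_const hv T x p j 0 (sub_ne_zero.mpr h1)]
      · trivial
      · convert hc' using 1
        simp [loc]
  push Not at hall
  obtain ⟨l, hl, hlp⟩ := hall
  refine Or.inr ⟨wd (der m) l F, H, H, wd_VH _ (der_VH hw) H l F hF, hlp, hH, by linarith,
    fun j => Ideal.mem_sup_right ?_⟩
  have h1 := wd_NI (fun a => (hv a).le) (psi T (x j)) (der m)
    (psi_der_NI _ T hT (x j)) l _ F (hFN j)
  exact NI_anti _ (by nlinarith) h1

end

end Vale.Agent.P021
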