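import Vale.Agent.P021.NS

/-! Words in derivations, the index filtration along a prime, and independence of monomials. -/

namespace Vale.Agent.P021

open Finset

variable {A : Type*} [CommRing A] [Algebra ℂ A] {τ : Type*}

/-- Apply a word of derivations, first letter first. -/
def wd (δ : τ → Derivation ℂ A A) : List τ → A → A
  | [], f => f
  | a :: l, f => wd δ l (δ a f)

/-- The cost of a word. -/
def cost (v : τ → ℝ) (l : List τ) : ℝ := (l.map v).sum

@[simp] theorem cost_nil (v : τ → ℝ) : cost v [] = 0 := rfl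

@[simp] theorem cost_cons (v : τ → ℝ) (a : τ) (l : List τ) :
    cost v (a :: l) = v a + cost v l := by simp [cost]

theorem cost_append (v : τ → ℝ) (l l' : List τ) : cost v (l ++ l') = cost v l + cost v l' := by
  simp [cost]

theorem cost_nonneg {v : τ → ℝ} (hv : ∀ a, 0 ≤ v a) (l : List τ) : 0 ≤ cost v l := by
  induction l with
  | nil => simp
  | cons a l ih => rw [cost_cons]; linarith [hv a]

variable (δ : τ → Derivation ℂ A A)

theorem wd_append (l l' : List τ) (f : A) : wd δ (l ++ l') f = wd δ l' (wd δ l f) := by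
  induction l generalizing f with
  | nil => rfl
  | cons a l ih => simp only [List.cons_append, wd]; exact ih _

theorem wd_add (l : List τ) (f g : A) : wd δ l (f + g) = wd δ l f + wd δ l g := by
  induction l generalizing f g with
  | nil => rfl
  | cons a l ih => simp only [wd, map_add]; exact ih _ _

theorem wd_zero (l : List τ) : wd δ l 0 = 0 := by
  induction l with
  | nil => rfl
  | cons a l ih => simp only [wd, map_zero]; exact ih

theorem wd_sum {κ : Type*} (l : List τ) (S : Finset κ) (f : κ → A) :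
    wd δ l (∑ k ∈ S, f k) = ∑ k ∈ S, wd δ l (f k) := by
  classical
  induction S using Finset.induction_on with
  | empty => simp [wd_zero]
  | insert k S hk ih => rw [sum_insert hk, sum_insert hk, wd_add, ih]

theorem wd_mul_mem (q : Ideal A) {v : τ → ℝ} (l : List τ) :
    ∀ (a b : ℝ) (f g : A), (∀ l, cost v l < a → wd δ l f ∈ q) →
      (∀ l, cost v l < b → wd δ l g ∈ q) → cost v l < a + b → wd δ l (f * g) ∈ q := by
  induction l with
  | nil =>
    intro a b f g hf hg h
    simp only [cost_nil] at h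
    by_cases ha : 0 < a
    · exact q.mul_mem_right _ (hf [] ha)
    · exact q.mul_mem_left _ (hg [] (by simp; linarith))
  | cons x l ih =>
    intro a b f g hf hg h
    rw [cost_cons] at h
    simp only [wd, Derivation.leibniz, smul_eq_mul, wd_add]
    apply q.add_mem
    · refine ih a (b - v x) _ _ hf (fun l' hl' => hg (x :: l') ?_) (by linarith)
      rw [cost_cons]; linarith
    · refine ih b (a - v x) _ _ hg (fun l' hl' => hf (x :: l') ?_) (by linarith)
      rw [cost_cons]; linarith

/-- Elements all of whose derivatives of cost below `e` lie in `q`. -/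
def JI (q : Ideal A) {v : τ → ℝ} (hv : ∀ a, 0 ≤ v a) (e : ℝ) : Ideal A where
  carrier := {h | ∀ l, cost v l < e → wd δ l h ∈ q}
  add_mem' := fun {f g} hf hg l hl => by rw [wd_add]; exact q.add_mem (hf l hl) (hg l hl)
  zero_mem' := fun l _ => by rw [wd_zero]; exact q.zero_mem
  smul_mem' := fun c f hf l hl => by
    refine wd_mul_mem δ q l 0 e c f (fun l' hl' => ?_) hf (by simpa using hl)
    exact absurd hl' (not_lt.mpr (cost_nonneg hv l'))

theorem mem_JI {q : Ideal A} {v : τ → ℝ} {hv : ∀ a, 0 ≤ v a} {e : ℝ} {h : A} :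
    h ∈ JI δ q hv e ↔ ∀ l, cost v l < e → wd δ l h ∈ q := Iff.rfl

theorem JI_top (q : Ideal A) {v : τ → ℝ} (hv : ∀ a, 0 ≤ v a) {e : ℝ} (he : e ≤ 0) :
    JI δ q hv e = ⊤ := by
  rw [eq_top_iff]
  intro h _ l hl
  exact absurd hl (not_lt.mpr (he.trans (cost_nonneg hv l)))

theorem JI_mul (q : Ideal A) {v : τ → ℝ} (hv : ∀ a, 0 ≤ v a) (a b : ℝ) (f g : A)
    (hf : f ∈ JI δ q hv a) (hg : g ∈ JI δ q hv b) : f * g ∈ JI δ q hv (a + b) :=
  fun l hl => wd_mul_mem δ q l a b f g hf hg hl

theorem le_JI (q : Ideal A) {v : τ → ℝ} (hv : ∀ a, 0 ≤ v a) {e : ℝ} (he : ∀ a, e ≤ v a) :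
    q ≤ JI δ q hv e := by
  intro h hh l hl
  cases l with
  | nil => exact hh
  | cons a l =>
    rw [cost_cons] at hl
    linarith [he a, cost_nonneg hv l]

theorem der_pow (E : Derivation ℂ A A) (q : Ideal A) (k : ℕ) :
    ∀ h ∈ q ^ (k + 1), E h ∈ q ^ k := by
  induction k with
  | zero => intro h _; simp
  | succ k ih =>
    intro h hh
    rw [pow_succ] at hh
    refine Submodule.mul_induction_on hh (fun x hx y hy => ?_) (fun x y hx hy => ?_)
    · rw [Derivation.leibniz, smul_eq_mul, smul_eq_mul]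
      apply Ideal.add_mem
      · exact Ideal.mul_mem_right _ _ hx
      · rw [pow_succ']
        exact Ideal.mul_mem_mul hy (ih x hx)
    · rw [map_add]; exact Ideal.add_mem _ hx hy

theorem wd_pow (q : Ideal A) (l : List τ) :
    ∀ k, l.length < k → ∀ h ∈ q ^ k, wd δ l h ∈ q := by
  induction l with
  | nil => intro k hk h hh; exact Ideal.pow_le_self (by simp at hk; omega) hh
  | cons a l ih =>
    intro k hk h hh
    obtain ⟨k, rfl⟩ : ∃ k', k = k' + 1 := ⟨k - 1, by simp at hk; omega⟩
    exact ih k (by simpa using hk) _ (der_pow (δ a) q k h hh)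

omit [Algebra ℂ A] in
theorem prod_mem_pow {B : Type*} (q : Ideal A) (S : Finset B) (g : B → A)
    (β : B → ℕ) (hg : ∀ y ∈ S, g y ∈ q) : ∏ y ∈ S, g y ^ β y ∈ q ^ (∑ y ∈ S, β y) := by
  classical
  induction S using Finset.induction_on with
  | empty => simp
  | insert y S hy ih =>
    rw [prod_insert hy, sum_insert hy, pow_add]
    exact Ideal.mul_mem_mul (Ideal.pow_mem_pow (hg y (by simp)) _)
      (ih fun z hz => hg z (by simp [hz]))

theorem der_pow_mem (E : Derivation ℂ A A) (q : Ideal A) {g : A} (hg : g ∈ q) (hE : E g ∈ q)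
    (n : ℕ) : E (g ^ n) ∈ q ^ n := by
  cases n with
  | zero => simp
  | succ n =>
    rw [Derivation.leibniz_pow, smul_eq_mul, nsmul_eq_mul, pow_succ q]
    exact Ideal.mul_mem_left _ _ (Ideal.mul_mem_mul (Ideal.pow_mem_pow hg _) hE)

theorem der_prod_mem {B : Type*} (E : Derivation ℂ A A) (q : Ideal A) (S : Finset B) (g : B → A)
    (β : B → ℕ) (hg : ∀ y ∈ S, g y ∈ q) (hE : ∀ y ∈ S, E (g y) ∈ q) :
    E (∏ y ∈ S, g y ^ β y) ∈ q ^ (∑ y ∈ S, β y) := by
  classical
  induction S using Finset.induction_on with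
  | empty => simp
  | insert y S hy ih =>
    rw [prod_insert hy, sum_insert hy, pow_add, Derivation.leibniz, smul_eq_mul, smul_eq_mul]
    apply Ideal.add_mem
    · exact Ideal.mul_mem_mul (Ideal.pow_mem_pow (hg y (by simp)) _)
        (ih (fun z hz => hg z (by simp [hz])) (fun z hz => hE z (by simp [hz])))
    · rw [mul_comm (∏ y ∈ S, g y ^ β y)]
      exact Ideal.mul_mem_mul (der_pow_mem E q (hg y (by simp)) (hE y (by simp)) _)
        (prod_mem_pow q S g β fun z hz => hg z (by simp [hz]))

theorem der_mono {B : Type*} [Fintype B] [DecidableEq B] (E : Derivation ℂ A A) (q : Ideal A)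
    (g : B → A) (β : B → ℕ) (y : B) (s : A) (hg : ∀ y, g y ∈ q) (hE : ∀ z, z ≠ y → E (g z) ∈ q) :
    ∃ h ∈ q ^ (∑ z, β z), E (s * ∏ z, g z ^ β z) =
      ((β y : A) * s * E (g y)) * ∏ z, g z ^ (Function.update β y (β y - 1) z) + h := by
  have h1 : ∏ z, g z ^ β z = g y ^ β y * ∏ z ∈ univ.erase y, g z ^ β z :=
    (mul_prod_erase univ (fun z => g z ^ β z) (mem_univ y)).symm
  have h2 : ∏ z, g z ^ (Function.update β y (β y - 1) z) =
      g y ^ (β y - 1) * ∏ z ∈ univ.erase y, g z ^ β z := by
    rw [← mul_prod_erase univ _ (mem_univ y), Function.update_self]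
    congr 1
    exact prod_congr rfl fun z hz => by rw [Function.update_of_ne (ne_of_mem_erase hz)]
  have h3 : ∑ z, β z = β y + ∑ z ∈ univ.erase y, β z :=
    (add_sum_erase univ β (mem_univ y)).symm
  refine ⟨(∏ z, g z ^ β z) * E s + s * (g y ^ β y * E (∏ z ∈ univ.erase y, g z ^ β z)), ?_, ?_⟩
  · apply Ideal.add_mem
    · exact Ideal.mul_mem_right _ _ (prod_mem_pow q univ g β fun z _ => hg z)
    · rw [h3, pow_add]
      exact Ideal.mul_mem_left _ _ (Ideal.mul_mem_mul (Ideal.pow_mem_pow (hg y) _)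
        (der_prod_mem E q _ g β (fun z _ => hg z) fun z hz => hE z (ne_of_mem_erase hz)))
  · rw [h2, h1]
    simp only [Derivation.leibniz, Derivation.leibniz_pow, smul_eq_mul, nsmul_eq_mul]
    ring

theorem wd_mono {B : Type*} [Fintype B] [DecidableEq B] (q : Ideal A) (hq : q.IsPrime)
    (d : B → τ) (g : B → A) (hg : ∀ y, g y ∈ q) (hE : ∀ y z, z ≠ y → δ (d y) (g z) ∈ q)
    (hd : ∀ y, δ (d y) (g y) ∉ q) (l : List B) :
    ∀ (β : B → ℕ) (s : A), ∑ z, β z = l.length →
      ((∀ z, l.count z = β z) → s ∉ q → wd δ (l.map d) (s * ∏ z, g z ^ β z) ∉ q) ∧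
      (¬ (∀ z, l.count z = β z) → wd δ (l.map d) (s * ∏ z, g z ^ β z) ∈ q) := by
  induction l with
  | nil =>
    intro β s hβ
    have : ∀ z, β z = 0 := fun z => by
      have := single_le_sum (f := β) (fun _ _ => Nat.zero_le _) (mem_univ z)
      simp at hβ; exact hβ z
    simp [wd, this]
  | cons y l ih =>
    intro β s hβ
    obtain ⟨h, hh, he⟩ := der_mono (δ (d y)) q g β y s hg (hE y)
    have hw : wd δ (l.map d) h ∈ q := wd_pow δ q _ _ (by simp at hβ ⊢; omega) h hh
    simp only [List.map_cons, wd]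
    rw [he, wd_add]
    by_cases hy : β y = 0
    · simp only [hy, Nat.cast_zero, zero_mul, wd_zero, zero_add]
      refine ⟨fun hc => ?_, fun _ => hw⟩
      have := hc y
      simp [hy] at this
    · have hs : ∑ z, Function.update β y (β y - 1) z = l.length := by
        rw [sum_update_of_mem (mem_univ y)]
        rw [← add_sum_erase univ β (mem_univ y), List.length_cons] at hβ
        rw [sdiff_singleton_eq_erase]
        omega
      have hiff : (∀ z, (y :: l).count z = β z) ↔
          ∀ z, l.count z = Function.update β y (β y - 1) z := by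
        refine forall_congr' fun z => ?_
        by_cases hz : z = y
        · subst hz; simp; omega
        · rw [Function.update_of_ne hz, List.count_cons_of_ne (Ne.symm hz)]
      obtain ⟨i1, i2⟩ := ih _ ((β y : A) * s * δ (d y) (g y)) hs
      rw [hiff]
      refine ⟨fun hc hsq hmem => ?_, fun hc => q.add_mem (i2 hc) hw⟩
      refine i1 hc (fun hm => ?_) ((q.add_mem_iff_left hw).mp hmem)
      rcases hq.mem_or_mem hm with hm | hm
      · rcases hq.mem_or_mem hm with hm | hm
        · apply hq.ne_top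
          refine Ideal.eq_top_of_isUnit_mem _ hm ?_
          have : ((β y : ℕ) : A) = algebraMap ℂ A (β y) := by simp
          rw [this]
          exact (IsUnit.mk0 _ (by exact_mod_cast hy)).map _
        · exact hsq hm
      · exact hd y hm

theorem exists_list {B : Type*} [Fintype B] [DecidableEq B] (β : B → ℕ) :
    ∃ l : List B, ∀ z, l.count z = β z := by
  refine ⟨(Finsupp.toMultiset (Finsupp.equivFunOnFinite.symm β)).toList, fun z => ?_⟩
  rw [← Multiset.coe_count, Multiset.coe_toList, Finsupp.count_toMultiset]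
  rfl

theorem sum_map_count {B : Type*} [Fintype B] [DecidableEq B] (f : B → ℝ) (l : List B) :
    (l.map f).sum = ∑ z, (l.count z : ℝ) * f z := by
  induction l with
  | nil => simp
  | cons y l ih =>
    simp only [List.map_cons, List.sum_cons, ih, List.count_cons, beq_iff_eq]
    push_cast
    simp only [add_mul, sum_add_distrib, ite_mul, one_mul, zero_mul, sum_ite_eq, mem_univ,
      if_true]
    ring

theorem indep {B : Type*} [Fintype B] [DecidableEq B] (q : Ideal A) (hq : q.IsPrime)
    {v : τ → ℝ} (hv : ∀ a, 0 ≤ v a) (e : ℝ)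
    (d : B → τ) (g : B → A) (hg : ∀ y, g y ∈ q) (hE : ∀ y z, z ≠ y → δ (d y) (g z) ∈ q)
    (hd : ∀ y, δ (d y) (g y) ∉ q) (Λ : Finset (B → ℕ)) (s : (B → ℕ) → A)
    (hs : ∀ β ∈ Λ, s β ∈ q → s β = 0) (hΛ : ∀ β ∈ Λ, ∑ z, (β z : ℝ) * v (d z) < e)
    (hJ : ∑ β ∈ Λ, s β * ∏ z, g z ^ β z ∈ JI δ q hv e) : ∀ β ∈ Λ, s β = 0 := by
  classical
  by_contra hne
  push Not at hne
  obtain ⟨β0, h0, hmin⟩ := exists_min_image (Λ.filter fun β => s β ≠ 0) (fun β => ∑ z, β z)
    (by obtain ⟨β, h1, h2⟩ := hne; exact ⟨β, by simp [h1, h2]⟩)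
  rw [mem_filter] at h0
  obtain ⟨l, hl⟩ := exists_list β0
  have hlen : ∑ z, β0 z = l.length := by
    have := sum_map_count (fun _ => (1 : ℝ)) l
    simp only [List.map_const', List.sum_replicate, nsmul_eq_mul, mul_one, hl] at this
    exact_mod_cast this.symm
  have hc : cost v (l.map d) < e := by
    rw [cost, List.map_map, sum_map_count]
    simpa [hl] using hΛ β0 h0.1
  have h1 := hJ _ hc
  rw [wd_sum, ← add_sum_erase _ _ h0.1] at h1
  have h2 : ∑ β ∈ Λ.erase β0, wd δ (l.map d) (s β * ∏ z, g z ^ β z) ∈ q := by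
    refine Ideal.sum_mem _ fun β hβ => ?_
    by_cases hsb : s β = 0
    · simp [hsb, wd_zero]
    have hle := hmin β (by simp [mem_of_mem_erase hβ, hsb])
    rcases hle.lt_or_eq with hlt | heq
    · refine wd_pow δ q _ (∑ z, β z) (by simpa [← hlen] using hlt) _ ?_
      exact Ideal.mul_mem_left _ _ (prod_mem_pow q univ g β fun z _ => hg z)
    · refine (wd_mono δ q hq d g hg hE hd l β _ (by rw [← hlen]; exact heq.symm)).2 fun hc => ?_
      exact ne_of_mem_erase hβ (funext fun z => by rw [← hc z, hl z])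
  exact (wd_mono δ q hq d g hg hE hd l β0 _ hlen).1 hl (fun h => h0.2 (hs β0 h0.1 h))
    ((q.add_mem_iff_left h2).mp h1)

end Vale.Agent.P021
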