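import Vale.Agent.P021.PT

/-! The zero estimate: a polynomial vanishing to high order along a prime. -/

namespace Vale.Agent.P021

open Finset MvPolynomial

theorem chain {A : Type*} [CommRing A] (I : ℕ → Ideal A) (hI : Monotone I) (k : ℕ) :
    ∀ q ∈ (I k).minimalPrimes, (∃ j < k, ∃ q' ∈ (I j).minimalPrimes, q' ≤ q ∧ I (j + 1) ≤ q') ∨
      (k : ℕ∞) ≤ q.height := by
  induction k with
  | zero => intro q _; right; simp
  | succ k ih =>
    intro q hq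
    have := hq.isPrime
    obtain ⟨q1, h1, h2⟩ := Ideal.exists_minimalPrimes_le ((hI (Nat.le_succ k)).trans hq.le)
    have := h1.isPrime
    by_cases h3 : I (k + 1) ≤ q1
    · exact Or.inl ⟨k, Nat.lt_succ_self k, q1, h1, h2, h3⟩
    rcases ih q1 h1 with ⟨j, hj, q', h4, h5, h6⟩ | h4
    · exact Or.inl ⟨j, hj.trans (Nat.lt_succ_self k), q', h4, h5.trans h2, h6⟩
    · right
      have h5 : q1 < q := lt_of_le_of_ne h2 fun h => h3 (h ▸ hq.le)
      push_cast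
      exact (add_le_add_left h4 1).trans (Ideal.height_add_one_le_of_lt_of_isPrime h5)

variable {σ : Type*} [Fintype σ] [LinearOrder σ] [LocallyFiniteOrderBot σ]

omit [LinearOrder σ] [LocallyFiniteOrderBot σ] in
theorem wd_VH {w : σ → ℝ} (δ : σ → Derivation ℂ (MvPolynomial σ ℂ) (MvPolynomial σ ℂ))
    (hV : ∀ a H f, f ∈ VH w H → δ a f ∈ VH w H) (H : ℝ) (l : List σ) :
    ∀ f, f ∈ VH w H → wd δ l f ∈ VH w H := by
  induction l with
  | nil => exact fun f hf => hf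
  | cons a l ih => exact fun f hf => ih _ (hV a H f hf)

theorem ze {w v : σ → ℝ} (hw : ∀ a, 0 < w a) (hv : ∀ a, 0 < v a)
    (δ : σ → Derivation ℂ (MvPolynomial σ ℂ) (MvPolynomial σ ℂ))
    (hV : ∀ a H f, f ∈ VH w H → δ a f ∈ VH w H)
    {η θ H : ℝ} (hη : 0 < η) (hη1 : η ≤ 1) (hθ : 0 < θ) (hθ1 : θ ≤ 1) (hH : 0 < H)
    (hδ : ∀ a y, a < y → δ y = pderiv y ∧ θ * v y ≤ w y)
    (hsep : ∀ a b, a < b → (2 * Fintype.card σ / (η * θ)) ^ Fintype.card σ * v a < w b)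
    (p : Ideal (MvPolynomial σ ℂ)) (hp : p.IsPrime) {F : MvPolynomial σ ℂ} (hF0 : F ≠ 0)
    (hF : F ∈ VH w H)
    (hall : ∀ l, cost v l ≤ (Fintype.card σ + 1) * (η * H) → wd δ l F ∈ p) :
    ∃ q : Ideal (MvPolynomial σ ℂ), q.IsPrime ∧ q ≤ p ∧ ∃ b f μ0, Indep q (Iio b) ∧
      f ∈ supported ℂ (Set.Iic b) ∧ f ∈ q ∧ μ0 ∈ f.support ∧ (∀ a, a < b → δ a f ∈ q) ∧
      (∀ μ ∈ f.support, toLex μ ≤ toLex μ0) ∧
      ∀ g ∈ supported ℂ (Set.Iic b), g ∈ q → (∀ μ ∈ g.support, toLex μ < toLex μ0) → g = 0 := by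
  classical
  set n := Fintype.card σ with hn
  let I : ℕ → Ideal (MvPolynomial σ ℂ) := fun k =>
    Ideal.span {g | ∃ l, cost v l ≤ k * (η * H) ∧ g = wd δ l F}
  have hI : Monotone I := by
    intro j k hjk
    apply Ideal.span_mono
    rintro g ⟨l, hl, rfl⟩
    exact ⟨l, hl.trans (by gcongr), rfl⟩
  have hIp : I (n + 1) ≤ p := by
    rw [Ideal.span_le]
    rintro g ⟨l, hl, rfl⟩
    exact hall l (by exact_mod_cast hl)
  obtain ⟨q1, hq1, hq1p⟩ := Ideal.exists_minimalPrimes_le hIp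
  obtain ⟨j, -, q, hq, hqq, hj⟩ : ∃ j < n + 1, ∃ q ∈ (I j).minimalPrimes, q ≤ q1 ∧
      I (j + 1) ≤ q := by
    refine (chain I hI (n + 1) q1 hq1).resolve_right fun h => ?_
    have := hq1.isPrime
    have h1 := (WithBot.coe_le_coe.mpr h).trans q1.height_le_ringKrullDim_of_isPrime
    rw [MvPolynomial.ringKrullDim_of_isNoetherianRing, ringKrullDim_eq_zero_of_field,
      Nat.card_eq_fintype_card, zero_add] at h1
    have h2 : n + 1 ≤ n := by exact_mod_cast h1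
    omega
  have hqp := hq.isPrime
  refine ⟨q, hqp, hqq.trans hq1p, ?_⟩
  have hmin : ∀ p' : Ideal (MvPolynomial σ ℂ), p'.IsPrime → p' < q →
      ∃ g ∈ VH w H, g ∉ p' ∧ g ∈ JI δ q (fun a => (hv a).le) (η * H) := by
    intro p' hp' hlt
    have h1 : ¬ I j ≤ p' := fun h => hlt.not_ge (hq.2 ⟨hp', h⟩ hlt.le)
    rw [Ideal.span_le, Set.not_subset] at h1
    obtain ⟨g, ⟨l, hl, rfl⟩, hg⟩ := h1
    refine ⟨_, wd_VH δ hV H l F hF, hg, fun l' hl' => hj (Ideal.subset_span ⟨l ++ l', ?_, ?_⟩)⟩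
    · rw [cost_append]; push_cast; linarith
    · rw [wd_append]
  have hFq : F ∈ q := hq.le (Ideal.subset_span ⟨[], by simp; positivity, rfl⟩)
  have hne : (univ.filter fun b : σ => ¬ Indep q (Iic b)).Nonempty := by
    rcases isEmpty_or_nonempty σ with h | h
    · exfalso
      apply hqp.ne_top
      rw [eq_C_of_isEmpty F] at hFq hF0
      refine Ideal.eq_top_of_isUnit_mem _ hFq ((IsUnit.mk0 _ fun h => hF0 ?_).map C)
      rw [h, C_0]
    · obtain ⟨b, hb⟩ := Finite.exists_max (id : σ → σ)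
      refine ⟨b, mem_filter.mpr ⟨mem_univ _, fun h => hF0 (h F ?_ hFq)⟩⟩
      exact mem_supp.mpr fun μ _ a ha => absurd (mem_coe.mpr (mem_Iic.mpr (hb a))) ha
  obtain ⟨b, hb, hbmin⟩ := exists_min_image _ id hne
  simp only [mem_filter, mem_univ, true_and, id] at hb hbmin
  have hind : Indep q (Iio b) := by
    rcases (Iio b).eq_empty_or_nonempty with h | h
    · intro f hf hfq
      rw [h, coe_empty, supported_empty, Algebra.mem_bot] at hf
      obtain ⟨c, rfl⟩ := hf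
      by_contra h0
      refine hqp.ne_top (Ideal.eq_top_of_isUnit_mem _ hfq ((IsUnit.mk0 c fun h => h0 ?_).map _))
      rw [h, map_zero]
    · obtain ⟨a, ha, hamax⟩ := exists_max_image _ id h
      have h1 : Indep q (Iic a) := by
        by_contra h2
        exact (hbmin a h2).not_gt (mem_Iio.mp ha)
      intro f hf
      exact h1 f (supported_mono (fun x hx => mem_coe.mpr (mem_Iic.mpr (hamax x hx))) hf)
  let S : Set (Lex (σ →₀ ℕ)) := {x | ∃ f ∈ supported ℂ (Set.Iic b), f ∈ q ∧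
    ofLex x ∈ f.support ∧ ∀ μ ∈ f.support, toLex μ ≤ x}
  have hS : ∀ f ∈ supported ℂ (Set.Iic b), f ∈ q → f ≠ 0 → ∃ x ∈ S, ofLex x ∈ f.support := by
    intro f hf hfq hf0
    obtain ⟨μ, h1, h2⟩ := exists_max_image f.support toLex (support_nonempty.mpr hf0)
    exact ⟨toLex μ, ⟨f, hf, hfq, h1, h2⟩, h1⟩
  have hSne : S.Nonempty := by
    unfold Indep at hb
    push Not at hb
    obtain ⟨f, h1, h2, h3⟩ := hb
    obtain ⟨x, hx, -⟩ := hS f (by simpa using h1) h2 h3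
    exact ⟨x, hx⟩
  have hwf : WellFounded ((· < ·) : Lex (σ →₀ ℕ) → Lex (σ →₀ ℕ) → Prop) := wellFounded_lt
  obtain ⟨x, ⟨f, hf, hfq, hx, hmax⟩, hxmin⟩ := hwf.has_min S hSne
  refine ⟨b, f, ofLex x, hind, hf, hfq, hx, fun a hab => ?_, hmax, fun g hg hgq hlt => ?_⟩
  · refine pt hw hv δ q hqp hη hη1 hθ hθ1 hH hmin (Iio b) hind a b (fun y hy hyb => ?_) f ?_ hfq
      (hsep a b hab)
    · exact hδ b y (lt_of_le_of_ne (by simpa using hy) (Ne.symm hyb))
    · simpa using hf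
  · by_contra h0
    obtain ⟨y, hy, hyg⟩ := hS g hg hgq h0
    exact hxmin y hy (hlt _ hyg)

omit [Fintype σ] [LocallyFiniteOrderBot σ] in
theorem lex_lt_of_add {μ μ0 : σ →₀ ℕ} {a : σ} (h : toLex (μ + Finsupp.single a 1) ≤ toLex μ0) :
    toLex μ < toLex μ0 := by
  refine lt_of_lt_of_le (Finsupp.toLex_monotone.strictMono_of_injective toLex.injective ?_) h
  refine lt_of_le_of_ne le_self_add fun h => ?_
  have := congrArg (fun ν => ν a) h
  simp at this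

omit [Fintype σ] [LinearOrder σ] [LocallyFiniteOrderBot σ] in
theorem exists_root {q : Ideal (MvPolynomial σ ℂ)} (hq : q.IsPrime) {b : σ}
    {f : MvPolynomial σ ℂ} (hf : f ∈ supported ℂ {b}) (hfq : f ∈ q) (hf0 : f ≠ 0) :
    ∃ c : ℂ, X b - C c ∈ q := by
  rw [supported_eq_adjoin_X, Set.image_singleton, Algebra.adjoin_singleton_eq_range_aeval] at hf
  obtain ⟨P, rfl⟩ := hf
  have hP : P ≠ 0 := by rintro rfl; simp at hf0
  have h1 : P ∈ q.comap (Polynomial.aeval (R := ℂ) (X b : MvPolynomial σ ℂ)).toRingHom := hfq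
  have h2 : (q.comap (Polynomial.aeval (R := ℂ) (X b : MvPolynomial σ ℂ)).toRingHom).IsPrime :=
    Ideal.comap_isPrime _ _
  rw [(IsAlgClosed.splits P).eq_prod_roots] at h1
  rcases h2.mem_or_mem h1 with h3 | h3
  · exact absurd (Ideal.eq_top_of_isUnit_mem _ h3 ((IsUnit.mk0 _
      (Polynomial.leadingCoeff_ne_zero.mpr hP)).map Polynomial.C)) h2.ne_top
  · obtain ⟨x, hx, h4⟩ := (h2.multiset_prod_mem_iff_exists_mem _).mp h3
    obtain ⟨c, -, rfl⟩ := Multiset.mem_map.mp hx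
    exact ⟨c, by simpa using h4⟩

theorem ze_add {w v : σ → ℝ} (hw : ∀ a, 0 < w a) (hv : ∀ a, 0 < v a)
    {η θ H : ℝ} (hη : 0 < η) (hη1 : η ≤ 1) (hθ : 0 < θ) (hθ1 : θ ≤ 1) (hH : 0 < H)
    (hδ : ∀ y, θ * v y ≤ w y)
    (hsep : ∀ a b, a < b → (2 * Fintype.card σ / (η * θ)) ^ Fintype.card σ * v a < w b)
    (p : Ideal (MvPolynomial σ ℂ)) (hp : p.IsPrime) {F : MvPolynomial σ ℂ} (hF0 : F ≠ 0)
    (hF : F ∈ VH w H)
    (hall : ∀ l, cost v l ≤ (Fintype.card σ + 1) * (η * H) → wd pderiv l F ∈ p) :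
    ∃ b, ∃ c : ℂ, X b - C c ∈ p := by
  obtain ⟨q, hq, hqp, b, f, μ0, -, hf, hfq, hμ, hd, hmax, hmin⟩ :=
    ze hw hv pderiv (fun a H f hf => VH_mono w (by linarith [hw a]) (pderiv_mem_VH hf a))
      hη hη1 hθ hθ1 hH (fun _ y _ => ⟨rfl, hδ y⟩) hsep p hp hF0 hF hall
  suffices h : f ∈ supported ℂ {b} by
    obtain ⟨c, hc⟩ := exists_root hq h hfq (ne_zero_iff.mpr ⟨μ0, by simpa using hμ⟩)
    exact ⟨b, c, hqp hc⟩
  refine mem_supp.mpr fun μ hμ a ha => ?_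
  rcases lt_trichotomy a b with h | h | h
  · refine apply_eq_zero_of_pderiv (hmin _ (pderiv_supp hf a) (hd a h) fun ν hν => ?_) hμ
    exact lex_lt_of_add (hmax _ (mem_support_pderiv.mp hν))
  · exact absurd h ha
  · exact mem_supp.mp hf μ hμ a (by simpa using h)

end Vale.Agent.P021
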